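import Mathlib

/-!
# P329L: the group theory step (helper24)

If a group `P` acts faithfully on a finite set `O`, `th : P →* G` is onto a nonabelian simple group
and some subgroup `D` of `P` with image `{1, t}`, `t ≠ 1`, is transitive on a set `Q` and trivial
outside `Q`, then `|G| ≤ |Q|!`.
-/

namespace Vale.Agent.P329L

open MulAction

/-- In a nonabelian simple group acting on the cosets of `K`, an element `t ≠ 1` that moves at most
two points only when they are swapped forces `K = ⊤`. -/
theorem Grp_coset {G : Type*} [Group G] [Finite G] [IsSimpleGroup G]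
    (hG : ∃ a b : G, a * b ≠ b * a) (K : Subgroup G) (t : G) (ht : t ≠ 1) (htt : t * t = 1)
    (h : ∀ x y : G ⧸ K, t • x ≠ x → t • y ≠ y → y = x ∨ y = t • x) : K = ⊤ := by
  classical
  have := Fintype.ofFinite (G ⧸ K)
  set f : G →* Equiv.Perm (G ⧸ K) := MulAction.toPermHom G (G ⧸ K) with hf
  have hfa : ∀ (g : G) (x : G ⧸ K), f g x = g • x := fun g x => rfl
  -- f t = 1
  have hft : f t = 1 := by
    by_contra hne
    obtain ⟨x, hx⟩ : ∃ x, f t x ≠ x := by
      by_contra hc
      push Not at hc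
      exact hne (Equiv.ext hc)
    have hx' : t • x ≠ x := hx
    have hsw : f t = Equiv.swap x (t • x) := by
      ext y
      by_cases hy : t • y = y
      · have hyx : y ≠ x := by
          rintro rfl
          exact hx' hy
        have hytx : y ≠ t • x := by
          intro he
          apply hx'
          have h1 : t • y = t • t • x := by rw [he]
          rw [smul_smul, htt, one_smul, hy, he] at h1
          exact h1
        rw [Equiv.swap_apply_of_ne_of_ne hyx hytx, hfa, hy]
      · rcases h x y hx' hy with rfl | rfl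
        · rw [Equiv.swap_apply_left, hfa]
        · rw [Equiv.swap_apply_right, hfa, smul_smul, htt, one_smul]
    set s : G →* ℤˣ := Equiv.Perm.sign.comp f with hs
    have hst : s t = -1 := by
      rw [hs, MonoidHom.comp_apply, hsw, Equiv.Perm.sign_swap (Ne.symm hx')]
    rcases (inferInstance : s.ker.Normal).eq_bot_or_eq_top with hk | hk
    · have hinj : Function.Injective s := (MonoidHom.ker_eq_bot_iff s).1 hk
      obtain ⟨a, b, hab⟩ := hG
      apply hab
      apply hinj
      rw [map_mul, map_mul, mul_comm]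
    · have h1 : t ∈ s.ker := by
        rw [hk]
        exact Subgroup.mem_top t
      rw [MonoidHom.mem_ker, hst] at h1
      exact absurd h1 (by decide)
  have hker : f.ker = ⊤ := by
    rcases (inferInstance : f.ker.Normal).eq_bot_or_eq_top with hk | hk
    · exfalso
      apply ht
      have h1 : t ∈ f.ker := hft
      rw [hk] at h1
      exact Subgroup.mem_bot.1 h1
    · exact hk
  rw [eq_top_iff]
  intro g _
  have h1 : g ∈ f.ker := by
    rw [hker]
    exact Subgroup.mem_top g
  have h2 : f g ((1 : G) : G ⧸ K) = ((1 : G) : G ⧸ K) := by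
    rw [MonoidHom.mem_ker.1 h1]
    rfl
  rw [hfa] at h2
  have h3 : ((g * 1 : G) : G ⧸ K) = ((1 : G) : G ⧸ K) := h2
  rw [mul_one] at h3
  have h4 := QuotientGroup.eq.1 h3
  simpa using K.inv_mem_iff.1 (by simpa using h4)

/-- adding one point -/
theorem Grp_step {P O G : Type*} [Group P] [MulAction P O] [Group G] [Finite G] [IsSimpleGroup G]
    (hG : ∃ a b : G, a * b ≠ b * a) (th : P →* G) (D : Subgroup P) (Q : Set O)
    (hfix : ∀ d ∈ D, ∀ x ∉ Q, d • x = x) (htr : ∀ x ∈ Q, ∀ y ∈ Q, ∃ d ∈ D, d • x = y)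
    (t : G) (ht : t ≠ 1) (hD : ∀ d ∈ D, th d = 1 ∨ th d = t) (htD : ∃ d ∈ D, th d = t)
    (H : Subgroup P) (hDH : D ≤ H) (hH : H.map th = ⊤) (w : O) :
    (H ⊓ stabilizer P w).map th = ⊤ := by
  obtain ⟨d, hdD, hdt⟩ := htD
  have htt : t * t = 1 := by
    have h1 := hD (d * d) (D.mul_mem hdD hdD)
    rw [map_mul, hdt] at h1
    rcases h1 with h1 | h1
    · exact h1
    · exact absurd (mul_eq_left.1 h1) ht
  set K : Subgroup G := (H ⊓ stabilizer P w).map th with hK
  have hmem : ∀ g : G, ∃ p ∈ H, th p = g := by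
    intro g
    have h1 : g ∈ H.map th := by
      rw [hH]
      exact Subgroup.mem_top g
    exact Subgroup.mem_map.1 h1
  -- a moved coset is represented only by elements sending w into Q
  have hmov : ∀ p ∈ H, t • ((th p : G) : G ⧸ K) ≠ ((th p : G) : G ⧸ K) → p • w ∈ Q := by
    intro p hp hne
    by_contra hq
    apply hne
    have h1 : d • p • w = p • w := hfix d hdD _ hq
    have h2 : p⁻¹ * (d * p) ∈ H ⊓ stabilizer P w := by
      refine Subgroup.mem_inf.2 ⟨H.mul_mem (H.inv_mem hp) (H.mul_mem (hDH hdD) hp), ?_⟩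
      rw [mem_stabilizer_iff, mul_smul, mul_smul, h1, inv_smul_smul]
    have h3 : th (p⁻¹ * (d * p)) ∈ K := Subgroup.mem_map_of_mem th h2
    rw [map_mul, map_mul, map_inv, hdt] at h3
    have h4 : ((t * th p : G) : G ⧸ K) = ((th p : G) : G ⧸ K) :=
      (QuotientGroup.eq.2 h3).symm
    exact h4
  refine Grp_coset hG K t ht htt ?_
  intro x y hx hy
  obtain ⟨g, rfl⟩ := QuotientGroup.mk_surjective x
  obtain ⟨g', rfl⟩ := QuotientGroup.mk_surjective y
  obtain ⟨p, hp, rfl⟩ := hmem g
  obtain ⟨p', hp', rfl⟩ := hmem g'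
  have h1 := hmov p hp hx
  have h2 := hmov p' hp' hy
  obtain ⟨e, heD, he⟩ := htr _ h1 _ h2
  have h3 : p'⁻¹ * (e * p) ∈ H ⊓ stabilizer P w := by
    refine Subgroup.mem_inf.2 ⟨H.mul_mem (H.inv_mem hp') (H.mul_mem (hDH heD) hp), ?_⟩
    rw [mem_stabilizer_iff, mul_smul, mul_smul, he, inv_smul_smul]
  have h4 : th (p'⁻¹ * (e * p)) ∈ K := Subgroup.mem_map_of_mem th h3
  rw [map_mul, map_mul, map_inv] at h4
  have h5 : ((th p' : G) : G ⧸ K) = ((th e * th p : G) : G ⧸ K) := QuotientGroup.eq.2 h4
  rcases hD e heD with he1 | he1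
  · left
    rw [h5, he1, one_mul]
  · right
    rw [h5, he1]
    rfl

/-- the pointwise stabilizer of a finite set disjoint from `Q` still maps onto `G` -/
theorem Grp_fix {P O G : Type*} [Group P] [MulAction P O] [Group G] [Finite G] [IsSimpleGroup G]
    (hG : ∃ a b : G, a * b ≠ b * a) (th : P →* G) (hth : Function.Surjective th)
    (D : Subgroup P) (Q : Set O)
    (hfix : ∀ d ∈ D, ∀ x ∉ Q, d • x = x) (htr : ∀ x ∈ Q, ∀ y ∈ Q, ∃ d ∈ D, d • x = y)
    (t : G) (ht : t ≠ 1) (hD : ∀ d ∈ D, th d = 1 ∨ th d = t) (htD : ∃ d ∈ D, th d = t)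
    (S : Finset O) (hS : ∀ w ∈ S, w ∉ Q) :
    ∃ H : Subgroup P, D ≤ H ∧ H.map th = ⊤ ∧ ∀ p ∈ H, ∀ w ∈ S, p • w = w := by
  classical
  induction S using Finset.induction_on with
  | empty =>
    refine ⟨⊤, le_top, ?_, ?_⟩
    · rw [← MonoidHom.range_eq_map]
      exact MonoidHom.range_eq_top.2 hth
    · intro p _ w hw
      simp at hw
  | insert w S hw ih =>
    obtain ⟨H, h1, h2, h3⟩ := ih fun x hx => hS x (Finset.mem_insert_of_mem hx)
    refine ⟨H ⊓ stabilizer P w, ?_,
      Grp_step hG th D Q hfix htr t ht hD htD H h1 h2 w, ?_⟩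
    · intro d hd
      refine Subgroup.mem_inf.2 ⟨h1 hd, ?_⟩
      rw [mem_stabilizer_iff]
      exact hfix d hd w (hS w (Finset.mem_insert_self w S))
    · intro p hp x hx
      rw [Finset.mem_insert] at hx
      rcases hx with rfl | hx
      · exact mem_stabilizer_iff.1 hp.2
      · exact h3 p hp.1 x hx

/-- **Group step.** -/
theorem Grp_card_faithful {P O G : Type*} [Group P] [Finite O] [MulAction P O] [FaithfulSMul P O]
    [Group G] [IsSimpleGroup G] (hG : ∃ a b : G, a * b ≠ b * a) (th : P →* G)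
    (hth : Function.Surjective th) (D : Subgroup P) (Q : Set O)
    (hfix : ∀ d ∈ D, ∀ x ∉ Q, d • x = x) (htr : ∀ x ∈ Q, ∀ y ∈ Q, ∃ d ∈ D, d • x = y)
    (t : G) (ht : t ≠ 1) (hD : ∀ d ∈ D, th d = 1 ∨ th d = t) (htD : ∃ d ∈ D, th d = t) :
    Nat.card G ≤ (Nat.card Q).factorial := by
  classical
  have hP : Finite P :=
    Finite.of_injective (MulAction.toPermHom P O) MulAction.toPerm_injective
  have hGf : Finite G := Finite.of_surjective th hth
  have := Fintype.ofFinite O
  obtain ⟨H, h1, h2, h3⟩ := Grp_fix hG th hth D Q hfix htr t ht hD htD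
    (Finset.univ.filter fun w => w ∉ Q) (by simp)
  have h3' : ∀ p ∈ H, ∀ w ∉ Q, p • w = w := fun p hp w hw => h3 p hp w (by simp [hw])
  -- H acts on Q
  have hQ : ∀ p ∈ H, ∀ x ∈ Q, p • x ∈ Q := by
    intro p hp x hx
    by_contra hc
    have h4 := h3' p hp _ hc
    have h5 : p • x = x := smul_left_cancel p h4
    rw [h5] at hc
    exact hc hx
  let F : H → Equiv.Perm Q := fun p =>
    { toFun := fun x => ⟨(p : P) • (x : O), hQ p p.2 x x.2⟩
      invFun := fun x => ⟨(p : P)⁻¹ • (x : O), hQ _ (H.inv_mem p.2) x x.2⟩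
      left_inv := fun x => Subtype.ext (inv_smul_smul _ _)
      right_inv := fun x => Subtype.ext (smul_inv_smul _ _) }
  have hF : Function.Injective F := by
    intro p q hpq
    apply Subtype.ext
    apply FaithfulSMul.eq_of_smul_eq_smul (α := O)
    intro x
    by_cases hx : x ∈ Q
    · have h4 := congrArg (fun e : Equiv.Perm Q => ((e ⟨x, hx⟩ : Q) : O)) hpq
      exact h4
    · rw [h3' p p.2 x hx, h3' q q.2 x hx]
  have hH : Nat.card H ≤ (Nat.card Q).factorial := by
    have h4 := Nat.card_le_card_of_injective F hF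
    rwa [Nat.card_perm] at h4
  have hsur : Function.Surjective fun p : H => th p := by
    intro g
    have h4 : g ∈ H.map th := by
      rw [h2]
      exact Subgroup.mem_top g
    obtain ⟨p, hp, hpg⟩ := Subgroup.mem_map.1 h4
    exact ⟨⟨p, hp⟩, hpg⟩
  exact (Nat.card_le_card_of_surjective _ hsur).trans hH

/-- version without faithfulness: only `ker (P → Perm O) ≤ ker th` is needed -/
theorem Grp_card_ker {P O G : Type*} [Group P] [Finite O] [MulAction P O]
    [Group G] [IsSimpleGroup G] (hG : ∃ a b : G, a * b ≠ b * a) (th : P →* G)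
    (hth : Function.Surjective th) (hker : ∀ p : P, (∀ x : O, p • x = x) → th p = 1)
    (D : Subgroup P) (Q : Set O)
    (hfix : ∀ d ∈ D, ∀ x ∉ Q, d • x = x) (htr : ∀ x ∈ Q, ∀ y ∈ Q, ∃ d ∈ D, d • x = y)
    (t : G) (ht : t ≠ 1) (hD : ∀ d ∈ D, th d = 1 ∨ th d = t) (htD : ∃ d ∈ D, th d = t) :
    Nat.card G ≤ (Nat.card Q).factorial := by
  classical
  have hkey : ∀ p q : P, (∀ x : O, p • x = q • x) → th p = th q := by
    intro p q hpq
    have h1 := hker (q⁻¹ * p) fun x => by rw [mul_smul, hpq, inv_smul_smul]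
    rw [map_mul, map_inv, inv_mul_eq_one] at h1
    exact h1.symm
  have hGf : Finite G := by
    choose f hf using hth
    refine Finite.of_injective (fun g => MulAction.toPermHom P O (f g)) ?_
    intro g g' hgg
    have h1 := hkey (f g) (f g') fun x => congrArg (fun e : Equiv.Perm O => e x) hgg
    rwa [hf, hf] at h1
  have := Fintype.ofFinite O
  obtain ⟨H, h1, h2, h3⟩ := Grp_fix hG th hth D Q hfix htr t ht hD htD
    (Finset.univ.filter fun w => w ∉ Q) (by simp)
  have h3' : ∀ p ∈ H, ∀ w ∉ Q, p • w = w := fun p hp w hw => h3 p hp w (by simp [hw])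
  have hQ : ∀ p ∈ H, ∀ x ∈ Q, p • x ∈ Q := by
    intro p hp x hx
    by_contra hc
    have h4 := h3' p hp _ hc
    have h5 : p • x = x := smul_left_cancel p h4
    rw [h5] at hc
    exact hc hx
  let F : H → Equiv.Perm Q := fun p =>
    { toFun := fun x => ⟨(p : P) • (x : O), hQ p p.2 x x.2⟩
      invFun := fun x => ⟨(p : P)⁻¹ • (x : O), hQ _ (H.inv_mem p.2) x x.2⟩
      left_inv := fun x => Subtype.ext (inv_smul_smul _ _)
      right_inv := fun x => Subtype.ext (smul_inv_smul _ _) }
  have hsur : ∀ g : G, ∃ p : H, th p = g := by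
    intro g
    have h4 : g ∈ H.map th := by
      rw [h2]
      exact Subgroup.mem_top g
    obtain ⟨p, hp, hpg⟩ := Subgroup.mem_map.1 h4
    exact ⟨⟨p, hp⟩, hpg⟩
  choose f hf using hsur
  have hinj : Function.Injective fun g => F (f g) := by
    intro g g' hgg
    have h5 := hkey (f g) (f g') fun x => by
      by_cases hx : x ∈ Q
      · exact congrArg (fun e : Equiv.Perm Q => ((e ⟨x, hx⟩ : Q) : O)) hgg
      · rw [h3' _ (f g).2 x hx, h3' _ (f g').2 x hx]
    rwa [hf, hf] at h5
  have h4 := Nat.card_le_card_of_injective _ hinj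
  rwa [Nat.card_perm] at h4

/-- two normal subgroups mapping onto a nonabelian simple group: so does the intersection -/
theorem Grp_inf {H G : Type*} [Group H] [Group G] [IsSimpleGroup G]
    (hG : ∃ a b : G, a * b ≠ b * a) (th : H →* G) (hth : Function.Surjective th)
    (A B : Subgroup H) [hA : A.Normal] [hB : B.Normal] (h1 : A.map th = ⊤) (h2 : B.map th = ⊤) :
    (A ⊓ B).map th = ⊤ := by
  have hn : ((A ⊓ B).map th).Normal := Subgroup.Normal.map inferInstance th hth
  rcases hn.eq_bot_or_eq_top with h | h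
  · exfalso
    obtain ⟨a, b, hab⟩ := hG
    obtain ⟨x, hx, hxa⟩ : ∃ x ∈ A, th x = a := Subgroup.mem_map.1 (by
      rw [h1]
      exact Subgroup.mem_top a)
    obtain ⟨y, hy, hyb⟩ : ∃ y ∈ B, th y = b := Subgroup.mem_map.1 (by
      rw [h2]
      exact Subgroup.mem_top b)
    have hm : x * y * x⁻¹ * y⁻¹ ∈ A ⊓ B := by
      refine Subgroup.mem_inf.2 ⟨?_, ?_⟩
      · have h3 := hA.conj_mem _ (A.inv_mem hx) y
        have h4 := A.mul_mem hx h3
        simpa [mul_assoc] using h4
      · have h3 := hB.conj_mem _ hy x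
        exact B.mul_mem h3 (B.inv_mem hy)
    have h5 : th (x * y * x⁻¹ * y⁻¹) ∈ (A ⊓ B).map th := Subgroup.mem_map_of_mem th hm
    rw [h, Subgroup.mem_bot] at h5
    simp only [map_mul, map_inv, hxa, hyb] at h5
    apply hab
    have h6 : a * b * a⁻¹ = b := by
      rw [mul_inv_eq_one] at h5
      exact h5
    rw [mul_inv_eq_iff_eq_mul] at h6
    exact h6
  · exact h

/-- finitely many normal subgroups with intersection inside `ker th`: one of them is inside -/
theorem Grp_family {H G ι : Type*} [Group H] [Group G] [IsSimpleGroup G]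
    (hG : ∃ a b : G, a * b ≠ b * a) (th : H →* G) (hth : Function.Surjective th)
    [Finite ι] (M : ι → Subgroup H) (hM : ∀ i, (M i).Normal)
    (hinf : ∀ h : H, (∀ i, h ∈ M i) → th h = 1) : ∃ i, ∀ h ∈ M i, th h = 1 := by
  classical
  by_contra hc
  push Not at hc
  have := Fintype.ofFinite ι
  have htop : ∀ i, (M i).map th = ⊤ := by
    intro i
    have hn : ((M i).map th).Normal := Subgroup.Normal.map (hM i) th hth
    rcases hn.eq_bot_or_eq_top with h | h
    · exfalso
      obtain ⟨x, hx, hx1⟩ := hc i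
      have h5 : th x ∈ (M i).map th := Subgroup.mem_map_of_mem th hx
      rw [h, Subgroup.mem_bot] at h5
      exact hx1 h5
    · exact h
  have hall : ∀ S : Finset ι, ∃ K : Subgroup H, K.Normal ∧ K.map th = ⊤ ∧
      ∀ h ∈ K, ∀ i ∈ S, h ∈ M i := by
    intro S
    induction S using Finset.induction_on with
    | empty =>
      refine ⟨⊤, inferInstance, ?_, ?_⟩
      · rw [← MonoidHom.range_eq_map]
        exact MonoidHom.range_eq_top.2 hth
      · intro h _ i hi
        simp at hi
    | insert i S hi ih =>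
      obtain ⟨K, hK, hK1, hK2⟩ := ih
      have := hM i
      refine ⟨M i ⊓ K, inferInstance, Grp_inf hG th hth _ _ (htop i) hK1, ?_⟩
      intro h hh j hj
      rcases Finset.mem_insert.1 hj with rfl | hj
      · exact (Subgroup.mem_inf.1 hh).1
      · exact hK2 h (Subgroup.mem_inf.1 hh).2 j hj
  obtain ⟨K, _, hK1, hK2⟩ := hall Finset.univ
  obtain ⟨a, b, hab⟩ := hG
  have htriv : ∀ g : G, g = 1 := by
    intro g
    have h5 : g ∈ K.map th := by
      rw [hK1]
      exact Subgroup.mem_top g
    obtain ⟨x, hx, hxg⟩ := Subgroup.mem_map.1 h5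
    rw [← hxg]
    exact hinf x fun i => hK2 x hx i (Finset.mem_univ i)
  apply hab
  rw [htriv a, htriv b]

/-- a group acting on a finite set with kernel in `ker th`: one orbit is enough -/
theorem exists_orbit {H J G : Type*} [Group H] [Finite J] [MulAction H J] [Group G]
    [IsSimpleGroup G] (hG : ∃ a b : G, a * b ≠ b * a) (th : H →* G)
    (hth : Function.Surjective th) (hker : ∀ h : H, (∀ x : J, h • x = x) → th h = 1) :
    ∃ x : J, ∀ h : H, (∀ y ∈ MulAction.orbit H x, h • y = y) → th h = 1 := by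
  let M : J → Subgroup H := fun x =>
    { carrier := {h | ∀ y ∈ MulAction.orbit H x, h • y = y}
      mul_mem' := by
        intro a b ha hb y hy
        rw [mul_smul, hb y hy, ha y hy]
      one_mem' := by
        intro y _
        exact one_smul H y
      inv_mem' := by
        intro a ha y hy
        rw [inv_smul_eq_iff, ha y hy] }
  obtain ⟨x, hx⟩ := Grp_family hG th hth M (by
    intro x
    refine ⟨?_⟩
    intro n hn g y hy
    have h1 : g⁻¹ • y ∈ MulAction.orbit H x := by
      obtain ⟨k, hk⟩ := hy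
      refine ⟨g⁻¹ * k, ?_⟩
      simp only at hk ⊢
      rw [mul_smul, hk]
    rw [mul_smul, mul_smul, hn _ h1, smul_inv_smul]) (by
    intro h hh
    exact hker h fun x => hh x x (MulAction.mem_orbit_self x))
  exact ⟨x, hx⟩

end Vale.Agent.P329L
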