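import Vale.Agent.P329L.Grp

/-! P329L: the group step, section version (helper16): `G` is a quotient of a subgroup of `Sym(d)`. -/

namespace Vale.Agent.P329L

open MulAction

/-- `G` is a quotient of a subgroup of the symmetric group on `X` -/
def IsSec (G X : Type*) [Group G] : Prop :=
  ∃ (R : Subgroup (Equiv.Perm X)) (φ : R →* G), Function.Surjective φ

theorem IsSec.of_hom {G H X : Type*} [Group G] [Group H] (F : H →* Equiv.Perm X) (θ : H →* G)
    (hθ : Function.Surjective θ) (hker : ∀ h, F h = 1 → θ h = 1) : IsSec G X := by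
  have hk : F.rangeRestrict.ker ≤ θ.ker := by
    intro h hh
    rw [MonoidHom.ker_rangeRestrict, MonoidHom.mem_ker] at hh
    exact hker h hh
  refine ⟨F.range, F.rangeRestrict.liftOfSurjective F.rangeRestrict_surjective ⟨θ, hk⟩, ?_⟩
  intro x
  obtain ⟨h, rfl⟩ := hθ x
  refine ⟨F.rangeRestrict h, ?_⟩
  exact MonoidHom.liftOfRightInverse_comp_apply _ _ _ _ _

theorem IsSec.card_le {G X : Type*} [Group G] [Finite X] (h : IsSec G X) :
    Nat.card G ≤ (Nat.card X).factorial := by
  obtain ⟨R, φ, hφ⟩ := h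
  have h1 := Nat.card_le_card_of_surjective φ hφ
  have h2 : Nat.card R ≤ Nat.card (Equiv.Perm X) :=
    Nat.card_le_card_of_injective (Subtype.val : R → Equiv.Perm X) Subtype.val_injective
  rw [Nat.card_perm] at h2
  exact h1.trans h2

theorem IsSec.mono {G X : Type*} [Group G] [Finite X] (h : IsSec G X) (d : ℕ)
    (hd : Nat.card X ≤ d) : IsSec G (Fin d) := by
  classical
  obtain ⟨R, φ, hφ⟩ := h
  have := Fintype.ofFinite X
  rw [Nat.card_eq_fintype_card] at hd
  obtain ⟨e⟩ : Nonempty (X ↪ Fin d) := by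
    rw [Function.Embedding.nonempty_iff_card_le, Fintype.card_fin]
    exact hd
  refine IsSec.of_hom ((Equiv.Perm.viaEmbeddingHom e).comp R.subtype) φ hφ fun h hh => ?_
  have h1 := Equiv.Perm.viaEmbeddingHom_injective e (hh.trans (map_one _).symm)
  have h2 : h = 1 := Subtype.ext h1
  rw [h2, map_one]

/-- the group step: `G` is a quotient of a subgroup of `Sym(Q)` -/
theorem Grp_sec_ker {P O G : Type*} [Group P] [Finite O] [MulAction P O]
    [Group G] [IsSimpleGroup G] (hG : ∃ a b : G, a * b ≠ b * a) (th : P →* G)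
    (hth : Function.Surjective th) (hker : ∀ p : P, (∀ x : O, p • x = x) → th p = 1)
    (D : Subgroup P) (Q : Set O)
    (hfix : ∀ d ∈ D, ∀ x ∉ Q, d • x = x) (htr : ∀ x ∈ Q, ∀ y ∈ Q, ∃ d ∈ D, d • x = y)
    (t : G) (ht : t ≠ 1) (hD : ∀ d ∈ D, th d = 1 ∨ th d = t) (htD : ∃ d ∈ D, th d = t) :
    IsSec G Q := by
  classical
  have hkey : ∀ p q : P, (∀ x : O, p • x = q • x) → th p = th q := by
    intro p q hpq
    have h1 := hker (q⁻¹ * p) fun x => by rw [mul_smul, hpq, inv_smul_smul]
    rw [map_mul, map_inv, inv_mul_eq_one] at h1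
    exact h1.symm
  have hGf : Finite G := by
    choose f hf using hth
    refine Finite.of_injective (fun g => MulAction.toPermHom P O (f g)) ?_
    intro g g' hgg
    have h1 := hkey (f g) (f g') fun x => congrArg (fun e : Equiv.Perm O => e x) hgg
    rwa [hf, hf] at h1
  have := Fintype.ofFinite O
  obtain ⟨H, h1, h2, h3⟩ := Grp_fix hG th hth D Q hfix htr t ht hD htD
    (Finset.univ.filter fun w => w ∉ Q) (by simp)
  have h3' : ∀ p ∈ H, ∀ w ∉ Q, p • w = w := fun p hp w hw => h3 p hp w (by simp [hw])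
  have hQ : ∀ p ∈ H, ∀ x ∈ Q, p • x ∈ Q := by
    intro p hp x hx
    by_contra hc
    have h4 := h3' p hp _ hc
    have h5 : p • x = x := smul_left_cancel p h4
    rw [h5] at hc
    exact hc hx
  let F : H →* Equiv.Perm Q :=
    { toFun := fun p =>
        { toFun := fun x => ⟨(p : P) • (x : O), hQ p p.2 x x.2⟩
          invFun := fun x => ⟨(p : P)⁻¹ • (x : O), hQ _ (H.inv_mem p.2) x x.2⟩
          left_inv := fun x => Subtype.ext (inv_smul_smul _ _)
          right_inv := fun x => Subtype.ext (smul_inv_smul _ _) }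
      map_one' := by
        ext x
        exact one_smul P (x : O)
      map_mul' := by
        intro p q
        ext x
        exact mul_smul (p : P) (q : P) (x : O) }
  refine IsSec.of_hom F (th.comp H.subtype) ?_ ?_
  · intro g
    have h4 : g ∈ H.map th := by
      rw [h2]
      exact Subgroup.mem_top g
    obtain ⟨p, hp, hpg⟩ := Subgroup.mem_map.1 h4
    exact ⟨⟨p, hp⟩, hpg⟩
  · intro p hp
    refine hker p fun x => ?_
    by_cases hx : x ∈ Q
    · have h5 := congrArg (fun e : Equiv.Perm Q => ((e ⟨x, hx⟩ : Q) : O)) hp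
      exact h5
    · exact h3' p p.2 x hx

end Vale.Agent.P329L
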