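import Mathlib

/-!
# P329L: from phases to a transitive group on its support (helper24)
-/

namespace Vale.Agent.P329L

/-- the group generated by the quotients `t n * (t m)⁻¹`, `n, m ≥ n1` -/
def qgrp {H : Type*} [Group H] (t : ℕ → H) (n1 : ℕ) : Subgroup H :=
  Subgroup.closure {h | ∃ n m, n1 ≤ n ∧ n1 ≤ m ∧ h = t n * (t m)⁻¹}

theorem qgrp_mem {H : Type*} [Group H] (t : ℕ → H) {n1 n m : ℕ} (hn : n1 ≤ n) (hm : n1 ≤ m) :
    t n * (t m)⁻¹ ∈ qgrp t n1 := Subgroup.subset_closure ⟨n, m, hn, hm, rfl⟩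

theorem pr_pow {G : Type*} [Group G] {g : G} (hg : g * g = 1) (n : ℕ) : g ^ n = 1 ∨ g ^ n = g := by
  rcases Nat.even_or_odd' n with ⟨k, rfl | rfl⟩
  · left
    rw [pow_mul, pow_two, hg, one_pow]
  · right
    rw [pow_succ, pow_mul, pow_two, hg, one_pow, one_mul]

theorem pr_theta {H G : Type*} [Group H] [Group G] (θ : H →* G) (x g x' : G) (hg : g * g = 1)
    (t : ℕ → H) (n1 : ℕ) (ht : ∀ n, n1 ≤ n → θ (t n) = x * g ^ n * x') :
    ∀ h ∈ qgrp t n1, θ h = 1 ∨ θ h = x * g * x⁻¹ := by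
  have h2 : x * g * x⁻¹ * (x * g * x⁻¹) = 1 := by
    have h3 : x * g * x⁻¹ * (x * g * x⁻¹) = x * (g * g) * x⁻¹ := by group
    rw [h3, hg]
    group
  have hinv : (x * g * x⁻¹)⁻¹ = x * g * x⁻¹ := inv_eq_of_mul_eq_one_left h2
  intro h hh
  induction hh using Subgroup.closure_induction with
  | mem y hy =>
    obtain ⟨n, m, hn, hm, rfl⟩ := hy
    rw [map_mul, map_inv, ht n hn, ht m hm]
    have e : x * g ^ n * x' * (x * g ^ m * x')⁻¹ = x * (g ^ n * (g ^ m)⁻¹) * x⁻¹ := by group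
    rw [e]
    have hgi : g⁻¹ = g := inv_eq_of_mul_eq_one_left hg
    rcases pr_pow hg n with h | h <;> rcases pr_pow hg m with h' | h' <;> rw [h, h']
    · left
      group
    · right
      rw [hgi, one_mul]
    · right
      rw [inv_one, mul_one]
    · left
      group
  | one =>
    left
    exact map_one θ
  | mul y z _ _ hy hz =>
    rw [map_mul]
    rcases hy with hy | hy <;> rcases hz with hz | hz <;> rw [hy, hz]
    · left
      rw [one_mul]
    · right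
      rw [one_mul]
    · right
      rw [mul_one]
    · left
      exact h2
  | inv y _ hy =>
    rw [map_inv]
    rcases hy with hy | hy <;> rw [hy]
    · left
      exact inv_one
    · right
      exact hinv

theorem pr_gamma {H G : Type*} [Group H] [Group G] (θ : H →* G) (x g x' : G)
    (t : ℕ → H) (n1 : ℕ) (ht : ∀ n, n1 ≤ n → θ (t n) = x * g ^ n * x') (d : ℕ) :
    t (n1 + d) * (t n1)⁻¹ ∈ qgrp t n1 ∧ θ (t (n1 + d) * (t n1)⁻¹) = (x * g * x⁻¹) ^ d := by
  refine ⟨qgrp_mem t (Nat.le_add_right _ _) le_rfl, ?_⟩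
  rw [map_mul, map_inv, ht _ (Nat.le_add_right _ _), ht _ le_rfl, conj_pow]
  rw [add_comm n1 d, pow_add]
  group

theorem pr_fix {H O : Type*} [Group H] [MulAction H O] (t : ℕ → H) (n1 : ℕ) (y : O)
    (hy : ∀ n m, n1 ≤ n → n1 ≤ m → (t n * (t m)⁻¹) • y = y) : ∀ h ∈ qgrp t n1, h • y = y := by
  intro h hh
  have hle : qgrp t n1 ≤ MulAction.stabilizer H y := by
    rw [qgrp, Subgroup.closure_le]
    rintro _ ⟨n, m, hn, hm, rfl⟩
    exact hy n m hn hm
  exact hle hh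

/-- **Phases.** -/
theorem perm_run {H G O : Type*} [Group H] [Group G] [MulAction H O] (θ : H →* G)
    (x g x' : G) (hg : g * g = 1) (t : ℕ → H) (n1 : ℕ)
    (ht : ∀ n, n1 ≤ n → θ (t n) = x * g ^ n * x') (d : ℕ) (hd : d ≠ 0) (C : O → O → Prop)
    (A B : O → Set (ZMod d))
    (h : ∀ n, n1 ≤ n → ∀ y y', t n • y = y' ↔ C y y' ∨ ∃ z ∈ A y, z + n ∈ B y') :
    ∃ (D : Subgroup H) (Q : Set O),
      (∀ h ∈ D, ∀ y, y ∉ Q → h • y = y) ∧
      (∀ y ∈ Q, ∀ y' ∈ Q, ∃ h ∈ D, h • y = y') ∧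
      (∀ h ∈ D, θ h = 1 ∨ θ h = x * g * x⁻¹) ∧ (∃ h ∈ D, θ h = x * g * x⁻¹) ∧
      (Q.Nonempty → Nat.card Q ≤ d ∧
        ∃ h ∈ D, (∀ y : O, h • y = y) ∧ θ h = (x * g * x⁻¹) ^ d) := by
  classical
  have hne : NeZero d := ⟨hd⟩
  have hθ := pr_theta θ x g x' hg t n1 ht
  have hγ : ∃ h ∈ qgrp t n1, θ h = x * g * x⁻¹ := by
    obtain ⟨h1, h2⟩ := pr_gamma θ x g x' t n1 ht 1
    exact ⟨_, h1, by rw [h2, pow_one]⟩
  -- every residue is attained by a large n
  have hres : ∀ z w : ZMod d, ∃ n, n1 ≤ n ∧ z + (n : ZMod d) = w := by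
    intro z w
    refine ⟨(w - z).val + n1 * d, ?_, ?_⟩
    · have : n1 * 1 ≤ n1 * d := Nat.mul_le_mul_left _ (Nat.pos_of_ne_zero hd)
      omega
    · push_cast
      rw [ZMod.natCast_zmod_val, ZMod.natCast_self]
      ring
  by_cases hs : ∃ y0 : O, ∃ n m, n1 ≤ n ∧ n1 ≤ m ∧ t n • y0 ≠ t m • y0
  swap
  · -- nothing moves
    push Not at hs
    refine ⟨qgrp t n1, ∅, ?_, ?_, hθ, hγ, ?_⟩
    · intro e he y _
      refine pr_fix t n1 y ?_ e he
      intro n m hn hm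
      have h1 := hs ((t m)⁻¹ • y) n m hn hm
      rw [mul_smul, h1, smul_inv_smul]
    · intro y hy
      exact absurd hy (Set.notMem_empty y)
    · rintro ⟨y, hy⟩
      exact absurd hy (Set.notMem_empty y)
  · -- a sensitive point
    have hsens : ∀ y : O, (∃ n m, n1 ≤ n ∧ n1 ≤ m ∧ t n • y ≠ t m • y) →
        ∀ n, n1 ≤ n → ∃ z ∈ A y, z + n ∈ B (t n • y) := by
      rintro y ⟨n, m, hn, hm, hnm⟩ k hk
      rcases (h k hk y (t k • y)).1 rfl with hC | hAB
      · exfalso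
        apply hnm
        rw [(h n hn y (t k • y)).2 (Or.inl hC), (h m hm y (t k • y)).2 (Or.inl hC)]
      · exact hAB
    have hreach : ∀ y : O, (A y).Nonempty → ∀ y' : O, (B y').Nonempty →
        ∃ n, n1 ≤ n ∧ t n • y = y' := by
      rintro y ⟨z, hz⟩ y' ⟨w, hw⟩
      obtain ⟨n, hn, hnw⟩ := hres z w
      exact ⟨n, hn, (h n hn y y').2 (Or.inr ⟨z, hz, by rwa [hnw]⟩)⟩
    obtain ⟨y0, hy0⟩ := hs
    have hA0 : (A y0).Nonempty := by
      obtain ⟨z, hz, _⟩ := hsens y0 hy0 n1 le_rfl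
      exact ⟨z, hz⟩
    refine ⟨qgrp t n1, {y' | (B y').Nonempty}, ?_, ?_, hθ, hγ, ?_⟩
    · intro e he y hy
      refine pr_fix t n1 y ?_ e he
      intro n m hn hm
      by_contra hc
      apply hy
      have hsy : ∃ n m, n1 ≤ n ∧ n1 ≤ m ∧ t n • ((t m)⁻¹ • y) ≠ t m • ((t m)⁻¹ • y) := by
        refine ⟨n, m, hn, hm, ?_⟩
        rw [smul_inv_smul, ← mul_smul]
        exact hc
      have hsy' : ∃ n' m', n1 ≤ n' ∧ n1 ≤ m' ∧
          t n' • ((t m)⁻¹ • y) ≠ t m' • ((t m)⁻¹ • y) := ⟨n, m, hn, hm, by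
        rw [smul_inv_smul, ← mul_smul]
        exact hc⟩
      obtain ⟨z, _, hz⟩ := hsens _ hsy' m hm
      rw [smul_inv_smul] at hz
      exact ⟨_, hz⟩
    · intro q hq q' hq'
      obtain ⟨n, hn, hnq⟩ := hreach y0 hA0 q hq
      -- the preimage of q under t n is y0
      obtain ⟨m, hm, hmq⟩ := hreach y0 hA0 q' hq'
      refine ⟨t m * (t n)⁻¹, qgrp_mem t hm hn, ?_⟩
      rw [mul_smul, ← hnq, inv_smul_smul, hmq]
    · intro _
      constructor
      · have hf : ∀ q : {y' : O | (B y').Nonempty}, ∃ w, w ∈ B q := fun q => q.2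
        choose f hf using hf
        have hinj : Function.Injective f := by
          intro q q' hqq
          obtain ⟨z, hz⟩ := hA0
          obtain ⟨n, hn, hnw⟩ := hres z (f q)
          have h1 := (h n hn y0 q).2 (Or.inr ⟨z, hz, by rw [hnw]; exact hf q⟩)
          have h2 := (h n hn y0 q').2 (Or.inr ⟨z, hz, by rw [hnw, hqq]; exact hf q'⟩)
          exact Subtype.ext (h1.symm.trans h2)
        have h3 := Nat.card_le_card_of_injective f hinj
        rwa [Nat.card_zmod] at h3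
      · obtain ⟨h1, h2⟩ := pr_gamma θ x g x' t n1 ht d
        refine ⟨_, h1, ?_, h2⟩
        intro y
        have h4 : t (n1 + d) • ((t n1)⁻¹ • y) = y := by
          rw [h (n1 + d) (Nat.le_add_right _ _)]
          have h5 := (h n1 le_rfl ((t n1)⁻¹ • y) y).1 (smul_inv_smul _ _)
          rcases h5 with h5 | ⟨z, hz, hzB⟩
          · exact Or.inl h5
          · refine Or.inr ⟨z, hz, ?_⟩
            push_cast
            rw [ZMod.natCast_self, add_zero]
            exact hzB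
        rw [mul_smul, h4]

/-- eventually constant permutations: the support is empty -/
theorem perm_const {H G O : Type*} [Group H] [Group G] [MulAction H O] (θ : H →* G)
    (x g x' : G) (hg : g * g = 1) (t : ℕ → H) (n1 : ℕ)
    (ht : ∀ n, n1 ≤ n → θ (t n) = x * g ^ n * x')
    (h : ∀ n m, n1 ≤ n → n1 ≤ m → ∀ y : O, t n • y = t m • y) :
    ∃ (D : Subgroup H) (Q : Set O),
      (∀ h ∈ D, ∀ y, y ∉ Q → h • y = y) ∧
      (∀ y ∈ Q, ∀ y' ∈ Q, ∃ h ∈ D, h • y = y') ∧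
      (∀ h ∈ D, θ h = 1 ∨ θ h = x * g * x⁻¹) ∧ (∃ h ∈ D, θ h = x * g * x⁻¹) ∧
      ¬ Q.Nonempty := by
  refine ⟨qgrp t n1, ∅, ?_, ?_, pr_theta θ x g x' hg t n1 ht, ?_, Set.not_nonempty_empty⟩
  · intro e he y _
    refine pr_fix t n1 y ?_ e he
    intro n m hn hm
    rw [mul_smul, h n m hn hm, smul_inv_smul]
  · intro y hy
    exact absurd hy (Set.notMem_empty y)
  · obtain ⟨h1, h2⟩ := pr_gamma θ x g x' t n1 ht 1
    exact ⟨_, h1, by rw [h2, pow_one]⟩

end Vale.Agent.P329L
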