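import Mathlib

/-!
# P329L: finite semigroups over a group (helper24)

A finite semigroup `S` with a surjective multiplicative map onto a group `G` contains a subgroup
`e S e` mapping onto `G`.
-/

namespace Vale.Agent.P329L

/-- In a finite semigroup there is an idempotent `e` such that `e S e` is a group; if `f` maps `S`
multiplicatively onto a group `G`, then `f e = 1` and `e S e` maps onto `G`. -/
theorem Sgp_group {S G : Type*} [Semigroup S] [Finite S] [Group G] (f : S → G)
    (hf : ∀ x y, f (x * y) = f x * f y) (hs : Function.Surjective f) :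
    ∃ e : S, e * e = e ∧ f e = 1 ∧
      (∀ x, e * x = x → x * e = x → ∃ y, e * y = y ∧ y * e = y ∧ x * y = e ∧ y * x = e) ∧
      (∀ g, ∃ x, e * x = x ∧ x * e = x ∧ f x = g) := by
  classical
  obtain ⟨s0, _⟩ := hs 1
  let T : S → Set S := fun a => {x | ∃ s, x = a * s * a}
  obtain ⟨a, ha⟩ : ∃ a, ∀ b, (T a).ncard ≤ (T b).ncard := by
    have := Nonempty.intro s0
    exact Finite.exists_min fun a => (T a).ncard
  have hT : ∀ x ∈ T a, T x = T a := by
    intro x hx
    refine Set.eq_of_subset_of_ncard_le ?_ (ha x) (Set.toFinite _)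
    obtain ⟨s, rfl⟩ := hx
    rintro y ⟨u, rfl⟩
    exact ⟨s * a * u * a * s, by simp only [mul_assoc]⟩
  have hmul : ∀ x ∈ T a, ∀ y ∈ T a, x * y ∈ T a := by
    rintro x ⟨s, rfl⟩ y ⟨u, rfl⟩
    exact ⟨s * a * a * u, by simp only [mul_assoc]⟩
  -- division
  have hdivr : ∀ x ∈ T a, ∀ y ∈ T a, ∃ z ∈ T a, y = x * z := by
    intro x hx y hy
    have h1 : T (x * x) = T a := hT _ (hmul x hx x hx)
    rw [← h1] at hy
    obtain ⟨s, hs⟩ := hy
    refine ⟨x * s * x * x, ?_, ?_⟩
    · rw [← hT x hx]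
      exact ⟨s * x, by simp only [mul_assoc]⟩
    · rw [hs]
      simp only [mul_assoc]
  have hdivl : ∀ x ∈ T a, ∀ y ∈ T a, ∃ z ∈ T a, y = z * x := by
    intro x hx y hy
    have h1 : T (x * x) = T a := hT _ (hmul x hx x hx)
    rw [← h1] at hy
    obtain ⟨s, hs⟩ := hy
    refine ⟨x * x * s * x, ?_, ?_⟩
    · rw [← hT x hx]
      exact ⟨x * s, by simp only [mul_assoc]⟩
    · rw [hs]
      simp only [mul_assoc]
  have hx0 : a * s0 * a ∈ T a := ⟨s0, rfl⟩
  obtain ⟨e, he, hxe⟩ := hdivr _ hx0 _ hx0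
  have her : ∀ y ∈ T a, y * e = y := by
    intro y hy
    obtain ⟨z, _, hz⟩ := hdivl _ hx0 y hy
    rw [hz, mul_assoc, ← hxe]
  obtain ⟨e', he', hxe'⟩ := hdivl _ hx0 _ hx0
  have hel' : ∀ y ∈ T a, e' * y = y := by
    intro y hy
    obtain ⟨z, _, hz⟩ := hdivr _ hx0 y hy
    rw [hz, ← mul_assoc, ← hxe']
  have hee : e' = e := by
    rw [← her e' he', hel' e he]
  have hel : ∀ y ∈ T a, e * y = y := by
    intro y hy
    rw [← hee]
    exact hel' y hy
  have hTe : T e = T a := hT e he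
  have hmem : ∀ x, e * x = x → x * e = x → x ∈ T a := by
    intro x h1 h2
    rw [← hTe]
    exact ⟨x, by rw [h1, h2]⟩
  have hfe : f e = 1 := by
    have h1 : f e * f e = f e := by rw [← hf, her e he]
    exact mul_eq_left.1 h1
  refine ⟨e, her e he, hfe, ?_, ?_⟩
  · intro x h1 h2
    have hx := hmem x h1 h2
    obtain ⟨y, hy, hxy⟩ := hdivr x hx e he
    obtain ⟨z, hz, hzx⟩ := hdivl x hx e he
    have hzy : z = y := by
      calc z = z * e := (her z hz).symm
        _ = z * (x * y) := by rw [← hxy]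
        _ = (z * x) * y := by rw [mul_assoc]
        _ = e * y := by rw [← hzx]
        _ = y := hel y hy
    refine ⟨y, hel y hy, her y hy, hxy.symm, ?_⟩
    rw [← hzy]
    exact hzx.symm
  · intro g
    obtain ⟨s, hsg⟩ := hs g
    refine ⟨e * s * e, ?_, ?_, ?_⟩
    · rw [← mul_assoc, ← mul_assoc, her e he]
    · rw [mul_assoc, her e he]
    · rw [hf, hf, hfe, hsg, one_mul, mul_one]

end Vale.Agent.P329L
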