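import Vale.Agent.P329L.WDefs
import Vale.Agent.P329L.Grp
import Vale.Agent.P329L.Sgp
import Vale.Agent.P329L.AbsAct

/-! # P329 lower bound: the abstract theorem (module ABS, owner helper85, helper24)

`I` = index of the languages, `Om` = words with the operation `w ++ r ++ w'`, `X` = all slots (sigma type over `I`,
`bl` = block), `h w` = the slot relation of `w`.  Proof: helper85's steps (4), (5), (7): subsemigroup
`{(h w, g w)}`, local group (`Sgp_group`), action on the join irreducible fixed sets of the idempotent, one orbit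
(`exists_orbit`), phases, `card_le_factorial_of_ker`. -/

set_option autoImplicit false

namespace Vale.Agent.P329L

theorem rcomp_assoc {X : Type} (M N P : X → X → Prop) :
    rcomp (rcomp M N) P = rcomp M (rcomp N P) := by
  funext x z
  apply propext
  constructor
  · rintro ⟨y, ⟨u, h1, h2⟩, h3⟩
    exact ⟨u, h1, y, h2, h3⟩
  · rintro ⟨u, h1, y, h2, h3⟩
    exact ⟨y, ⟨u, h1, h2⟩, h3⟩

/-- the main abstract theorem: one letter `b i` for every language `i`; `d i` = the gcd of the language `i` for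
the letter `b i` -/
theorem abs_main {X Om G I : Type} [Finite X] [Group G] [Finite G] [IsSimpleGroup G]
    (hG : ∃ a b : G, a * b ≠ b * a) (bl : X → I) (mul : Om → Om → Om)
    (h : Om → X → X → Prop) (g : Om → G)
    (hmul : ∀ w w', h (mul w w') = rcomp (h w) (h w'))
    (gmul : ∀ w w', g (mul w w') = g w * g w')
    (gsurj : Function.Surjective g)
    (hbl : ∀ w x y, h w x y → bl x = bl y)
    (hidem : ∀ w, rcomp (h w) (h w) = h w → g w = 1)
    (a : I → ℕ → Om) (t : I → G) (ht : ∀ i, t i ≠ 1) (htt : ∀ i, t i * t i = 1)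
    (hga : ∀ i n, g (a i n) = t i ^ n)
    (d : I → ℕ)
    (hrun : ∀ i, ∃ (n0 : ℕ) (C : X → X → Prop) (U V : ZMod (d i) → X → Prop),
      ∀ n ≥ n0, ∀ x y, bl x = i →
        (h (a i n) x y ↔ C x y ∨ (0 < d i ∧ ∃ p, U p x ∧ V (p + n) y))) :
    ∃ i, 0 < d i ∧ t i ^ d i = 1 ∧ IsSec G (Fin (d i)) := by
  classical
  -- the semigroup of the pairs `(h w, g w)`
  let S : Type := {p : (X → X → Prop) × G // ∃ w, p = (h w, g w)}
  let iS : Semigroup S :=
    { mul := fun p q => ⟨(rcomp p.1.1 q.1.1, p.1.2 * q.1.2), by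
        obtain ⟨⟨M, x⟩, w, hw⟩ := p
        obtain ⟨⟨N, y⟩, w', hw'⟩ := q
        refine ⟨mul w w', ?_⟩
        rw [hmul, gmul]
        simp only [Prod.mk.injEq] at hw hw' ⊢
        rw [hw.1, hw.2, hw'.1, hw'.2]
        exact ⟨rfl, rfl⟩⟩
      mul_assoc := by
        intro p q r
        apply Subtype.ext
        exact Prod.ext (rcomp_assoc _ _ _) (mul_assoc _ _ _) }
  have fS : Finite S := Subtype.finite
  have hm1 : ∀ p q : S, (p * q).1.1 = rcomp p.1.1 q.1.1 := fun p q => rfl
  have hm2 : ∀ p q : S, (p * q).1.2 = p.1.2 * q.1.2 := fun p q => rfl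
  obtain ⟨e, he, hfe, hinv, hsur⟩ := Sgp_group (fun p : S => p.1.2) hm2 (by
    intro x
    obtain ⟨w, hw⟩ := gsurj x
    exact ⟨⟨(h w, g w), w, rfl⟩, hw⟩)
  -- the group
  let H : Type := {x : S // e * x = x ∧ x * e = x}
  have hinv' : ∀ x : H, ∃ y : H, y.1 * x.1 = e := by
    intro x
    obtain ⟨y, h1, h2, _, h3⟩ := hinv x.1 x.2.1 x.2.2
    exact ⟨⟨y, h1, h2⟩, h3⟩
  choose iv hiv using hinv'
  let iH : Group H :=
    { mul := fun x y => ⟨x.1 * y.1, by rw [← mul_assoc, x.2.1], by rw [mul_assoc, y.2.2]⟩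
      mul_assoc := fun x y z => Subtype.ext (mul_assoc _ _ _)
      one := ⟨e, he, he⟩
      one_mul := fun x => Subtype.ext x.2.1
      mul_one := fun x => Subtype.ext x.2.2
      inv := iv
      inv_mul_cancel := fun x => Subtype.ext (hiv x) }
  have fH : Finite H := Subtype.finite
  let θ : H →* G :=
    { toFun := fun x => x.1.1.2
      map_one' := hfe
      map_mul' := fun x y => rfl }
  let R : H → X → X → Prop := fun x => x.1.1.1
  -- compressing a word
  let cp : Om → H := fun w =>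
    ⟨e * (⟨(h w, g w), w, rfl⟩ : S) * e, by rw [← mul_assoc, ← mul_assoc, he], by
      rw [mul_assoc, he]⟩
  have hcp1 : ∀ w, R (cp w) = rcomp (R 1) (rcomp (h w) (R 1)) := by
    intro w
    exact rcomp_assoc _ _ _
  have hcp2 : ∀ w, θ (cp w) = g w := by
    intro w
    change e.1.2 * g w * e.1.2 = g w
    rw [hfe, one_mul, mul_one]
  have hword : ∀ x : H, ∃ w, R x = h w ∧ θ x = g w := by
    intro x
    obtain ⟨w, hw⟩ := x.1.2
    refine ⟨w, ?_, ?_⟩
    · change x.1.1.1 = h w
      rw [hw]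
    · change x.1.1.2 = g w
      rw [hw]
  have hR : ∀ x y : H, R (x * y) = rcomp (R x) (R y) := fun x y => rfl
  refine abs_core hG bl R hR θ ?_ ?_ ?_ (fun i n => cp (a i n)) (fun i n => h (a i n)) ?_ ?_ t ht
    htt ?_ d hrun
  · intro x
    obtain ⟨y, h1, h2, h3⟩ := hsur x
    exact ⟨⟨y, h1, h2⟩, h3⟩
  · intro x hx
    obtain ⟨w, h1, h2⟩ := hword x
    rw [h2]
    apply hidem
    rw [← h1, hx, ← hR, one_mul]
  · intro x s s' hs
    obtain ⟨w, h1, _⟩ := hword x
    rw [h1] at hs
    exact hbl w s s' hs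
  · intro i n
    exact hcp1 _
  · intro i n s s' hs
    exact hbl _ _ _ hs
  · intro i n
    rw [hcp2, hga]

end Vale.Agent.P329L
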