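import Vale.Agent.P329L.GrpSec
import Vale.Agent.P329L.PermRun

/-!
# P329L: the group theory step for elements of even order (helper85)

As in `Grp.lean`, `GrpSec.lean`, `PermRun.lean` with `t` of even order instead of an involution: the moved
cosets of `G ⧸ K` form one `⟨t⟩`-orbit, so `t` acts as a single cycle of even length, an odd permutation.
-/

set_option autoImplicit false

namespace Vale.Agent.P329L

open MulAction

theorem GrpE_coset {G : Type*} [Group G] [Finite G] [IsSimpleGroup G]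
    (hG : ∃ a b : G, a * b ≠ b * a) (K : Subgroup G) (t : G) (ht : Even (orderOf t))
    (h : ∀ x y : G ⧸ K, t • x ≠ x → t • y ≠ y → ∃ c ∈ Subgroup.zpowers t, y = c • x) : K = ⊤ := by
  classical
  have ht1 : t ≠ 1 := by
    rintro rfl
    rw [orderOf_one] at ht
    exact absurd ht (by decide)
  have := Fintype.ofFinite (G ⧸ K)
  set f : G →* Equiv.Perm (G ⧸ K) := MulAction.toPermHom G (G ⧸ K) with hf
  have hfa : ∀ (g : G) (x : G ⧸ K), f g x = g • x := fun g x => rfl
  have hft : f t = 1 := by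
    by_contra hne
    have hinj : Function.Injective f := by
      rcases (inferInstance : f.ker.Normal).eq_bot_or_eq_top with hk | hk
      · exact (MonoidHom.ker_eq_bot_iff f).1 hk
      · exfalso
        apply hne
        have h1 : t ∈ f.ker := by
          rw [hk]
          exact Subgroup.mem_top t
        exact h1
    obtain ⟨x, hx⟩ : ∃ x, f t x ≠ x := by
      by_contra hc
      push Not at hc
      exact hne (Equiv.ext hc)
    have hcyc : (f t).IsCycle := by
      refine ⟨x, hx, ?_⟩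
      intro y hy
      obtain ⟨c, hc, hcy⟩ := h x y hx hy
      obtain ⟨n, rfl⟩ := Subgroup.mem_zpowers_iff.1 hc
      refine ⟨n, ?_⟩
      rw [← map_zpow, hfa]
      exact hcy.symm
    set s : G →* ℤˣ := Equiv.Perm.sign.comp f with hs
    have hst : s t = -1 := by
      rw [hs, MonoidHom.comp_apply, hcyc.sign, ← hcyc.orderOf, orderOf_injective f hinj,
        ht.neg_one_pow]
    rcases (inferInstance : s.ker.Normal).eq_bot_or_eq_top with hk | hk
    · have hinj' : Function.Injective s := (MonoidHom.ker_eq_bot_iff s).1 hk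
      obtain ⟨a, b, hab⟩ := hG
      apply hab
      apply hinj'
      rw [map_mul, map_mul, mul_comm]
    · have h1 : t ∈ s.ker := by
        rw [hk]
        exact Subgroup.mem_top t
      rw [MonoidHom.mem_ker, hst] at h1
      exact absurd h1 (by decide)
  have hker : f.ker = ⊤ := by
    rcases (inferInstance : f.ker.Normal).eq_bot_or_eq_top with hk | hk
    · exfalso
      apply ht1
      have h1 : t ∈ f.ker := hft
      rw [hk] at h1
      exact Subgroup.mem_bot.1 h1
    · exact hk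
  rw [eq_top_iff]
  intro g _
  have h1 : g ∈ f.ker := by
    rw [hker]
    exact Subgroup.mem_top g
  have h2 : f g ((1 : G) : G ⧸ K) = ((1 : G) : G ⧸ K) := by
    rw [MonoidHom.mem_ker.1 h1]
    rfl
  rw [hfa] at h2
  have h3 : ((g * 1 : G) : G ⧸ K) = ((1 : G) : G ⧸ K) := h2
  rw [mul_one] at h3
  have h4 := QuotientGroup.eq.1 h3
  simpa using K.inv_mem_iff.1 (by simpa using h4)

/-- adding one point -/
theorem GrpE_step {P O G : Type*} [Group P] [MulAction P O] [Group G] [Finite G] [IsSimpleGroup G]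
    (hG : ∃ a b : G, a * b ≠ b * a) (th : P →* G) (D : Subgroup P) (Q : Set O)
    (hfix : ∀ d ∈ D, ∀ x ∉ Q, d • x = x) (htr : ∀ x ∈ Q, ∀ y ∈ Q, ∃ d ∈ D, d • x = y)
    (t : G) (ht : Even (orderOf t)) (hD : ∀ d ∈ D, th d ∈ Subgroup.zpowers t)
    (htD : ∃ d ∈ D, th d = t)
    (H : Subgroup P) (hDH : D ≤ H) (hH : H.map th = ⊤) (w : O) :
    (H ⊓ stabilizer P w).map th = ⊤ := by
  obtain ⟨d, hdD, hdt⟩ := htD
  set K : Subgroup G := (H ⊓ stabilizer P w).map th with hK
  have hmem : ∀ g : G, ∃ p ∈ H, th p = g := by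
    intro g
    have h1 : g ∈ H.map th := by
      rw [hH]
      exact Subgroup.mem_top g
    exact Subgroup.mem_map.1 h1
  -- a moved coset is represented only by elements sending w into Q
  have hmov : ∀ p ∈ H, t • ((th p : G) : G ⧸ K) ≠ ((th p : G) : G ⧸ K) → p • w ∈ Q := by
    intro p hp hne
    by_contra hq
    apply hne
    have h1 : d • p • w = p • w := hfix d hdD _ hq
    have h2 : p⁻¹ * (d * p) ∈ H ⊓ stabilizer P w := by
      refine Subgroup.mem_inf.2 ⟨H.mul_mem (H.inv_mem hp) (H.mul_mem (hDH hdD) hp), ?_⟩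
      rw [mem_stabilizer_iff, mul_smul, mul_smul, h1, inv_smul_smul]
    have h3 : th (p⁻¹ * (d * p)) ∈ K := Subgroup.mem_map_of_mem th h2
    rw [map_mul, map_mul, map_inv, hdt] at h3
    have h4 : ((t * th p : G) : G ⧸ K) = ((th p : G) : G ⧸ K) :=
      (QuotientGroup.eq.2 h3).symm
    exact h4
  refine GrpE_coset hG K t ht ?_
  intro x y hx hy
  obtain ⟨g, rfl⟩ := QuotientGroup.mk_surjective x
  obtain ⟨g', rfl⟩ := QuotientGroup.mk_surjective y
  obtain ⟨p, hp, rfl⟩ := hmem g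
  obtain ⟨p', hp', rfl⟩ := hmem g'
  have h1 := hmov p hp hx
  have h2 := hmov p' hp' hy
  obtain ⟨e, heD, he⟩ := htr _ h1 _ h2
  have h3 : p'⁻¹ * (e * p) ∈ H ⊓ stabilizer P w := by
    refine Subgroup.mem_inf.2 ⟨H.mul_mem (H.inv_mem hp') (H.mul_mem (hDH heD) hp), ?_⟩
    rw [mem_stabilizer_iff, mul_smul, mul_smul, he, inv_smul_smul]
  have h4 : th (p'⁻¹ * (e * p)) ∈ K := Subgroup.mem_map_of_mem th h3
  rw [map_mul, map_mul, map_inv] at h4
  have h5 : ((th p' : G) : G ⧸ K) = ((th e * th p : G) : G ⧸ K) := QuotientGroup.eq.2 h4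
  exact ⟨th e, hD e heD, h5⟩

/-- the pointwise stabilizer of a finite set disjoint from `Q` still maps onto `G` -/
theorem GrpE_fix {P O G : Type*} [Group P] [MulAction P O] [Group G] [Finite G] [IsSimpleGroup G]
    (hG : ∃ a b : G, a * b ≠ b * a) (th : P →* G) (hth : Function.Surjective th)
    (D : Subgroup P) (Q : Set O)
    (hfix : ∀ d ∈ D, ∀ x ∉ Q, d • x = x) (htr : ∀ x ∈ Q, ∀ y ∈ Q, ∃ d ∈ D, d • x = y)
    (t : G) (ht : Even (orderOf t)) (hD : ∀ d ∈ D, th d ∈ Subgroup.zpowers t)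
    (htD : ∃ d ∈ D, th d = t)
    (S : Finset O) (hS : ∀ w ∈ S, w ∉ Q) :
    ∃ H : Subgroup P, D ≤ H ∧ H.map th = ⊤ ∧ ∀ p ∈ H, ∀ w ∈ S, p • w = w := by
  classical
  induction S using Finset.induction_on with
  | empty =>
    refine ⟨⊤, le_top, ?_, ?_⟩
    · rw [← MonoidHom.range_eq_map]
      exact MonoidHom.range_eq_top.2 hth
    · intro p _ w hw
      simp at hw
  | insert w S hw ih =>
    obtain ⟨H, h1, h2, h3⟩ := ih fun x hx => hS x (Finset.mem_insert_of_mem hx)
    refine ⟨H ⊓ stabilizer P w, ?_,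
      GrpE_step hG th D Q hfix htr t ht hD htD H h1 h2 w, ?_⟩
    · intro d hd
      refine Subgroup.mem_inf.2 ⟨h1 hd, ?_⟩
      rw [mem_stabilizer_iff]
      exact hfix d hd w (hS w (Finset.mem_insert_self w S))
    · intro p hp x hx
      rw [Finset.mem_insert] at hx
      rcases hx with rfl | hx
      · exact mem_stabilizer_iff.1 hp.2
      · exact h3 p hp.1 x hx

/-- the group step: `G` is a quotient of a subgroup of `Sym(Q)` -/
theorem GrpE_sec_ker {P O G : Type*} [Group P] [Finite O] [MulAction P O]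
    [Group G] [IsSimpleGroup G] (hG : ∃ a b : G, a * b ≠ b * a) (th : P →* G)
    (hth : Function.Surjective th) (hker : ∀ p : P, (∀ x : O, p • x = x) → th p = 1)
    (D : Subgroup P) (Q : Set O)
    (hfix : ∀ d ∈ D, ∀ x ∉ Q, d • x = x) (htr : ∀ x ∈ Q, ∀ y ∈ Q, ∃ d ∈ D, d • x = y)
    (t : G) (ht : Even (orderOf t)) (hD : ∀ d ∈ D, th d ∈ Subgroup.zpowers t)
    (htD : ∃ d ∈ D, th d = t) :
    IsSec G Q := by
  classical
  have hkey : ∀ p q : P, (∀ x : O, p • x = q • x) → th p = th q := by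
    intro p q hpq
    have h1 := hker (q⁻¹ * p) fun x => by rw [mul_smul, hpq, inv_smul_smul]
    rw [map_mul, map_inv, inv_mul_eq_one] at h1
    exact h1.symm
  have hGf : Finite G := by
    choose f hf using hth
    refine Finite.of_injective (fun g => MulAction.toPermHom P O (f g)) ?_
    intro g g' hgg
    have h1 := hkey (f g) (f g') fun x => congrArg (fun e : Equiv.Perm O => e x) hgg
    rwa [hf, hf] at h1
  have := Fintype.ofFinite O
  obtain ⟨H, h1, h2, h3⟩ := GrpE_fix hG th hth D Q hfix htr t ht hD htD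
    (Finset.univ.filter fun w => w ∉ Q) (by simp)
  have h3' : ∀ p ∈ H, ∀ w ∉ Q, p • w = w := fun p hp w hw => h3 p hp w (by simp [hw])
  have hQ : ∀ p ∈ H, ∀ x ∈ Q, p • x ∈ Q := by
    intro p hp x hx
    by_contra hc
    have h4 := h3' p hp _ hc
    have h5 : p • x = x := smul_left_cancel p h4
    rw [h5] at hc
    exact hc hx
  let F : H →* Equiv.Perm Q :=
    { toFun := fun p =>
        { toFun := fun x => ⟨(p : P) • (x : O), hQ p p.2 x x.2⟩
          invFun := fun x => ⟨(p : P)⁻¹ • (x : O), hQ _ (H.inv_mem p.2) x x.2⟩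
          left_inv := fun x => Subtype.ext (inv_smul_smul _ _)
          right_inv := fun x => Subtype.ext (smul_inv_smul _ _) }
      map_one' := by
        ext x
        exact one_smul P (x : O)
      map_mul' := by
        intro p q
        ext x
        exact mul_smul (p : P) (q : P) (x : O) }
  refine IsSec.of_hom F (th.comp H.subtype) ?_ ?_
  · intro g
    have h4 : g ∈ H.map th := by
      rw [h2]
      exact Subgroup.mem_top g
    obtain ⟨p, hp, hpg⟩ := Subgroup.mem_map.1 h4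
    exact ⟨⟨p, hp⟩, hpg⟩
  · intro p hp
    refine hker p fun x => ?_
    by_cases hx : x ∈ Q
    · have h5 := congrArg (fun e : Equiv.Perm Q => ((e ⟨x, hx⟩ : Q) : O)) hp
      exact h5
    · exact h3' p p.2 x hx

/-! ### phases -/

theorem prE_theta {H G : Type*} [Group H] [Group G] (θ : H →* G) (g : G)
    (t : ℕ → H) (n1 : ℕ) (ht : ∀ n, n1 ≤ n → θ (t n) = g ^ n) :
    ∀ h ∈ qgrp t n1, θ h ∈ Subgroup.zpowers g := by
  have hle : qgrp t n1 ≤ (Subgroup.zpowers g).comap θ := by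
    rw [qgrp, Subgroup.closure_le]
    rintro _ ⟨n, m, hn, hm, rfl⟩
    rw [SetLike.mem_coe, Subgroup.mem_comap, map_mul, map_inv, ht n hn, ht m hm]
    exact (Subgroup.zpowers g).mul_mem (Subgroup.npow_mem_zpowers g n)
      ((Subgroup.zpowers g).inv_mem (Subgroup.npow_mem_zpowers g m))
  intro h hh
  exact hle hh

theorem prE_gamma {H G : Type*} [Group H] [Group G] (θ : H →* G) (g : G)
    (t : ℕ → H) (n1 : ℕ) (ht : ∀ n, n1 ≤ n → θ (t n) = g ^ n) (d : ℕ) :
    t (n1 + d) * (t n1)⁻¹ ∈ qgrp t n1 ∧ θ (t (n1 + d) * (t n1)⁻¹) = g ^ d := by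
  refine ⟨qgrp_mem t (Nat.le_add_right _ _) le_rfl, ?_⟩
  rw [map_mul, map_inv, ht _ (Nat.le_add_right _ _), ht _ le_rfl, add_comm n1 d, pow_add]
  group

/-- **Phases.** -/
theorem permE_run {H G O : Type*} [Group H] [Group G] [MulAction H O] (θ : H →* G)
    (g : G) (t : ℕ → H) (n1 : ℕ)
    (ht : ∀ n, n1 ≤ n → θ (t n) = g ^ n) (d : ℕ) (hd : d ≠ 0) (C : O → O → Prop)
    (A B : O → Set (ZMod d))
    (h : ∀ n, n1 ≤ n → ∀ y y', t n • y = y' ↔ C y y' ∨ ∃ z ∈ A y, z + n ∈ B y') :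
    ∃ (D : Subgroup H) (Q : Set O),
      (∀ h ∈ D, ∀ y, y ∉ Q → h • y = y) ∧
      (∀ y ∈ Q, ∀ y' ∈ Q, ∃ h ∈ D, h • y = y') ∧
      (∀ h ∈ D, θ h ∈ Subgroup.zpowers g) ∧ (∃ h ∈ D, θ h = g) ∧
      (Q.Nonempty → Nat.card Q ≤ d ∧
        ∃ h ∈ D, (∀ y : O, h • y = y) ∧ θ h = g ^ d) := by
  classical
  have hne : NeZero d := ⟨hd⟩
  have hθ := prE_theta θ g t n1 ht
  have hγ : ∃ h ∈ qgrp t n1, θ h = g := by
    obtain ⟨h1, h2⟩ := prE_gamma θ g t n1 ht 1
    exact ⟨_, h1, by rw [h2, pow_one]⟩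
  -- every residue is attained by a large n
  have hres : ∀ z w : ZMod d, ∃ n, n1 ≤ n ∧ z + (n : ZMod d) = w := by
    intro z w
    refine ⟨(w - z).val + n1 * d, ?_, ?_⟩
    · have : n1 * 1 ≤ n1 * d := Nat.mul_le_mul_left _ (Nat.pos_of_ne_zero hd)
      omega
    · push_cast
      rw [ZMod.natCast_zmod_val, ZMod.natCast_self]
      ring
  by_cases hs : ∃ y0 : O, ∃ n m, n1 ≤ n ∧ n1 ≤ m ∧ t n • y0 ≠ t m • y0
  swap
  · -- nothing moves
    push Not at hs
    refine ⟨qgrp t n1, ∅, ?_, ?_, hθ, hγ, ?_⟩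
    · intro e he y _
      refine pr_fix t n1 y ?_ e he
      intro n m hn hm
      have h1 := hs ((t m)⁻¹ • y) n m hn hm
      rw [mul_smul, h1, smul_inv_smul]
    · intro y hy
      exact absurd hy (Set.notMem_empty y)
    · rintro ⟨y, hy⟩
      exact absurd hy (Set.notMem_empty y)
  · -- a sensitive point
    have hsens : ∀ y : O, (∃ n m, n1 ≤ n ∧ n1 ≤ m ∧ t n • y ≠ t m • y) →
        ∀ n, n1 ≤ n → ∃ z ∈ A y, z + n ∈ B (t n • y) := by
      rintro y ⟨n, m, hn, hm, hnm⟩ k hk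
      rcases (h k hk y (t k • y)).1 rfl with hC | hAB
      · exfalso
        apply hnm
        rw [(h n hn y (t k • y)).2 (Or.inl hC), (h m hm y (t k • y)).2 (Or.inl hC)]
      · exact hAB
    have hreach : ∀ y : O, (A y).Nonempty → ∀ y' : O, (B y').Nonempty →
        ∃ n, n1 ≤ n ∧ t n • y = y' := by
      rintro y ⟨z, hz⟩ y' ⟨w, hw⟩
      obtain ⟨n, hn, hnw⟩ := hres z w
      exact ⟨n, hn, (h n hn y y').2 (Or.inr ⟨z, hz, by rwa [hnw]⟩)⟩
    obtain ⟨y0, hy0⟩ := hs
    have hA0 : (A y0).Nonempty := by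
      obtain ⟨z, hz, _⟩ := hsens y0 hy0 n1 le_rfl
      exact ⟨z, hz⟩
    refine ⟨qgrp t n1, {y' | (B y').Nonempty}, ?_, ?_, hθ, hγ, ?_⟩
    · intro e he y hy
      refine pr_fix t n1 y ?_ e he
      intro n m hn hm
      by_contra hc
      apply hy
      have hsy' : ∃ n' m', n1 ≤ n' ∧ n1 ≤ m' ∧
          t n' • ((t m)⁻¹ • y) ≠ t m' • ((t m)⁻¹ • y) := ⟨n, m, hn, hm, by
        rw [smul_inv_smul, ← mul_smul]
        exact hc⟩
      obtain ⟨z, _, hz⟩ := hsens _ hsy' m hm
      rw [smul_inv_smul] at hz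
      exact ⟨_, hz⟩
    · intro q hq q' hq'
      obtain ⟨n, hn, hnq⟩ := hreach y0 hA0 q hq
      -- the preimage of q under t n is y0
      obtain ⟨m, hm, hmq⟩ := hreach y0 hA0 q' hq'
      refine ⟨t m * (t n)⁻¹, qgrp_mem t hm hn, ?_⟩
      rw [mul_smul, ← hnq, inv_smul_smul, hmq]
    · intro _
      constructor
      · have hf : ∀ q : {y' : O | (B y').Nonempty}, ∃ w, w ∈ B q := fun q => q.2
        choose f hf using hf
        have hinj : Function.Injective f := by
          intro q q' hqq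
          obtain ⟨z, hz⟩ := hA0
          obtain ⟨n, hn, hnw⟩ := hres z (f q)
          have h1 := (h n hn y0 q).2 (Or.inr ⟨z, hz, by rw [hnw]; exact hf q⟩)
          have h2 := (h n hn y0 q').2 (Or.inr ⟨z, hz, by rw [hnw, hqq]; exact hf q'⟩)
          exact Subtype.ext (h1.symm.trans h2)
        have h3 := Nat.card_le_card_of_injective f hinj
        rwa [Nat.card_zmod] at h3
      · obtain ⟨h1, h2⟩ := prE_gamma θ g t n1 ht d
        refine ⟨_, h1, ?_, h2⟩
        intro y
        have h4 : t (n1 + d) • ((t n1)⁻¹ • y) = y := by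
          rw [h (n1 + d) (Nat.le_add_right _ _)]
          have h5 := (h n1 le_rfl ((t n1)⁻¹ • y) y).1 (smul_inv_smul _ _)
          rcases h5 with h5 | ⟨z, hz, hzB⟩
          · exact Or.inl h5
          · refine Or.inr ⟨z, hz, ?_⟩
            push_cast
            rw [ZMod.natCast_self, add_zero]
            exact hzB
        rw [mul_smul, h4]

/-- eventually constant permutations: the support is empty -/
theorem permE_const {H G O : Type*} [Group H] [Group G] [MulAction H O] (θ : H →* G)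
    (g : G) (t : ℕ → H) (n1 : ℕ)
    (ht : ∀ n, n1 ≤ n → θ (t n) = g ^ n)
    (h : ∀ n m, n1 ≤ n → n1 ≤ m → ∀ y : O, t n • y = t m • y) :
    ∃ (D : Subgroup H) (Q : Set O),
      (∀ h ∈ D, ∀ y, y ∉ Q → h • y = y) ∧
      (∀ y ∈ Q, ∀ y' ∈ Q, ∃ h ∈ D, h • y = y') ∧
      (∀ h ∈ D, θ h ∈ Subgroup.zpowers g) ∧ (∃ h ∈ D, θ h = g) ∧
      ¬ Q.Nonempty := by
  refine ⟨qgrp t n1, ∅, ?_, ?_, prE_theta θ g t n1 ht, ?_, Set.not_nonempty_empty⟩
  · intro e he y _
    refine pr_fix t n1 y ?_ e he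
    intro n m hn hm
    rw [mul_smul, h n m hn hm, smul_inv_smul]
  · intro y hy
    exact absurd hy (Set.notMem_empty y)
  · obtain ⟨h1, h2⟩ := prE_gamma θ g t n1 ht 1
    exact ⟨_, h1, by rw [h2, pow_one]⟩

end Vale.Agent.P329L
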