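import Vale.Agent.P329L.AbsAct
import Vale.Agent.P329L.GrpE

/-! # P329 lower bound: the abstract theorem for letters of even order, core (helper85) -/

set_option autoImplicit false

namespace Vale.Agent.P329L

theorem absE_core {X H G I : Type} [Finite X] [Group H] [Finite H] [Group G] [Finite G]
    [IsSimpleGroup G] (hG : ∃ a b : G, a * b ≠ b * a) (bl : X → I) (R : H → X → X → Prop)
    (hR : ∀ x y, R (x * y) = rcomp (R x) (R y)) (θ : H →* G) (hθ : Function.Surjective θ)
    (hker : ∀ x, R x = R 1 → θ x = 1) (hbl : ∀ x s s', R x s s' → bl s = bl s')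
    (τ : I → ℕ → H) (N : I → ℕ → X → X → Prop)
    (hN : ∀ i n, R (τ i n) = rcomp (R 1) (rcomp (N i n) (R 1)))
    (hNbl : ∀ i n s s', N i n s s' → bl s = bl s')
    (t : I → G) (ht : ∀ i, Even (orderOf (t i)))
    (hτ : ∀ i n, θ (τ i n) = t i ^ n)
    (d : I → ℕ)
    (hrun : ∀ i, ∃ (n0 : ℕ) (C : X → X → Prop) (U V : ZMod (d i) → X → Prop),
      ∀ n ≥ n0, ∀ x y, bl x = i →
        (N i n x y ↔ C x y ∨ (0 < d i ∧ ∃ p, U p x ∧ V (p + n) y))) :
    ∃ i, 0 < d i ∧ orderOf (t i) ∣ d i ∧ IsSec G (Fin (d i)) := by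
  classical
  let _ : MulAction H {j : Set X // JI (R 1) j} := JIact R hR
  have hact : ∀ (x : H) (j : {j : Set X // JI (R 1) j}), ((x • j : {j : Set X // JI (R 1) j}) : Set X)
      = lact (R x) j := fun x j => rfl
  -- the kernel
  have hk : ∀ x : H, (∀ j : {j : Set X // JI (R 1) j}, x • j = j) → θ x = 1 := by
    intro x hx
    apply hker
    have hF : ∀ F : Set X, lact (R 1) F = F → lact (R x) F = F := by
      intro F hF
      have hj : ∀ j : Set X, JI (R 1) j → lact (R x) j = j := fun j hj =>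
        congrArg Subtype.val (hx ⟨j, hj⟩)
      ext s
      constructor
      · rintro ⟨s', hs', h1⟩
        obtain ⟨j, hj1, hj2, hj3⟩ := JI_exists (R 1) F hF s' hs'
        apply hj3
        rw [← hj j hj1]
        exact ⟨s', hj2, h1⟩
      · intro hs
        obtain ⟨j, hj1, hj2, hj3⟩ := JI_exists (R 1) F hF s hs
        rw [← hj j hj1] at hj2
        exact lact_mono _ hj3 hj2
    funext s s'
    have h1 : lact (R x) {s'} = lact (R 1) {s'} := by
      have h2 := hF (lact (R 1) {s'}) (lact_fix R hR 1 _)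
      rw [lact_fix' R hR] at h2
      exact h2
    have h2 : ∀ M : X → X → Prop, s ∈ lact M {s'} ↔ M s s' := by
      intro M
      constructor
      · rintro ⟨u, rfl, h3⟩
        exact h3
      · intro h3
        exact ⟨s', rfl, h3⟩
    rw [eq_iff_iff, ← h2 (R x), ← h2 (R 1), h1]
  obtain ⟨j0, hj0⟩ := exists_orbit hG θ hθ hk
  -- the block of the orbit
  obtain ⟨i, hi⟩ := JI_block (R 1) bl (hbl 1) j0.2
  have hblk : ∀ y : MulAction.orbit H j0, ∀ s ∈ (y : {j : Set X // JI (R 1) j}).1, bl s = i := by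
    rintro ⟨_, x, rfl⟩ s hs
    obtain ⟨s', hs', h1⟩ := hs
    exact (hbl x s s' h1).trans (hi s' hs')
  -- antichain
  have hmono : ∀ (x : H) (j j' : {j : Set X // JI (R 1) j}), j.1 ⊆ j'.1 → (x • j).1 ⊆ (x • j').1 :=
    fun x j j' h => lact_mono _ h
  have hanti : ∀ (x : H) (j : {j : Set X // JI (R 1) j}), j.1 ⊆ (x • j).1 → x • j = j := by
    intro x j hj
    have h1 : ∀ k : ℕ, j.1 ⊆ (x ^ k • j).1 := by
      intro k
      induction k with
      | zero => rw [pow_zero, one_smul]
      | succ k ih =>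
        rw [pow_succ', mul_smul]
        exact hj.trans (hmono x _ _ ih)
    have h2 : x ^ (Nat.card H - 1) * x = 1 := by
      rw [← pow_succ, Nat.sub_add_cancel Nat.card_pos, pow_card_eq_one']
    have h3 : x * x ^ (Nat.card H - 1) = 1 := by
      rw [← pow_succ', Nat.sub_add_cancel Nat.card_pos, pow_card_eq_one']
    apply Subtype.ext
    apply Set.Subset.antisymm _ hj
    have h4 := hmono x _ _ (h1 (Nat.card H - 1))
    rwa [← mul_smul, h3, one_smul] at h4
  have hantiO : ∀ y y' : MulAction.orbit H j0,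
      (y : {j : Set X // JI (R 1) j}).1 ⊆ (y' : {j : Set X // JI (R 1) j}).1 → y' = y := by
    intro y y' hyy
    obtain ⟨x, hx⟩ := MulAction.exists_smul_eq H y y'
    have hx' : x • (y : {j : Set X // JI (R 1) j}) = y' := by
      rw [← hx]
      rfl
    rw [← hx'] at hyy
    have h1 := hanti x _ hyy
    apply Subtype.ext
    rw [← hx', h1]
  obtain ⟨n0, C, U, V, hUV⟩ := hrun i
  -- the image of a member of the orbit
  have himg : ∀ (n : ℕ) (y : MulAction.orbit H j0),
      ((τ i n • y : MulAction.orbit H j0) : {j : Set X // JI (R 1) j}).1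
        = lact (R 1) (lact (N i n) (y : {j : Set X // JI (R 1) j}).1) := by
    intro n y
    have h1 : ((τ i n • y : MulAction.orbit H j0) : {j : Set X // JI (R 1) j}).1
      = lact (R (τ i n)) (y : {j : Set X // JI (R 1) j}).1 := rfl
    rw [h1, hN, lact_comp, lact_comp, (y : {j : Set X // JI (R 1) j}).2.1]
  let Cp : MulAction.orbit H j0 → Set X := fun y =>
    lact (R 1) {s | bl s = i ∧ ∃ s' ∈ (y : {j : Set X // JI (R 1) j}).1, C s s'}
  let Up : ZMod (d i) → Set X := fun p => lact (R 1) {s | bl s = i ∧ U p s}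
  have hE : ∀ F : Set X, lact (R 1) (lact (R 1) F) = lact (R 1) F := lact_fix R hR 1
  have hkey : ∀ n ≥ n0, ∀ y : MulAction.orbit H j0,
      ((τ i n • y : MulAction.orbit H j0) : {j : Set X // JI (R 1) j}).1
        = ⋃₀ ({Cp y} ∪ {F | 0 < d i ∧ ∃ p, F = Up p ∧
            ∃ s' ∈ (y : {j : Set X // JI (R 1) j}).1, V (p + n) s'}) := by
    intro n hn y
    rw [himg]
    ext s
    constructor
    · rintro ⟨s1, ⟨s', hs', h1⟩, h2⟩
      have hb : bl s1 = i := (hNbl _ _ _ _ h1).trans (hblk y s' hs')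
      rcases (hUV n hn s1 s' hb).1 h1 with h3 | ⟨h3, p, h4, h5⟩
      · exact ⟨Cp y, Or.inl rfl, s1, ⟨hb, s', hs', h3⟩, h2⟩
      · exact ⟨Up p, Or.inr ⟨h3, p, rfl, s', hs', h5⟩, s1, ⟨hb, h4⟩, h2⟩
    · rintro ⟨F, hF | ⟨h3, p, rfl, s', hs', h5⟩, hs⟩
      · rw [Set.mem_singleton_iff] at hF
        subst hF
        obtain ⟨s1, ⟨hb, s', hs', h1⟩, h2⟩ := hs
        exact ⟨s1, ⟨s', hs', (hUV n hn s1 s' hb).2 (Or.inl h1)⟩, h2⟩
      · obtain ⟨s1, ⟨hb, h1⟩, h2⟩ := hs
        exact ⟨s1, ⟨s', hs', (hUV n hn s1 s' hb).2 (Or.inr ⟨h3, p, h1, h5⟩)⟩, h2⟩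
  have hstep : ∀ n ≥ n0, ∀ y y' : MulAction.orbit H j0, τ i n • y = y' ↔
      ((y' : {j : Set X // JI (R 1) j}).1 = Cp y ∨ (0 < d i ∧ ∃ p,
        (y' : {j : Set X // JI (R 1) j}).1 = Up p ∧
            ∃ s' ∈ (y : {j : Set X // JI (R 1) j}).1, V (p + n) s')) := by
    intro n hn y y'
    constructor
    · rintro rfl
      have h1 := (τ i n • y : MulAction.orbit H j0).1.2.2 _ (by
        rintro F (hF | ⟨h3, p, rfl, s', hs', h5⟩)
        · rw [Set.mem_singleton_iff] at hF
          subst hF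
          exact hE _
        · exact hE _) (hkey n hn y)
      rcases h1 with h1 | h1
      · exact Or.inl h1
      · exact Or.inr h1
    · intro h1
      apply hantiO
      rw [hkey n hn y]
      apply Set.subset_sUnion_of_mem
      rcases h1 with h1 | h1
      · exact Or.inl h1
      · exact Or.inr h1
  -- the kernel on the orbit
  have hkO : ∀ p : H, (∀ y : MulAction.orbit H j0, p • y = y) → θ p = 1 := by
    intro p hp
    apply hj0
    intro y hy
    exact congrArg Subtype.val (hp ⟨y, hy⟩)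
  have ht1 : t i ≠ 1 := by
    intro h1
    have h2 := ht i
    rw [h1, orderOf_one] at h2
    exact absurd h2 (by decide)
  have hcard : 1 < Nat.card G := by
    rw [Finite.one_lt_card_iff_nontrivial]
    exact ⟨t i, 1, ht1⟩
  have hemp : ∀ Q : Set (MulAction.orbit H j0), ¬ Q.Nonempty → ¬ IsSec G Q := by
    intro Q hQ hsec
    rw [Set.not_nonempty_iff_eq_empty] at hQ
    have h6 := hsec.card_le
    rw [hQ] at h6
    simp at h6
    omega
  rcases Nat.eq_zero_or_pos (d i) with hd | hd
  · exfalso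
    obtain ⟨D, Q, h1, h2, h3, h4, h5⟩ := permE_const (O := MulAction.orbit H j0) θ (t i)
      (τ i) n0 (fun n _ => hτ i n) (by
        intro n m hn hm y
        rw [hstep n hn]
        have h1 := (hstep m hm y (τ i m • y)).1 rfl
        rcases h1 with h1 | h1
        · exact Or.inl h1
        · exact absurd h1.1 (by omega))
    exact hemp Q h5 (GrpE_sec_ker (O := MulAction.orbit H j0) hG θ hθ hkO D Q h1 h2 _
      (ht i) h3 h4)
  · obtain ⟨D, Q, h1, h2, h3, h4, h5⟩ := permE_run (O := MulAction.orbit H j0) θ (t i)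
      (τ i) n0 (fun n _ => hτ i n) (d i) (by omega)
      (fun y y' => (y' : {j : Set X // JI (R 1) j}).1 = Cp y)
      (fun y => {z | ∃ s' ∈ (y : {j : Set X // JI (R 1) j}).1, V (-z) s'})
      (fun y' => {z | (y' : {j : Set X // JI (R 1) j}).1 = Up (-z)}) (by
        intro n hn y y'
        rw [hstep n hn]
        constructor
        · rintro (h | ⟨_, p, hp, s', hs', hV⟩)
          · exact Or.inl h
          · refine Or.inr ⟨-(p + n), ⟨s', hs', by rwa [neg_neg]⟩, ?_⟩
            have : -(-(p + (n : ZMod (d i))) + n) = p := by ring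
            change (y' : {j : Set X // JI (R 1) j}).1 = Up (-(-(p + (n : ZMod (d i))) + n))
            rw [this]
            exact hp
        · rintro (h | ⟨z, ⟨s', hs', hV⟩, hz⟩)
          · exact Or.inl h
          · refine Or.inr ⟨hd, -(z + n), hz, s', hs', ?_⟩
            have : -(z + (n : ZMod (d i))) + n = -z := by ring
            rwa [this])
    have h6 := GrpE_sec_ker (O := MulAction.orbit H j0) hG θ hθ hkO D Q h1 h2 _ (ht i) h3 h4
    have hQ : Q.Nonempty := by
      by_contra hc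
      exact hemp Q hc h6
    obtain ⟨h7, e, _, h8, h9⟩ := h5 hQ
    refine ⟨i, hd, ?_, h6.mono _ h7⟩
    apply orderOf_dvd_of_pow_eq_one
    rw [← h9]
    exact hkO e h8

end Vale.Agent.P329L
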