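import Vale.Agent.P329L.WDefs
import Vale.Agent.P329L.Sgp

/-! # P329 lower bound: the local group of slot relations (module ABS-A, helper24) -/

set_option autoImplicit false

namespace Vale.Agent.P329L

theorem rcomp_assoc {X : Type} (M N P : X → X → Prop) :
    rcomp (rcomp M N) P = rcomp M (rcomp N P) := by
  funext x z
  apply propext
  constructor
  · rintro ⟨y, ⟨u, h1, h2⟩, h3⟩
    exact ⟨u, h1, y, h2, h3⟩
  · rintro ⟨u, h1, y, h2, h3⟩
    exact ⟨y, ⟨u, h1, h2⟩, h3⟩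

theorem abs_grp {X Om G : Type} [Finite X] [Group G] [Finite G] (mul : Om → Om → Om)
    (h : Om → X → X → Prop) (g : Om → G)
    (hmul : ∀ w w', h (mul w w') = rcomp (h w) (h w'))
    (gmul : ∀ w w', g (mul w w') = g w * g w')
    (gsurj : Function.Surjective g)
    (hidem : ∀ w, rcomp (h w) (h w) = h w → g w = 1) :
    ∃ (H : Type) (_ : Group H) (_ : Finite H) (θ : H →* G) (rel : H → X → X → Prop)
      (el : Om → H), Function.Surjective θ ∧ (∀ x y, rel (x * y) = rcomp (rel x) (rel y)) ∧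
      (∀ x, rel x = rel 1 → θ x = 1) ∧
      (∀ w, rel (el w) = rcomp (rel 1) (rcomp (h w) (rel 1))) ∧ (∀ w, θ (el w) = g w) ∧
      (∀ x, ∃ w, rel x = h w) := by
  classical
  let S : Type := {p : (X → X → Prop) × G // ∃ w, p = (h w, g w)}
  let s : Om → S := fun w => ⟨(h w, g w), w, rfl⟩
  let m : S → S → S := fun p q => ⟨(rcomp p.1.1 q.1.1, p.1.2 * q.1.2), by
    obtain ⟨w, hw⟩ := p.2
    obtain ⟨w', hw'⟩ := q.2
    exact ⟨mul w w', by rw [hw, hw', hmul, gmul]⟩⟩
  let instS : Semigroup S :=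
    { mul := m
      mul_assoc := by
        intro p q r
        apply Subtype.ext
        exact Prod.ext (rcomp_assoc _ _ _) (mul_assoc _ _ _) }
  have hfin : Finite S := Subtype.finite
  have hm1 : ∀ p q : S, (p * q).1.1 = rcomp p.1.1 q.1.1 := fun p q => rfl
  have hm2 : ∀ p q : S, (p * q).1.2 = p.1.2 * q.1.2 := fun p q => rfl
  obtain ⟨e, hee, hfe, hinv, honto⟩ := Sgp_group (S := S) (G := G) (fun p => p.1.2)
    (fun p q => rfl) (by
      intro γ
      obtain ⟨w, hw⟩ := gsurj γ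
      exact ⟨s w, hw⟩)
  let H : Type := {x : S // e * x = x ∧ x * e = x}
  let i1 : Mul H := ⟨fun x y => ⟨x.1 * y.1, by
    constructor
    · rw [← mul_assoc, x.2.1]
    · rw [mul_assoc, y.2.2]⟩⟩
  let i2 : One H := ⟨⟨e, hee, hee⟩⟩
  have hinv' : ∀ x : H, ∃ y : H, y * x = 1 := by
    intro x
    obtain ⟨y, h1, h2, _, h4⟩ := hinv x.1 x.2.1 x.2.2
    exact ⟨⟨y, h1, h2⟩, Subtype.ext h4⟩
  choose iv hiv using hinv'
  let i3 : Inv H := ⟨iv⟩
  let instH : Group H := Group.ofLeftAxioms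
    (fun a b c => Subtype.ext (mul_assoc a.1 b.1 c.1))
    (fun a => Subtype.ext a.2.1)
    (fun a => hiv a)
  have hfinH : Finite H := Subtype.finite
  let θ : H →* G :=
    { toFun := fun x => x.1.1.2
      map_one' := hfe
      map_mul' := fun x y => rfl }
  refine ⟨H, instH, hfinH, θ, fun x => x.1.1.1, fun w => ⟨e * (s w * e), ?_, ?_⟩,
    ?_, ?_, ?_, ?_, ?_, ?_⟩
  · rw [← mul_assoc, hee]
  · rw [mul_assoc, mul_assoc, hee]
  · intro γ
    obtain ⟨x, h1, h2, h3⟩ := honto γ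
    exact ⟨⟨x, h1, h2⟩, h3⟩
  · intro x y
    rfl
  · intro x hx
    obtain ⟨w, hw⟩ := x.1.2
    have hE : rcomp e.1.1 e.1.1 = e.1.1 := by
      rw [← hm1, hee]
    have h1 : x.1.1.1 = e.1.1 := hx
    have h2 : h w = e.1.1 := by
      rw [← h1, hw]
    have h3 : g w = 1 := hidem w (by rw [h2, hE])
    change x.1.1.2 = 1
    rw [hw]
    exact h3
  · intro w
    rfl
  · intro w
    change e.1.2 * (g w * e.1.2) = g w
    have h1 : e.1.2 = 1 := hfe
    rw [h1, mul_one, one_mul]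
  · intro x
    obtain ⟨w, hw⟩ := x.1.2
    exact ⟨w, congrArg Prod.fst hw⟩

end Vale.Agent.P329L
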