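import Vale.Agent.P329L.AbsE

/-! # P329 lower bound: the abstract theorem for a simple subgroup `N` of an arbitrary finite group
`G` (helper16, from helper85's `absE_core`) -/

set_option autoImplicit false

namespace Vale.Agent.P329L

/-- the main abstract theorem: one letter `b i` for every language `i`; `d i` = the gcd of the language `i` for
the letter `b i`; the letters lie in the nonabelian simple subgroup `K` of `G` -/
theorem absE_mainN {X Om G I : Type} [Finite X] [Group G] [Finite G] (K : Subgroup G)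
    [IsSimpleGroup K] (hG : ∃ a b : K, a * b ≠ b * a) (bl : X → I) (mul : Om → Om → Om)
    (h : Om → X → X → Prop) (g : Om → G)
    (hmul : ∀ w w', h (mul w w') = rcomp (h w) (h w'))
    (gmul : ∀ w w', g (mul w w') = g w * g w')
    (gsurj : Function.Surjective g)
    (hbl : ∀ w x y, h w x y → bl x = bl y)
    (hidem : ∀ w, rcomp (h w) (h w) = h w → g w = 1)
    (a : I → ℕ → Om) (t : I → K) (ht : ∀ i, Even (orderOf (t i)))
    (hga : ∀ i n, g (a i n) = (t i : G) ^ n)
    (d : I → ℕ)
    (hrun : ∀ i, ∃ (n0 : ℕ) (C : X → X → Prop) (U V : ZMod (d i) → X → Prop),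
      ∀ n ≥ n0, ∀ x y, bl x = i →
        (h (a i n) x y ↔ C x y ∨ (0 < d i ∧ ∃ p, U p x ∧ V (p + n) y))) :
    ∃ i, 0 < d i ∧ orderOf (t i) ∣ d i ∧ IsSec K (Fin (d i)) := by
  classical
  -- the semigroup of the pairs `(h w, g w)`
  let S : Type := {p : (X → X → Prop) × G // ∃ w, p = (h w, g w)}
  let iS : Semigroup S :=
    { mul := fun p q => ⟨(rcomp p.1.1 q.1.1, p.1.2 * q.1.2), by
        obtain ⟨⟨M, x⟩, w, hw⟩ := p
        obtain ⟨⟨N, y⟩, w', hw'⟩ := q
        refine ⟨mul w w', ?_⟩
        rw [hmul, gmul]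
        simp only [Prod.mk.injEq] at hw hw' ⊢
        rw [hw.1, hw.2, hw'.1, hw'.2]
        exact ⟨rfl, rfl⟩⟩
      mul_assoc := by
        intro p q r
        apply Subtype.ext
        exact Prod.ext (absE_assoc _ _ _) (mul_assoc _ _ _) }
  have fS : Finite S := Subtype.finite
  have hm1 : ∀ p q : S, (p * q).1.1 = rcomp p.1.1 q.1.1 := fun p q => rfl
  have hm2 : ∀ p q : S, (p * q).1.2 = p.1.2 * q.1.2 := fun p q => rfl
  obtain ⟨e, he, hfe, hinv, hsur⟩ := Sgp_group (fun p : S => p.1.2) hm2 (by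
    intro x
    obtain ⟨w, hw⟩ := gsurj x
    exact ⟨⟨(h w, g w), w, rfl⟩, hw⟩)
  -- the group
  let H : Type := {x : S // e * x = x ∧ x * e = x}
  have hinv' : ∀ x : H, ∃ y : H, y.1 * x.1 = e := by
    intro x
    obtain ⟨y, h1, h2, _, h3⟩ := hinv x.1 x.2.1 x.2.2
    exact ⟨⟨y, h1, h2⟩, h3⟩
  choose iv hiv using hinv'
  let iH : Group H :=
    { mul := fun x y => ⟨x.1 * y.1, by rw [← mul_assoc, x.2.1], by rw [mul_assoc, y.2.2]⟩
      mul_assoc := fun x y z => Subtype.ext (mul_assoc _ _ _)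
      one := ⟨e, he, he⟩
      one_mul := fun x => Subtype.ext x.2.1
      mul_one := fun x => Subtype.ext x.2.2
      inv := iv
      inv_mul_cancel := fun x => Subtype.ext (hiv x) }
  have fH : Finite H := Subtype.finite
  let θ : H →* G :=
    { toFun := fun x => x.1.1.2
      map_one' := hfe
      map_mul' := fun x y => rfl }
  let R : H → X → X → Prop := fun x => x.1.1.1
  -- compressing a word
  let cp : Om → H := fun w =>
    ⟨e * (⟨(h w, g w), w, rfl⟩ : S) * e, by rw [← mul_assoc, ← mul_assoc, he], by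
      rw [mul_assoc, he]⟩
  have hcp1 : ∀ w, R (cp w) = rcomp (R 1) (rcomp (h w) (R 1)) := by
    intro w
    exact absE_assoc _ _ _
  have hcp2 : ∀ w, θ (cp w) = g w := by
    intro w
    change e.1.2 * g w * e.1.2 = g w
    rw [hfe, one_mul, mul_one]
  have hword : ∀ x : H, ∃ w, R x = h w ∧ θ x = g w := by
    intro x
    obtain ⟨w, hw⟩ := x.1.2
    refine ⟨w, ?_, ?_⟩
    · change x.1.1.1 = h w
      rw [hw]
    · change x.1.1.2 = g w
      rw [hw]
  have hR : ∀ x y : H, R (x * y) = rcomp (R x) (R y) := fun x y => rfl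
  -- the part of `H` over `K`
  have hmem : ∀ x : (K.comap θ : Subgroup H), θ (x : H) ∈ K := fun x => x.2
  let θK : (K.comap θ : Subgroup H) →* K :=
    { toFun := fun x => ⟨θ (x : H), hmem x⟩
      map_one' := Subtype.ext (by
        show θ ((1 : (K.comap θ : Subgroup H)) : H) = 1
        rw [Subgroup.coe_one, map_one])
      map_mul' := fun x y => Subtype.ext (by
        show θ ((x * y : (K.comap θ : Subgroup H)) : H) = θ (x : H) * θ (y : H)
        rw [Subgroup.coe_mul, map_mul]) }
  have hcpK : ∀ i n, cp (a i n) ∈ K.comap θ := by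
    intro i n
    rw [Subgroup.mem_comap, hcp2, hga]
    exact K.pow_mem (t i).2 n
  refine absE_core hG bl (fun x : (K.comap θ : Subgroup H) => R (x : H)) (fun x y => hR _ _) θK ?_
    ?_ ?_ (fun i n => ⟨cp (a i n), hcpK i n⟩) (fun i n => h (a i n)) ?_ ?_ t ht ?_ d hrun
  · intro x
    obtain ⟨y, h1, h2, h3⟩ := hsur (x : G)
    refine ⟨⟨⟨y, h1, h2⟩, ?_⟩, Subtype.ext h3⟩
    rw [Subgroup.mem_comap]
    show y.1.2 ∈ K
    have h4 : y.1.2 = (x : G) := h3
    rw [h4]
    exact x.2
  · intro x hx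
    obtain ⟨w, h1, h2⟩ := hword (x : H)
    apply Subtype.ext
    show θ (x : H) = 1
    rw [h2]
    apply hidem
    have hx' : R (x : H) = R 1 := hx
    rw [← h1, hx', ← hR, one_mul]
  · intro x s s' hs
    obtain ⟨w, h1, _⟩ := hword (x : H)
    have hs' : R (x : H) s s' := hs
    rw [h1] at hs'
    exact hbl w s s' hs'
  · intro i n
    exact hcp1 _
  · intro i n s s' hs
    exact hbl _ _ _ hs
  · intro i n
    apply Subtype.ext
    show θ (cp (a i n)) = ((t i ^ n : K) : G)
    rw [hcp2, hga, Subgroup.coe_pow]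

end Vale.Agent.P329L
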