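import Vale.Agent.P329L.Alt3

/-!
# P329L, module ALT2: two elements of even order generating `A_p` (helper85)

`p = 1 mod 4`, `s z = 2 - z`, `s' z = 1 - z`, `τ = (3 1 2)(-2 0 -1)` commutes with `s'`, `y = s' τ` has
`y ^ 3 = s'` and `y ^ 4 = τ`; the supports of `τ` and of its translate by `5` meet in one point.
-/

namespace Vale.Agent.P329L

open Equiv

/-- two permutations whose supports meet in exactly one point have a 3-cycle as commutator -/
theorem ALT2_comm {X : Type*} [Fintype X] [DecidableEq X] (α β : Perm X) (z : X)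
    (h : ∀ w, α w = w ∨ β w = w ∨ w = z) (hα : α z ≠ z) (hβ : β z ≠ z) :
    (α * β * α⁻¹ * β⁻¹).IsThreeCycle := by
  set u := α z with hu
  set v := β z with hv
  have huu : α u ≠ u := fun h1 => hα (α.injective h1)
  have hvv : β v ≠ v := fun h1 => hβ (β.injective h1)
  have hbu : β u = u := by
    rcases h u with h1 | h1 | h1
    · exact absurd h1 huu
    · exact h1
    · exact absurd h1 hα
  have hav : α v = v := by
    rcases h v with h1 | h1 | h1
    · exact h1
    · exact absurd h1 hvv
    · exact absurd h1 hβ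
  have huv : u ≠ v := by
    intro h1
    rw [h1] at hbu
    exact hvv hbu
  have key : α * β = swap z v * swap z u * (β * α) := by
    ext w
    simp only [Perm.mul_apply]
    by_cases hw : w = z
    · rw [hw, ← hu, ← hv, hav, hbu, swap_apply_right, swap_apply_left]
    · rcases h w with h1 | h1 | h1
      · rw [h1]
        by_cases h2 : β w = z
        · rw [h2, swap_apply_left, swap_apply_of_ne_of_ne hα huv]
        · have h3 : α (β w) = β w := by
            rcases h (β w) with h4 | h4 | h4
            · exact h4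
            · rw [β.injective h4]
              exact h1
            · exact absurd h4 h2
          have h5 : β w ≠ u := by
            intro h6
            rw [← hbu] at h6
            rw [β.injective h6] at h1
            exact huu h1
          have h7 : β w ≠ v := fun h8 => hw (β.injective h8)
          rw [h3, swap_apply_of_ne_of_ne h2 h5, swap_apply_of_ne_of_ne h2 h7]
      · rw [h1]
        by_cases h2 : α w = z
        · rw [h2, ← hv, swap_apply_of_ne_of_ne hβ huv.symm, swap_apply_right]
        · have h3 : β (α w) = α w := by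
            rcases h (α w) with h4 | h4 | h4
            · rw [α.injective h4]
              exact h1
            · exact h4
            · exact absurd h4 h2
          have h5 : α w ≠ u := fun h8 => hw (α.injective h8)
          have h7 : α w ≠ v := by
            intro h6
            rw [← hav] at h6
            rw [α.injective h6] at h1
            exact hvv h1
          rw [h3, swap_apply_of_ne_of_ne h2 h5, swap_apply_of_ne_of_ne h2 h7]
      · exact absurd h1 hw
  have h9 : α * β * α⁻¹ * β⁻¹ = swap z v * swap z u := by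
    rw [key]
    group
  rw [h9]
  exact Perm.isThreeCycle_swap_mul_swap_same (Ne.symm hβ) (Ne.symm hα) huv.symm

theorem alt_two (N : ℕ) : ∃ (p : ℕ) (_ : Fact p.Prime), N ≤ p ∧ 5 ≤ p ∧
    ∃ g : Fin 2 → alternatingGroup (ZMod p), (∀ a, Even (orderOf (g a))) ∧
      Subgroup.closure (Set.range g) = ⊤ := by
  obtain ⟨p, hp, hpN, hp4⟩ := Nat.exists_prime_gt_modEq_one (k := 4) (max N 13) (by norm_num)
  have hN : N ≤ p := by omega
  have h13 : 13 ≤ p := by omega
  have : Fact p.Prime := ⟨hp⟩
  refine ⟨p, ⟨hp⟩, hN, by omega, ?_⟩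
  have hm : p % 4 = 1 := hp4
  have nz : ∀ k : ℕ, 0 < k → k < 13 → ((k : ℕ) : ZMod p) ≠ 0 := fun k h0 hk =>
    ALT3_nz h0 (by omega)
  have n1 : (1 : ZMod p) ≠ 0 := one_ne_zero
  have n2 : (2 : ZMod p) ≠ 0 := by exact_mod_cast nz 2 (by norm_num) (by norm_num)
  have n3 : (3 : ZMod p) ≠ 0 := by exact_mod_cast nz 3 (by norm_num) (by norm_num)
  have n4 : (4 : ZMod p) ≠ 0 := by exact_mod_cast nz 4 (by norm_num) (by norm_num)
  have n5 : (5 : ZMod p) ≠ 0 := by exact_mod_cast nz 5 (by norm_num) (by norm_num)
  have n6 : (6 : ZMod p) ≠ 0 := by exact_mod_cast nz 6 (by norm_num) (by norm_num)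
  have n7 : (7 : ZMod p) ≠ 0 := by exact_mod_cast nz 7 (by norm_num) (by norm_num)
  have n8 : (8 : ZMod p) ≠ 0 := by exact_mod_cast nz 8 (by norm_num) (by norm_num)
  have n9 : (9 : ZMod p) ≠ 0 := by exact_mod_cast nz 9 (by norm_num) (by norm_num)
  have n10 : (10 : ZMod p) ≠ 0 := by exact_mod_cast nz 10 (by norm_num) (by norm_num)
  set s : Perm (ZMod p) := Equiv.subLeft 2 with hs
  set s' : Perm (ZMod p) := Equiv.subLeft 1 with hs'
  have as : ∀ z, s z = 2 - z := fun z => rfl
  have as' : ∀ z, s' z = 1 - z := fun z => rfl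
  have e32 : (3 : ZMod p) ≠ 2 := fun h => n1 (by linear_combination h)
  have e31 : (3 : ZMod p) ≠ 1 := fun h => n2 (by linear_combination h)
  have e21 : (2 : ZMod p) ≠ 1 := fun h => n1 (by linear_combination h)
  have m21 : (-2 : ZMod p) ≠ -1 := fun h => n1 (by linear_combination -h)
  have m20 : (-2 : ZMod p) ≠ 0 := fun h => n2 (by linear_combination -h)
  have m10 : (-1 : ZMod p) ≠ 0 := fun h => n1 (by linear_combination -h)
  set c1 : Perm (ZMod p) := swap 3 2 * swap 3 1 with hc1
  set c2 : Perm (ZMod p) := swap (-2) (-1) * swap (-2) 0 with hc2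
  have h1c : c1.IsThreeCycle := Perm.isThreeCycle_swap_mul_swap_same e32 e31 e21
  have h2c : c2.IsThreeCycle := Perm.isThreeCycle_swap_mul_swap_same m21 m20 m10
  have f1 : ∀ w, w ≠ 3 → w ≠ 2 → w ≠ 1 → c1 w = w := by
    intro w h3 h2 h1
    rw [hc1, Perm.mul_apply, swap_apply_of_ne_of_ne h3 h1, swap_apply_of_ne_of_ne h3 h2]
  have f2 : ∀ w, w ≠ -2 → w ≠ -1 → w ≠ 0 → c2 w = w := by
    intro w h3 h2 h1
    rw [hc2, Perm.mul_apply, swap_apply_of_ne_of_ne h3 h1, swap_apply_of_ne_of_ne h3 h2]
  -- the six points are different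
  have x32 : (3 : ZMod p) ≠ -2 := fun h => n5 (by linear_combination h)
  have x31 : (3 : ZMod p) ≠ -1 := fun h => n4 (by linear_combination h)
  have x22 : (2 : ZMod p) ≠ -2 := fun h => n4 (by linear_combination h)
  have x21 : (2 : ZMod p) ≠ -1 := fun h => n3 (by linear_combination h)
  have x12 : (1 : ZMod p) ≠ -2 := fun h => n3 (by linear_combination h)
  have x11 : (1 : ZMod p) ≠ -1 := fun h => n2 (by linear_combination h)
  have hdis : Perm.Disjoint c1 c2 := by
    intro w
    by_cases h3 : w = 3
    · right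
      rw [h3]
      exact f2 _ x32 x31 n3
    by_cases h2 : w = 2
    · right
      rw [h2]
      exact f2 _ x22 x21 n2
    by_cases h1 : w = 1
    · right
      rw [h1]
      exact f2 _ x12 x11 n1
    · left
      exact f1 w h3 h2 h1
  have hcc : c1 * c2 = c2 * c1 := hdis.commute.eq
  set τ : Perm (ZMod p) := c1 * c2 with hτ
  have hsw : ∀ a b : ZMod p, s' * swap a b = swap (s' a) (s' b) * s' := fun a b =>
    Equiv.mul_swap_eq_swap_mul s' a b
  have v3 : s' 3 = -2 := by rw [as']; ring
  have v2 : s' 2 = -1 := by rw [as']; ring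
  have v1 : s' 1 = 0 := by rw [as']; ring
  have w3 : s' (-2) = 3 := by rw [as']; ring
  have w2 : s' (-1) = 2 := by rw [as']; ring
  have w1 : s' 0 = 1 := by rw [as']; ring
  have hsc1 : s' * c1 = c2 * s' := by
    calc s' * c1 = (s' * swap 3 2) * swap 3 1 := by rw [hc1, mul_assoc]
      _ = swap (s' 3) (s' 2) * (s' * swap 3 1) := by rw [hsw, mul_assoc]
      _ = swap (s' 3) (s' 2) * (swap (s' 3) (s' 1) * s') := by rw [hsw 3 1]
      _ = c2 * s' := by rw [← mul_assoc, v3, v2, v1]
  have hsc2 : s' * c2 = c1 * s' := by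
    calc s' * c2 = (s' * swap (-2) (-1)) * swap (-2) 0 := by rw [hc2, mul_assoc]
      _ = swap (s' (-2)) (s' (-1)) * (s' * swap (-2) 0) := by rw [hsw, mul_assoc]
      _ = swap (s' (-2)) (s' (-1)) * (swap (s' (-2)) (s' 0) * s') := by rw [hsw (-2) 0]
      _ = c1 * s' := by rw [← mul_assoc, w3, w2, w1]
  have hcomm : s' * τ = τ * s' := by
    calc s' * τ = (s' * c1) * c2 := (mul_assoc s' c1 c2).symm
      _ = c2 * (s' * c2) := by rw [hsc1, mul_assoc]
      _ = c2 * (c1 * s') := by rw [hsc2]
      _ = τ * s' := by rw [← mul_assoc, ← hcc]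
  have hsig : Perm.sign s = 1 := refl_even p hm 2 s as
  have hsig' : Perm.sign s' = 1 := refl_even p hm 1 s' as'
  have hsigτ : Perm.sign τ = 1 := by
    rw [hτ, Perm.sign_mul, h1c.sign, h2c.sign, one_mul]
  have hsigy : Perm.sign (s' * τ) = 1 := by rw [Perm.sign_mul, hsig', hsigτ, one_mul]
  have hss : s * s = 1 := by
    ext z
    rw [Perm.mul_apply, as, as, Perm.one_apply]
    congr 1
    ring
  have hss' : s' * s' = 1 := by
    ext z
    rw [Perm.mul_apply, as', as', Perm.one_apply]
    congr 1
    ring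
  have hτ3 : τ ^ 3 = 1 := by
    rw [hτ, hdis.commute.mul_pow]
    have h1 := pow_orderOf_eq_one c1
    have h2 := pow_orderOf_eq_one c2
    rw [h1c.orderOf] at h1
    rw [h2c.orderOf] at h2
    rw [h1, h2, one_mul]
  have hcs : Commute s' τ := hcomm
  have hy3 : (s' * τ) ^ 3 = s' := by
    rw [hcs.mul_pow, hτ3, mul_one, pow_succ, pow_two, hss', one_mul]
  have hy4 : (s' * τ) ^ 4 = τ := by
    have h4 : s' ^ 4 = 1 := by
      rw [show (4 : ℕ) = 2 * 2 from rfl, pow_mul, pow_two s', hss', one_pow]
    rw [hcs.mul_pow, pow_succ τ 3, hτ3, one_mul, h4, one_mul]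
  -- the 3-cycle
  have aT : ∀ z, (s * s') z = z + 1 := fun z => by
    rw [Perm.mul_apply, as, as']
    ring
  have aT5 : ∀ z, ((s * s') ^ 5) z = z + 5 := fun z => by
    rw [alt3_top_pow p _ aT]
    push_cast
    ring
  have fτ : ∀ w, w ≠ 3 → w ≠ 2 → w ≠ 1 → w ≠ -2 → w ≠ -1 → w ≠ 0 → τ w = w := by
    intro w h1 h2 h3 h4 h5 h6
    rw [hτ, Perm.mul_apply, f2 w h4 h5 h6, f1 w h1 h2 h3]
  have τ3 : τ 3 = 1 := by
    rw [hτ, Perm.mul_apply, f2 _ x32 x31 n3, hc1, Perm.mul_apply, swap_apply_left,
      swap_apply_of_ne_of_ne e31.symm e21.symm]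
  have a2 : c2 (-2) = 0 := by
    rw [hc2, Perm.mul_apply, swap_apply_left, swap_apply_of_ne_of_ne m20.symm m10.symm]
  have τm2 : τ (-2) = 0 := by
    rw [hτ, Perm.mul_apply, a2, f1 _ n3.symm n2.symm n1.symm]
  set β : Perm (ZMod p) := (s * s') ^ 5 * τ * ((s * s') ^ 5)⁻¹ with hβ
  have iT5 : ∀ z, (((s * s') ^ 5)⁻¹ : Perm (ZMod p)) z = z - 5 := fun z => by
    rw [Perm.inv_eq_iff_eq, aT5]
    ring
  have aβ : ∀ z, β z = τ (z - 5) + 5 := fun z => by
    rw [hβ, Perm.mul_apply, Perm.mul_apply, iT5, aT5]
  have h3 : (τ * β * τ⁻¹ * β⁻¹).IsThreeCycle := by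
    refine ALT2_comm τ β 3 ?_ ?_ ?_
    · intro w
      have hb : ∀ w : ZMod p, w - 5 ≠ 3 → w - 5 ≠ 2 → w - 5 ≠ 1 → w - 5 ≠ -2 → w - 5 ≠ -1 →
          w - 5 ≠ 0 → β w = w := by
        intro w h1 h2 h3 h4 h5 h6
        rw [aβ, fτ _ h1 h2 h3 h4 h5 h6]
        ring
      by_cases h3 : w = 3
      · right; right; exact h3
      by_cases h2 : w = 2
      · right; left
        rw [h2]
        refine hb 2 (fun h => n6 (by linear_combination -h)) (fun h => n5 (by linear_combination -h))
          (fun h => n4 (by linear_combination -h)) (fun h => n1 (by linear_combination -h))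
          (fun h => n2 (by linear_combination -h)) (fun h => n3 (by linear_combination -h))
      by_cases h1 : w = 1
      · right; left
        rw [h1]
        refine hb 1 (fun h => n7 (by linear_combination -h)) (fun h => n6 (by linear_combination -h))
          (fun h => n5 (by linear_combination -h)) (fun h => n2 (by linear_combination -h))
          (fun h => n3 (by linear_combination -h)) (fun h => n4 (by linear_combination -h))
      by_cases h0 : w = 0
      · right; left
        rw [h0]
        refine hb 0 (fun h => n8 (by linear_combination -h)) (fun h => n7 (by linear_combination -h))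
          (fun h => n6 (by linear_combination -h)) (fun h => n3 (by linear_combination -h))
          (fun h => n4 (by linear_combination -h)) (fun h => n5 (by linear_combination -h))
      by_cases hm1 : w = -1
      · right; left
        rw [hm1]
        refine hb (-1) (fun h => n9 (by linear_combination -h))
          (fun h => n8 (by linear_combination -h))
          (fun h => n7 (by linear_combination -h)) (fun h => n4 (by linear_combination -h))
          (fun h => n5 (by linear_combination -h)) (fun h => n6 (by linear_combination -h))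
      by_cases hm2 : w = -2
      · right; left
        rw [hm2]
        refine hb (-2) (fun h => n10 (by linear_combination -h))
          (fun h => n9 (by linear_combination -h))
          (fun h => n8 (by linear_combination -h)) (fun h => n5 (by linear_combination -h))
          (fun h => n6 (by linear_combination -h)) (fun h => n7 (by linear_combination -h))
      · left
        exact fτ w h3 h2 h1 hm2 hm1 h0
    · rw [τ3]
      exact e31.symm
    · rw [aβ]
      have : (3 : ZMod p) - 5 = -2 := by ring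
      rw [this, τm2, zero_add]
      exact fun h => n2 (by linear_combination h)
  let g : Fin 2 → alternatingGroup (ZMod p) :=
    ![⟨s, Perm.mem_alternatingGroup.2 hsig⟩, ⟨s' * τ, Perm.mem_alternatingGroup.2 hsigy⟩]
  have g0 : ((g 0 : alternatingGroup (ZMod p)) : Perm (ZMod p)) = s := rfl
  have g1 : ((g 1 : alternatingGroup (ZMod p)) : Perm (ZMod p)) = s' * τ := rfl
  have hs1' : s ≠ 1 := by
    intro h
    have h1 := as 0
    rw [h, Perm.one_apply, sub_zero] at h1
    exact n2 h1.symm
  have hs2' : s' ≠ 1 := by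
    intro h
    have h1 := as' 0
    rw [h, Perm.one_apply, sub_zero] at h1
    exact n1 h1.symm
  have hord : ∀ y : Perm (ZMod p), ∀ k : ℕ, y ^ k * y ^ k = 1 → y ^ k ≠ 1 → Even (orderOf y) := by
    intro y k h1 h2
    by_contra hc
    rw [Nat.not_even_iff_odd] at hc
    obtain ⟨n, hn⟩ := hc
    apply h2
    have h3 : (y ^ k) ^ orderOf y = 1 := by rw [← pow_mul, mul_comm, pow_mul, pow_orderOf_eq_one,
      one_pow]
    rw [hn, pow_succ, pow_mul, pow_two, h1, one_pow, one_mul] at h3
    exact h3
  refine ⟨g, ?_, ?_⟩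
  · intro a
    have hco : orderOf (g a) = orderOf ((g a : alternatingGroup (ZMod p)) : Perm (ZMod p)) :=
      (Subgroup.orderOf_coe (g a)).symm
    rw [hco]
    fin_cases a
    · exact hord s 1 (by rw [pow_one, hss]) (by rw [pow_one]; exact hs1')
    · exact hord (s' * τ) 3 (by rw [hy3, hss']) (by rw [hy3]; exact hs2')
  · have hmem : ∀ a, ((g a : alternatingGroup (ZMod p)) : Perm (ZMod p)) ∈
        (Subgroup.closure (Set.range g)).map (alternatingGroup (ZMod p)).subtype := fun a =>
      Subgroup.mem_map_of_mem _ (Subgroup.subset_closure ⟨a, rfl⟩)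
    have hs0 := hmem 0
    have hs1 := hmem 1
    rw [g0] at hs0
    rw [g1] at hs1
    have hsp := Subgroup.pow_mem _ hs1 3
    have hst := Subgroup.pow_mem _ hs1 4
    rw [hy3] at hsp
    rw [hy4] at hst
    have hT5 := Subgroup.pow_mem _ (Subgroup.mul_mem _ hs0 hsp) 5
    have hβm := Subgroup.mul_mem _ (Subgroup.mul_mem _ hT5 hst) (Subgroup.inv_mem _ hT5)
    have htop := alt3_top p ((Subgroup.closure (Set.range g)).map
      (alternatingGroup (ZMod p)).subtype)
      ⟨s * s', Subgroup.mul_mem _ hs0 hsp, aT⟩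
      ⟨τ * β * τ⁻¹ * β⁻¹, Subgroup.mul_mem _ (Subgroup.mul_mem _ (Subgroup.mul_mem _ hst hβm)
        (Subgroup.inv_mem _ hst)) (Subgroup.inv_mem _ hβm), h3⟩
    rw [eq_top_iff]
    intro x _
    obtain ⟨y, hy, hyx⟩ := htop x.2
    have h1 : y = x := Subtype.ext hyx
    rw [← h1]
    exact hy

end Vale.Agent.P329L
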