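import Mathlib

/-!
# P329L, module ALT3J: a subgroup of `Sym(ℤ/p)` containing the translation and a 3-cycle contains
the alternating group (Jordan)
-/

namespace Vale.Agent.P329L

theorem alt3_top_pow (p : ℕ) (c : Equiv.Perm (ZMod p)) (hc : ∀ z, c z = z + 1) (n : ℕ)
    (z : ZMod p) : (c ^ n) z = z + n := by
  induction n with
  | zero => simp
  | succ n ih =>
    rw [pow_succ', Equiv.Perm.mul_apply, ih, hc]
    push_cast
    ring

theorem alt3_top (p : ℕ) [Fact p.Prime] (R : Subgroup (Equiv.Perm (ZMod p)))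
    (htr : ∃ c ∈ R, ∀ z, c z = z + 1) (h3 : ∃ f ∈ R, f.IsThreeCycle) :
    alternatingGroup (ZMod p) ≤ R := by
  obtain ⟨c, hcR, hc⟩ := htr
  obtain ⟨f, hfR, hf⟩ := h3
  have hpt : MulAction.IsPretransitive R (ZMod p) := by
    refine ⟨fun x y => ⟨⟨c ^ (y - x).val, R.pow_mem hcR _⟩, ?_⟩⟩
    change (c ^ (y - x).val) x = y
    rw [alt3_top_pow p c hc, ZMod.natCast_zmod_val]
    ring
  have hpre : MulAction.IsPreprimitive R (ZMod p) :=
    MulAction.IsPreprimitive.of_prime_card (by rw [Nat.card_zmod]; exact Fact.out)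
  exact Equiv.Perm.alternatingGroup_le_of_isPreprimitive_of_isThreeCycle_mem hpre hf hfR

end Vale.Agent.P329L
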