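import Vale.Agent.P329L.Alt3Sign
import Vale.Agent.P329L.Alt3Jor

/-!
# P329L, module ALT3: three involutions generating `A_p`
-/

namespace Vale.Agent.P329L

open Equiv

theorem ALT3_nz {p k : ℕ} (h0 : 0 < k) (hk : k < p) : (k : ZMod p) ≠ 0 := by
  intro h
  rw [ZMod.natCast_eq_zero_iff] at h
  exact absurd (Nat.le_of_dvd h0 h) (by omega)

theorem ALT3_comm {α : Type*} [DecidableEq α] {a b c d : α} (h1 : a ≠ c) (h2 : a ≠ d)
    (h3 : b ≠ c) (h4 : b ≠ d) : swap a b * swap c d = swap c d * swap a b := by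
  have h : Equiv.Perm.Disjoint (swap a b) (swap c d) := by
    intro x
    by_cases hx : x = a
    · right
      subst hx
      exact swap_apply_of_ne_of_ne h1 h2
    · by_cases hy : x = b
      · right
        subst hy
        exact swap_apply_of_ne_of_ne h3 h4
      · left
        exact swap_apply_of_ne_of_ne hx hy
  exact h.commute.eq

theorem alt_three (N : ℕ) : ∃ (p : ℕ) (_ : Fact p.Prime), N ≤ p ∧ 5 ≤ p ∧
    ∃ g : Fin 3 → alternatingGroup (ZMod p), (∀ a, g a ≠ 1 ∧ g a * g a = 1) ∧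
      Subgroup.closure (Set.range g) = ⊤ := by
  obtain ⟨p, hp, hpN, hp4⟩ := Nat.exists_prime_gt_modEq_one (k := 4) (max N 5) (by norm_num)
  have hN : N ≤ p := by omega
  have h5 : 5 ≤ p := by omega
  have : Fact p.Prime := ⟨hp⟩
  refine ⟨p, ⟨hp⟩, hN, h5, ?_⟩
  have hm : p % 4 = 1 := hp4
  have n1 : (1 : ZMod p) ≠ 0 := one_ne_zero
  have n2 : (2 : ZMod p) ≠ 0 := by exact_mod_cast ALT3_nz (p := p) (k := 2) (by norm_num) (by omega)
  have n3 : (3 : ZMod p) ≠ 0 := by exact_mod_cast ALT3_nz (p := p) (k := 3) (by norm_num) (by omega)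
  have n4 : (4 : ZMod p) ≠ 0 := by exact_mod_cast ALT3_nz (p := p) (k := 4) (by norm_num) (by omega)
  have e01 : (0 : ZMod p) ≠ 1 := n1.symm
  have e31 : (3 : ZMod p) ≠ -1 := fun h => n4 (by linear_combination h)
  have e03 : (0 : ZMod p) ≠ 3 := n3.symm
  have e0m : (0 : ZMod p) ≠ -1 := fun h => n1 (by linear_combination h)
  have e13 : (1 : ZMod p) ≠ 3 := fun h => n2 (by linear_combination -h)
  have e1m : (1 : ZMod p) ≠ -1 := fun h => n2 (by linear_combination h)
  have e23 : (2 : ZMod p) ≠ 3 := fun h => n1 (by linear_combination -h)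
  have e2m : (2 : ZMod p) ≠ -1 := fun h => n3 (by linear_combination h)
  have e12 : (1 : ZMod p) ≠ 2 := fun h => n1 (by linear_combination -h)
  set s : Perm (ZMod p) := Equiv.subLeft 2 with hs
  set s' : Perm (ZMod p) := Equiv.subLeft 1 with hs'
  set τ : Perm (ZMod p) := swap 0 1 * swap 3 (-1) with hτ
  have as : ∀ z, s z = 2 - z := fun z => rfl
  have as' : ∀ z, s' z = 1 - z := fun z => rfl
  have hsig : Perm.sign s = 1 := refl_even p hm 2 s as
  have hsig' : Perm.sign s' = 1 := refl_even p hm 1 s' as'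
  have hsigτ : Perm.sign τ = 1 := by
    rw [hτ, Perm.sign_mul, Perm.sign_swap e01, Perm.sign_swap e31]
    rfl
  have hss : s * s = 1 := by
    ext z
    rw [Perm.mul_apply, as, as, Perm.one_apply]
    congr 1
    ring
  have hss' : s' * s' = 1 := by
    ext z
    rw [Perm.mul_apply, as', as', Perm.one_apply]
    congr 1
    ring
  have hττ : τ * τ = 1 := by
    have h1 := ALT3_comm e03 e0m e13 e1m
    calc τ * τ = swap 0 1 * (swap 3 (-1) * swap 0 1) * swap 3 (-1) := by rw [hτ]; group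
      _ = swap 0 1 * (swap 0 1 * swap 3 (-1)) * swap 3 (-1) := by rw [h1]
      _ = (swap 0 1 * swap 0 1) * (swap 3 (-1) * swap 3 (-1)) := by group
      _ = 1 := by rw [swap_mul_self, swap_mul_self, one_mul]
  have hinv : s⁻¹ = s := inv_eq_of_mul_eq_one_right hss
  have hconj : s * τ * s = swap 2 1 * swap (-1) 3 := by
    have h1 : ∀ a b : ZMod p, s * swap a b * s⁻¹ = swap (s a) (s b) := fun a b =>
      (Equiv.mul_swap_eq_swap_mul s a b) ▸ by group
    calc s * τ * s = s * τ * s⁻¹ := by rw [hinv]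
      _ = (s * swap 0 1 * s⁻¹) * (s * swap 3 (-1) * s⁻¹) := by rw [hτ]; group
      _ = swap (s 0) (s 1) * swap (s 3) (s (-1)) := by rw [h1, h1]
      _ = swap 2 1 * swap (-1) 3 := by
        rw [as, as, as, as]
        congr 2 <;> ring
  have h3 : (τ * (s * τ * s)).IsThreeCycle := by
    have h1 : swap (3 : ZMod p) (-1) * swap 2 1 = swap 2 1 * swap 3 (-1) :=
      (ALT3_comm e23 e2m e13 e1m).symm
    have h2 : τ * (s * τ * s) = swap 1 0 * swap 1 2 := by
      calc τ * (s * τ * s) = swap 0 1 * (swap 3 (-1) * swap 2 1) * swap (-1) 3 := by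
            rw [hconj, hτ]; group
        _ = swap 0 1 * swap 2 1 * (swap 3 (-1) * swap 3 (-1)) := by
            rw [h1, swap_comm (-1 : ZMod p) 3]; group
        _ = swap 1 0 * swap 1 2 := by
            rw [swap_mul_self, mul_one, swap_comm 0 1, swap_comm 2 1]
    rw [h2]
    exact Perm.isThreeCycle_swap_mul_swap_same n1 e12 n2.symm
  let g : Fin 3 → alternatingGroup (ZMod p) :=
    ![⟨s, Perm.mem_alternatingGroup.2 hsig⟩, ⟨s', Perm.mem_alternatingGroup.2 hsig'⟩,
      ⟨τ, Perm.mem_alternatingGroup.2 hsigτ⟩]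
  have g0 : ((g 0 : alternatingGroup (ZMod p)) : Perm (ZMod p)) = s := rfl
  have g1 : ((g 1 : alternatingGroup (ZMod p)) : Perm (ZMod p)) = s' := rfl
  have g2 : ((g 2 : alternatingGroup (ZMod p)) : Perm (ZMod p)) = τ := rfl
  refine ⟨g, ?_, ?_⟩
  · intro a
    have hz : ∀ x : alternatingGroup (ZMod p), (x : Perm (ZMod p)) 0 ≠ 0 → x ≠ 1 := by
      intro x hx h
      rw [h] at hx
      exact hx rfl
    fin_cases a
    · refine ⟨hz _ ?_, Subtype.ext hss⟩
      show s 0 ≠ 0
      rw [as, sub_zero]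
      exact n2
    · refine ⟨hz _ ?_, Subtype.ext hss'⟩
      show s' 0 ≠ 0
      rw [as', sub_zero]
      exact n1
    · refine ⟨hz _ ?_, Subtype.ext hττ⟩
      show τ 0 ≠ 0
      rw [hτ, Perm.mul_apply, swap_apply_of_ne_of_ne e03 e0m, swap_apply_left]
      exact n1
  · have hmem : ∀ a, ((g a : alternatingGroup (ZMod p)) : Perm (ZMod p)) ∈
        (Subgroup.closure (Set.range g)).map (alternatingGroup (ZMod p)).subtype := fun a =>
      Subgroup.mem_map_of_mem _ (Subgroup.subset_closure ⟨a, rfl⟩)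
    have hs0 := hmem 0
    have hs1 := hmem 1
    have hs2 := hmem 2
    rw [g0] at hs0
    rw [g1] at hs1
    rw [g2] at hs2
    have htop := alt3_top p ((Subgroup.closure (Set.range g)).map
      (alternatingGroup (ZMod p)).subtype)
      ⟨s * s', Subgroup.mul_mem _ hs0 hs1, fun z => by
        rw [Perm.mul_apply, as, as']
        ring⟩
      ⟨τ * (s * τ * s), Subgroup.mul_mem _ hs2 (Subgroup.mul_mem _ (Subgroup.mul_mem _ hs0 hs2)
        hs0), h3⟩
    rw [eq_top_iff]
    intro x _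
    obtain ⟨y, hy, hyx⟩ := htop x.2
    have h1 : y = x := Subtype.ext hyx
    rw [← h1]
    exact hy

end Vale.Agent.P329L
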