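import Mathlib

/-!
# P329L, module ALT3S: reflections of `ZMod p`, `p = 1 mod 4`, are even permutations

`-1 = i * i` in `ZMod p`, so `z ↦ c - z` is the square of `z ↦ i * z + b` with `(i + 1) * b = c`.
-/

namespace Vale.Agent.P329L

theorem refl_even (p : ℕ) [Fact p.Prime] (hp : p % 4 = 1) (c : ZMod p)
    (e : Equiv.Perm (ZMod p)) (he : ∀ z, e z = c - z) : Equiv.Perm.sign e = 1 := by
  have hp2 : 2 < p := by
    have := (Fact.out : p.Prime).two_le
    omega
  obtain ⟨i, hi⟩ := (ZMod.exists_sq_eq_neg_one_iff (p := p)).2 (by omega)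
  have h1 : i + 1 ≠ 0 := by
    intro h
    have h2 : ((2 : ℕ) : ZMod p) = 0 := by
      push_cast
      linear_combination (1 - i) * h - hi
    rw [ZMod.natCast_eq_zero_iff] at h2
    exact absurd (Nat.le_of_dvd (by norm_num) h2) (by omega)
  have h0 : i ≠ 0 := by
    intro h
    rw [h, mul_zero, neg_eq_zero] at hi
    exact one_ne_zero hi
  obtain ⟨b, hb⟩ : ∃ b : ZMod p, (i + 1) * b = c := ⟨(i + 1)⁻¹ * c, by
    rw [← mul_assoc, mul_inv_cancel₀ h1, one_mul]⟩
  obtain ⟨f, hf⟩ : ∃ f : Equiv.Perm (ZMod p), ∀ z, f z = i * z + b :=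
    ⟨(Equiv.mulLeft₀ i h0).trans (Equiv.addRight b), fun z => rfl⟩
  have hef : e = f * f := by
    ext z
    rw [Equiv.Perm.mul_apply, he, hf, hf]
    linear_combination -hb + z * hi
  rw [hef, map_mul, Int.units_mul_self]

end Vale.Agent.P329L
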