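import Vale.Agent.P329.Defs

/-!
# P329L: a lower bound theorem for generalized star height (helper16, helper32): definitions

THEOREM.  Let `G` be a finite nonabelian simple group generated by involutions, the letters of the
alphabet being mapped to involutions generating `G`.  Every generalized regular expression of star
height at most one for the word problem `{w : g(w) = 1}` contains a starred subexpression `P*` such
that for EVERY letter `a` the set `{t ≥ 1 : a^t ∈ L(P)}` is nonempty and its elements are divisible by
an even number `d` with `|G| ≤ d!`.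
-/

namespace Vale.Agent.P329L

open Vale.Agent.P329

/-- the expressions `P` such that `P*` occurs in `E` -/
def starred {α : Type} : GRE α → Set (GRE α)
  | .zero => ∅
  | .one => ∅
  | .letter _ => ∅
  | .plus P Q => starred P ∪ starred Q
  | .cat P Q => starred P ∪ starred Q
  | .neg P => starred P
  | .star P => insert P (starred P)

/-- the word problem of the letters `g a` -/
def wordProblem {α G : Type} [Group G] (g : α → G) : Language α :=
  ({w : List α | (w.map g).prod = 1} : Set (List α))

/-- the data that the word part delivers for one orbit and one letter: `D ≤ H` acts transitively on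
`Q ⊆ O`, trivially outside `Q`, `θ(D) = {1, γ}`; `K` is the starred language and `a` the letter -/
structure RunData {α H G O : Type} [Group H] [Group G] [MulAction H O] (θ : H →* G)
    (K : Language α) (a : α) (γ : G) : Prop where
  ex : ∃ (D : Subgroup H) (Q : Set O),
    (∀ h ∈ D, ∀ y, y ∉ Q → h • y = y) ∧
    (∀ y ∈ Q, ∀ y' ∈ Q, ∃ h ∈ D, h • y = y') ∧
    (∀ h ∈ D, θ h = 1 ∨ θ h = γ) ∧ (∃ h ∈ D, θ h = γ) ∧
    (Q.Nonempty → ∃ d : ℕ, (∀ t, 0 < t → List.replicate t a ∈ K → d ∣ t) ∧
      (∃ t, 0 < t ∧ List.replicate t a ∈ K) ∧ Nat.card Q ≤ d ∧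
      ∃ h ∈ D, (∀ y : O, h • y = y) ∧ θ h = γ ^ d)

/-- what the word part delivers (`WMAIN`): a finite group `H` over `G` acting on finitely many finite
sets `O j`, jointly detecting `θ`, with run data for every `j` and every letter -/
def WordData {α G : Type} [Group G] (g : α → G) (E : GRE α) : Prop :=
  ∃ (H : Type) (_ : Group H) (_ : Finite H) (θ : H →* G) (J : Type) (_ : Finite J)
    (O : J → Type) (_ : ∀ j, Finite (O j)) (_ : ∀ j, MulAction H (O j)),
    Function.Surjective θ ∧ (∀ h : H, (∀ j (y : O j), h • y = y) → θ h = 1) ∧
    ∀ j, ∃ P ∈ starred E, ∀ a : α, ∃ γ : G, (∃ x : G, γ = x * g a * x⁻¹) ∧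
      RunData (O := O j) θ P.lang a γ

end Vale.Agent.P329L
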