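import Vale.Agent.P329L.WMain
import Vale.Agent.P329L.AbsE

/-! # P329 lower bound: assembly of the word part, letters of even order (helper85, after helper32) -/

set_option autoImplicit false

namespace Vale.Agent.P329L

open Vale.Agent.P329 Computability

/-- the word part -/
theorem wordE_abs {α G : Type} [Group G] [Finite G] [IsSimpleGroup G]
    (hna : ∃ x y : G, x * y ≠ y * x) (g : α → G)
    (hgen : Subgroup.closure (Set.range g) = ⊤) (E : GRE α) (hsh : E.sh ≤ 1)
    (hE : ∀ w, Ap E.lang w → (w.map g).prod = 1) (al : GRE α → α)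
    (hal : ∀ P ∈ starred E, Even (orderOf (g (al P)))) :
    ∃ P ∈ starred E, (∃ t, 0 < t ∧ List.replicate t (al P) ∈ P.lang) ∧
      ∃ d : ℕ, 0 < d ∧ (∀ t, List.replicate t (al P) ∈ P.lang → d ∣ t) ∧
        orderOf (g (al P)) ∣ d ∧ IsSec G (Fin d) := by
  classical
  -- two letters
  obtain ⟨b, c, hbc⟩ : ∃ b c : α, b ≠ c := by
    by_contra hcon
    push Not at hcon
    obtain ⟨x, y, hxy⟩ := hna
    apply hxy
    have hle : Subgroup.closure (Set.range g) ≤ Subgroup.centralizer (Set.range g) := by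
      rw [Subgroup.closure_le]
      rintro _ ⟨a, rfl⟩
      rw [SetLike.mem_coe, Subgroup.mem_centralizer_iff]
      rintro _ ⟨b, rfl⟩
      rw [hcon a b]
    have hx : x ∈ Subgroup.centralizer (Set.range g) := hle (by rw [hgen]; trivial)
    have h2 : Subgroup.closure (Set.range g) ≤ Subgroup.centralizer {x} := by
      rw [Subgroup.closure_le]
      rintro _ ⟨b, rfl⟩
      rw [SetLike.mem_coe, Subgroup.mem_centralizer_singleton_iff]
      exact (Subgroup.mem_centralizer_iff.mp hx _ ⟨b, rfl⟩).symm ▸ rfl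
    have hy : y ∈ Subgroup.centralizer {x} := h2 (by rw [hgen]; trivial)
    exact (Subgroup.mem_centralizer_singleton_iff.mp hy).symm
  set g' : List α → G := fun w => (w.map g).prod with hg'
  have hg'nil : g' [] = 1 := rfl
  have hg'app : ∀ u v, g' (u ++ v) = g' u * g' v := fun u v => by
    simp only [hg', List.map_append, List.prod_append]
  have hg'surj : Function.Surjective g' := by
    intro x
    have hx : x ∈ Subgroup.closure (Set.range g) := by rw [hgen]; trivial
    induction hx using Subgroup.closure_induction with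
    | mem x hx =>
      obtain ⟨a, rfl⟩ := hx
      exact ⟨[a], by simp [hg']⟩
    | one => exact ⟨[], rfl⟩
    | mul x y _ _ hx hy =>
      obtain ⟨u, rfl⟩ := hx
      obtain ⟨v, rfl⟩ := hy
      exact ⟨u ++ v, hg'app u v⟩
    | inv x _ hx =>
      obtain ⟨u, rfl⟩ := hx
      -- a power of `u`
      obtain ⟨n, hn, hpow⟩ := isOfFinOrder_iff_pow_eq_one.1 (isOfFinOrder_of_finite (g' u))
      have hp : ∀ n, g' (pw u n) = g' u ^ n := by
        intro n
        induction n with
        | zero => rw [pw_zero, hg'nil, pow_zero]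
        | succ n ih => rw [pw_succ', hg'app, ih, pow_succ]
      refine ⟨pw u (n - 1), ?_⟩
      rw [hp]
      obtain ⟨m, rfl⟩ : ∃ m, n = m + 1 := ⟨n - 1, by omega⟩
      rw [pow_succ] at hpow
      rw [Nat.add_sub_cancel]
      exact eq_inv_of_mul_eq_one_left hpow
  -- the languages
  have hfin : (starred E).Finite := starred_finite_w E
  let I : Type := {P : GRE α // P ∈ starred E}
  have : Finite I := hfin
  have hsh0 : ∀ i : I, starred i.1 = ∅ := fun i =>
    starred_empty i.1 (Nat.le_zero.1 (starred_sh E 0 hsh i.1 i.2))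
  have hAp : ∀ i : I, ∀ w, Ap i.1.lang w := by
    intro i w
    refine Ap_expr w i.1 fun P hP => ?_
    rw [hsh0 i] at hP
    exact absurd hP (Set.notMem_empty P)
  have hF : ∀ i : I, FinIdx i.1.lang := fun i => FinIdx_expr i.1
  obtain ⟨r, hRB, hgr, hbr, hcr⟩ := exists_common (fun i : I => i.1.lang)
    (fun i => exists_RB (hAp i) (hF i)) g' hg'nil hg'app b c
  -- the abstract theorem
  obtain ⟨i, hi0, hit, hcard⟩ := absE_main (X := I × Fin (r.length + 1)) (Om := List α) (I := I)
    hna (fun x => x.1) (fun w w' => w ++ r ++ w')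
    (fun w x y => x.1 = y.1 ∧ Hm x.1.1.lang r w x.2 y.2) g'
    (by
      intro w w'
      funext x z
      refine propext ?_
      constructor
      · rintro ⟨h1, h2⟩
        rw [Hm_mul] at h2
        obtain ⟨y, hy1, hy2⟩ := h2
        exact ⟨(x.1, y), ⟨rfl, hy1⟩, ⟨h1, hy2⟩⟩
      · rintro ⟨y, ⟨h1, h2⟩, ⟨h3, h4⟩⟩
        refine ⟨h1.trans h3, ?_⟩
        rw [Hm_mul]
        refine ⟨y.2, h2, ?_⟩
        rw [h1]
        exact h4)
    (by
      intro w w'
      show g' (w ++ r ++ w') = g' w * g' w'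
      rw [hg'app, hg'app, hgr, mul_one])
    hg'surj
    (fun w x y h => h.1)
    (by
      intro w hw
      have h1 : ∀ i : I, rcomp (Hm i.1.lang r w) (Hm i.1.lang r w) = Hm i.1.lang r w := by
        intro i
        funext s s'
        refine propext ?_
        have h2 := congrFun (congrFun hw (i, s)) (i, s')
        constructor
        · rintro ⟨y, hy1, hy2⟩
          have h3 : rcomp (fun x y : I × Fin (r.length + 1) => x.1 = y.1 ∧ Hm x.1.1.lang r w x.2 y.2)
              (fun x y => x.1 = y.1 ∧ Hm x.1.1.lang r w x.2 y.2) (i, s) (i, s') :=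
            ⟨(i, y), ⟨rfl, hy1⟩, ⟨rfl, hy2⟩⟩
          rw [h2] at h3
          exact h3.2
        · intro h3
          have h4 : rcomp (fun x y : I × Fin (r.length + 1) => x.1 = y.1 ∧ Hm x.1.1.lang r w x.2 y.2)
              (fun x y => x.1 = y.1 ∧ Hm x.1.1.lang r w x.2 y.2) (i, s) (i, s') := by
            rw [h2]
            exact ⟨rfl, h3⟩
          obtain ⟨y, ⟨h5, h6⟩, ⟨h7, h8⟩⟩ := h4
          refine ⟨y.2, h6, ?_⟩
          have h9 : i = y.1 := h5
          rw [← h9] at h8
          exact h8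
      have h3 : Ap E.lang (r ++ w) := by
        refine Ap_expr _ E fun P hP => ?_
        exact turn (hRB ⟨P, hP⟩) (hF ⟨P, hP⟩) (h1 ⟨P, hP⟩)
      have h4 : g' (r ++ w) = 1 := hE _ h3
      rw [hg'app, hgr, one_mul] at h4
      exact h4)
    (fun i n => List.replicate n (al i.1)) (fun i => g (al i.1)) (fun i => hal _ i.2)
    (by
      intro i n
      show ((List.replicate n (al i.1)).map g).prod = _
      rw [List.map_replicate, List.prod_replicate])
    (fun i => Nat.setGcd (TT (Kr i.1.lang r) (al i.1)))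
    (by
      intro i
      obtain ⟨n0, C, U, V, hrun⟩ := wm_run i.1.lang r (al i.1) (Ap_Kr (hAp i _) r) _ rfl
      refine ⟨n0, fun x y => x.1 = y.1 ∧ C x.2 y.2, fun p x => U p x.2,
        fun p y => i = y.1 ∧ V p y.2, ?_⟩
      intro n hn x y hx
      have hx' : x.1 = i := hx
      constructor
      · rintro ⟨h1, h2⟩
        rw [hx'] at h2
        rcases (hrun n hn x.2 y.2).1 h2 with h3 | ⟨h3, p, h4, h5⟩
        · exact Or.inl ⟨h1, h3⟩
        · exact Or.inr ⟨h3, p, h4, hx' ▸ h1, h5⟩
      · rintro (⟨h1, h2⟩ | ⟨h3, p, h4, h5, h6⟩)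
        · refine ⟨h1, ?_⟩
          rw [hx']
          exact (hrun n hn x.2 y.2).2 (Or.inl h2)
        · refine ⟨hx'.trans h5, ?_⟩
          rw [hx']
          exact (hrun n hn x.2 y.2).2 (Or.inr ⟨h3, p, h4, h6⟩))
  have hTT := wm_TT i.1.lang r (al i.1) b c hbc hbr hcr
  refine ⟨i.1, i.2, ?_, _, hi0, ?_, hit, hcard⟩
  · by_contra hcon
    push Not at hcon
    refine absurd hi0 (Nat.not_lt.2 (Nat.le_zero.2 ?_))
    rw [Nat.setGcd_eq_zero_iff]
    intro t ht
    by_contra hne
    exact hcon t (Nat.pos_of_ne_zero hne) ((hTT t).1 ht)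
  · intro t ht
    exact Nat.setGcd_dvd_of_mem ((hTT t).2 ht)

end Vale.Agent.P329L
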