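import Vale.Agent.P329L.Final
import Vale.Agent.P329L.WMainE

/-! P329L: the theorem for letters of even order (helper85, after helper16). -/

set_option autoImplicit false

namespace Vale.Agent.P329L

open Vale.Agent.P329

/-- the main theorem: `L` is any language whose syntactic congruence refines the kernel of the
morphism onto the simple group `G` -/
theorem mainE {α G : Type} [Group G] [Finite G] [IsSimpleGroup G] (g : α → G)
    (hna : ∃ x y : G, x * y ≠ y * x)
    (hgen : Subgroup.closure (Set.range g) = ⊤) (E : GRE α) (hsh : E.sh ≤ 1)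
    (hE : ∀ u v : List α, (∀ x y : List α, x ++ u ++ y ∈ E.lang ↔ x ++ v ++ y ∈ E.lang) →
      (u.map g).prod = (v.map g).prod) :
    ∃ P ∈ starred E, ∀ a : α, Even (orderOf (g a)) →
      (∃ t, 0 < t ∧ List.replicate t a ∈ P.lang) ∧
      ∃ d : ℕ, 0 < d ∧ orderOf (g a) ∣ d ∧ (∀ t, List.replicate t a ∈ P.lang → d ∣ t) ∧
        ∃ (R : Subgroup (Equiv.Perm (Fin d))) (φ : R →* G), Function.Surjective φ := by
  classical
  have hE' : ∀ w, Ap E.lang w → (w.map g).prod = 1 := by
    rintro w ⟨n, hn⟩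
    have h1 := hE (pw w n) (pw w (n + 1)) (fun x y => hn n le_rfl x y)
    rw [prod_pw, prod_pw, pow_succ] at h1
    exact (mul_eq_left.mp h1.symm)
  by_contra hcon
  push Not at hcon
  have hα : Nonempty α := by
    by_contra hne
    rw [not_nonempty_iff] at hne
    obtain ⟨x, y, hxy⟩ := hna
    apply hxy
    have h1 : Set.range g = ∅ := Set.range_eq_empty g
    rw [h1, Subgroup.closure_empty] at hgen
    have hx : x ∈ (⊥ : Subgroup G) := by rw [hgen]; trivial
    rw [Subgroup.mem_bot] at hx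
    rw [hx, one_mul, mul_one]
  obtain ⟨a0⟩ := hα
  have hch : ∀ P : GRE α, ∃ a : α, P ∈ starred E →
      (Even (orderOf (g a)) ∧
      ((∃ t, 0 < t ∧ List.replicate t a ∈ P.lang) → ∀ d : ℕ, 0 < d → orderOf (g a) ∣ d →
        (∀ t, List.replicate t a ∈ P.lang → d ∣ t) →
        ¬ ∃ (R : Subgroup (Equiv.Perm (Fin d))) (φ : R →* G), Function.Surjective φ)) := by
    intro P
    by_cases hP : P ∈ starred E
    · obtain ⟨a, ha1, ha⟩ := hcon P hP
      refine ⟨a, fun _ => ⟨ha1, fun hex d hd0 he hd => ?_⟩⟩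
      rintro ⟨R, φ, hφ⟩
      exact ha hex d hd0 he hd R φ hφ
    · exact ⟨a0, fun h => absurd h hP⟩
  choose al hal using hch
  obtain ⟨P, hP, hex, d, hd0, hd, heven, hsec⟩ := wordE_abs hna g hgen E hsh hE' al
    (fun P hP => (hal P hP).1)
  exact (hal P hP).2 hex d hd0 heven hd hsec

end Vale.Agent.P329L
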