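import Vale.Agent.P329L.Fam3
import Vale.Agent.P329L.FinalE
import Vale.Agent.P329L.Alt2

/-! P329L: the family of languages over a two-letter alphabet (helper85, after helper16's Fam3). -/

namespace Vale.Agent.P329L

open Vale.Agent.P329

/-- the family over the two-letter alphabet -/
theorem fam2 (N : ℕ) : ∃ L : Language (Fin 2), L.IsRegular ∧
    ∀ E : GRE (Fin 2), E.sh ≤ 1 → E.lang = L → ∃ P ∈ starred E, ∀ a : Fin 2,
      (∃ t, 0 < t ∧ List.replicate t a ∈ P.lang) ∧
      ∃ d : ℕ, N ≤ d ∧ 0 < d ∧ Even d ∧ ∀ t, List.replicate t a ∈ P.lang → d ∣ t := by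
  obtain ⟨p, hp, hN, h5, g, hg, hgen⟩ := alt_two N
  have hcard : Fintype.card (ZMod p) = p := ZMod.card p
  have hsimple : IsSimpleGroup (alternatingGroup (ZMod p)) :=
    alternatingGroup.isSimpleGroup (by rw [Nat.card_eq_fintype_card, hcard]; exact h5)
  refine ⟨recLang g {1}, recLang_regular g {1}, fun E hsh hE => ?_⟩
  have hna := alt_nonabelian_X (X := ZMod p) (by rw [hcard]; exact h5)
  have hne : ({1} : Set (alternatingGroup (ZMod p))) ≠ Set.univ := by
    intro h
    obtain ⟨x, y, hxy⟩ := hna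
    have hx : x ∈ ({1} : Set (alternatingGroup (ZMod p))) := by rw [h]; trivial
    rw [Set.mem_singleton_iff] at hx
    apply hxy
    rw [hx, one_mul, mul_one]
  obtain ⟨P, hP, hPa⟩ := mainE g hna hgen E hsh (by
    intro u v huv
    rw [hE] at huv
    exact synt_recLang g hgen {1} ⟨1, rfl⟩ hne u v huv)
  refine ⟨P, hP, fun a => ?_⟩
  obtain ⟨h1, d, hd0, hd2, hd, hsec⟩ := hPa a (hg a)
  refine ⟨h1, d, ?_, hd0, ?_, hd⟩
  · have h2 := alt_card_X (X := ZMod p) d (by rw [hcard]; exact h5) (sec_card hsec)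
    rw [hcard] at h2
    exact hN.trans h2
  · exact even_iff_two_dvd.2 ((even_iff_two_dvd.1 (hg a)).trans hd2)

end Vale.Agent.P329L
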