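import Vale.Agent.P329L.Final
import Vale.Agent.P329L.Alt3

/-! P329L: the family of languages over a three-letter alphabet (helper16). -/

namespace Vale.Agent.P329L

open Vale.Agent.P329

theorem alt_card_X {X : Type} [Fintype X] [DecidableEq X] (d : ℕ) (hn : 5 ≤ Fintype.card X)
    (h : Nat.card (alternatingGroup X) ≤ d.factorial) : Fintype.card X ≤ d := by
  by_contra hnd
  push Not at hnd
  have : Nontrivial X := Fintype.one_lt_card_iff_nontrivial.mp (by omega)
  have h1 : 2 * Nat.card (alternatingGroup X) = Nat.card (Equiv.Perm X) :=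
    two_mul_nat_card_alternatingGroup
  have h2 : Nat.card (Equiv.Perm X) = (Fintype.card X).factorial := by
    rw [Nat.card_perm, Nat.card_eq_fintype_card]
  obtain ⟨m, hm⟩ : ∃ m, Fintype.card X = m + 1 := ⟨Fintype.card X - 1, by omega⟩
  rw [hm] at h2 hn hnd
  have h3 : d.factorial ≤ m.factorial := Nat.factorial_le (by omega)
  have h4 := Nat.factorial_succ m
  have h5 := Nat.factorial_pos m
  have h6 : 5 * m.factorial ≤ (m + 1) * m.factorial := Nat.mul_le_mul_right _ hn
  omega

theorem alt_nonabelian_X {X : Type} [Fintype X] [DecidableEq X] (hn : 5 ≤ Fintype.card X) :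
    ∃ x y : alternatingGroup X, x * y ≠ y * x := by
  obtain ⟨x, y, hxy⟩ := alt_nonabelian (Fintype.card X) hn
  let e : Fin (Fintype.card X) ≃ X := (Fintype.equivFin X).symm
  refine ⟨e.altCongrHom x, e.altCongrHom y, fun h => hxy ?_⟩
  apply e.altCongrHom.injective
  rw [map_mul, map_mul, h]

theorem sec_card {G : Type} [Group G] {d : ℕ}
    (h : ∃ (R : Subgroup (Equiv.Perm (Fin d))) (φ : R →* G), Function.Surjective φ) :
    Nat.card G ≤ d.factorial := by
  have h1 := IsSec.card_le (G := G) (X := Fin d) h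
  rwa [Nat.card_fin] at h1

theorem recLang_regular {α G : Type} [Group G] [Finite G] (g : α → G) (T : Set G) :
    (recLang g T).IsRegular := by
  have : Fintype G := Fintype.ofFinite G
  let M : DFA α G := ⟨fun s a => s * g a, 1, T⟩
  have hM : ∀ (w : List α) (s : G), M.evalFrom s w = s * (w.map g).prod := by
    intro w
    induction w with
    | nil =>
      intro s
      rw [DFA.evalFrom_nil, List.map_nil, List.prod_nil, mul_one]
    | cons a w ih =>
      intro s
      rw [DFA.evalFrom_cons, ih, List.map_cons, List.prod_cons]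
      show s * g a * _ = _
      rw [mul_assoc]
  refine ⟨G, this, M, ?_⟩
  ext w
  rw [DFA.mem_accepts]
  show M.evalFrom 1 w ∈ T ↔ _
  rw [hM, one_mul]
  exact (mem_recLang g T w).symm

/-- the family over the three-letter alphabet -/
theorem fam3 (N : ℕ) : ∃ L : Language (Fin 3), L.IsRegular ∧
    ∀ E : GRE (Fin 3), E.sh ≤ 1 → E.lang = L → ∃ P ∈ starred E, ∀ a : Fin 3,
      (∃ t, 0 < t ∧ List.replicate t a ∈ P.lang) ∧
      ∃ d : ℕ, N ≤ d ∧ 0 < d ∧ Even d ∧ ∀ t, List.replicate t a ∈ P.lang → d ∣ t := by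
  obtain ⟨p, hp, hN, h5, g, hg, hgen⟩ := alt_three N
  have hcard : Fintype.card (ZMod p) = p := ZMod.card p
  have hsimple : IsSimpleGroup (alternatingGroup (ZMod p)) :=
    alternatingGroup.isSimpleGroup (by rw [Nat.card_eq_fintype_card, hcard]; exact h5)
  refine ⟨recLang g {1}, recLang_regular g {1}, fun E hsh hE => ?_⟩
  have hna := alt_nonabelian_X (X := ZMod p) (by rw [hcard]; exact h5)
  have hne : ({1} : Set (alternatingGroup (ZMod p))) ≠ Set.univ := by
    intro h
    obtain ⟨x, y, hxy⟩ := hna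
    have hx : x ∈ ({1} : Set (alternatingGroup (ZMod p))) := by rw [h]; trivial
    rw [Set.mem_singleton_iff] at hx
    apply hxy
    rw [hx, one_mul, mul_one]
  obtain ⟨P, hP, hPa⟩ := main g hna hgen E hsh (by
    intro u v huv
    rw [hE] at huv
    exact synt_recLang g hgen {1} ⟨1, rfl⟩ hne u v huv)
  refine ⟨P, hP, fun a => ?_⟩
  obtain ⟨h1, d, hd0, hd2, hd, hsec⟩ := hPa a (hg a).1 (hg a).2
  refine ⟨h1, d, ?_, hd0, hd2, hd⟩
  have h2 := alt_card_X (X := ZMod p) d (by rw [hcard]; exact h5) (sec_card hsec)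
  rw [hcard] at h2
  exact hN.trans h2

end Vale.Agent.P329L
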