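import Mathlib

/-!
# P329L: chains of `K`-words across a long run of one letter (helper24)

`Ch K w`: the word `w` is a product of words of `K` (i.e. `w ∈ K*`).  If `K` is insensitive to the
length of runs of `a` of length at least `m0`, then for large `n` the condition `u a^n v ∈ K*`
depends on `n` only through a residue: see `run_main`.
-/

namespace Vale.Agent.P329L

open List

variable {α : Type*}

/-- `w` is a product of words of `K` -/
def Ch (K : Set (List α)) (w : List α) : Prop :=
  ∃ L : List (List α), L.flatten = w ∧ ∀ y ∈ L, y ∈ K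

theorem Ch_nil (K : Set (List α)) : Ch K [] := ⟨[], rfl, by simp⟩

theorem Ch_one {K : Set (List α)} {w : List α} (h : w ∈ K) : Ch K w := ⟨[w], by simp, by simpa⟩

theorem Ch_append {K : Set (List α)} {w w' : List α} (h : Ch K w) (h' : Ch K w') :
    Ch K (w ++ w') := by
  obtain ⟨L, hL, hK⟩ := h
  obtain ⟨L', hL', hK'⟩ := h'
  refine ⟨L ++ L', by rw [List.flatten_append, hL, hL'], ?_⟩
  intro y hy
  rcases List.mem_append.1 hy with hy | hy
  · exact hK y hy
  · exact hK' y hy

/-- exponents of the powers of `a` in `K` -/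
def TT (K : Set (List α)) (a : α) : Set ℕ := {t | replicate t a ∈ K}

theorem Ch_closure {K : Set (List α)} {a : α} {s : ℕ} (hs : s ∈ AddSubmonoid.closure (TT K a)) :
    Ch K (replicate s a) := by
  induction hs using AddSubmonoid.closure_induction with
  | mem x hx => exact Ch_one hx
  | zero => exact Ch_nil K
  | add x y _ _ hx hy =>
    rw [List.replicate_add]
    exact Ch_append hx hy

/-- a chain with a word overlapping the run in at least `m0` letters -/
def CC (K : Set (List α)) (a : α) (m0 n : ℕ) (u v : List α) : Prop :=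
  ∃ (i k j : ℕ) (x p q y : List α), n = i + k + j ∧ m0 ≤ k ∧ Ch K x ∧ Ch K y ∧
    p ++ (replicate k a ++ q) ∈ K ∧ u ++ replicate i a = x ++ p ∧ replicate j a ++ v = q ++ y

theorem CC_mono {K : Set (List α)} {a : α} {m0 : ℕ}
    (hst : ∀ m, m0 ≤ m → ∀ u v, u ++ (replicate m a ++ v) ∈ K →
      u ++ (replicate (m + 1) a ++ v) ∈ K) {n : ℕ} {u v : List α} (h : CC K a m0 n u v) :
    CC K a m0 (n + 1) u v := by
  obtain ⟨i, k, j, x, p, q, y, h1, h2, h3, h4, h5, h6, h7⟩ := h
  exact ⟨i, k + 1, j, x, p, q, y, by omega, by omega, h3, h4, hst k h2 p q h5, h6, h7⟩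

theorem CC_ch {K : Set (List α)} {a : α} {m0 n : ℕ} {u v : List α} (h : CC K a m0 n u v) :
    Ch K (u ++ (replicate n a ++ v)) := by
  obtain ⟨i, k, j, x, p, q, y, h1, h2, h3, h4, h5, h6, h7⟩ := h
  have he : u ++ (replicate n a ++ v) = x ++ ((p ++ (replicate k a ++ q)) ++ y) := by
    rw [h1, List.replicate_add, List.replicate_add]
    have : u ++ (replicate i a ++ replicate k a ++ replicate j a ++ v)
        = (u ++ replicate i a) ++ (replicate k a ++ (replicate j a ++ v)) := by
      simp only [List.append_assoc]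
    rw [this, h6, h7]
    simp only [List.append_assoc]
  rw [he]
  exact Ch_append h3 (Ch_append (Ch_one h5) h4)

/-- chains starting in the run -/
theorem run_tail {K : Set (List α)} {a : α} {m0 : ℕ} (L : List (List α)) :
    ∀ (m : ℕ) (v : List α), L.flatten = replicate m a ++ v → (∀ y ∈ L, y ∈ K) →
      CC K a m0 m [] v ∨ ∃ s y0, m = s + y0 ∧ s ∈ AddSubmonoid.closure (TT K a) ∧
        y0 ≤ m0 ∧ Ch K (replicate y0 a ++ v) := by
  induction L with
  | nil =>
    intro m v h _
    right
    have h1 : replicate m a ++ v = [] := h.symm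
    have h2 := List.append_eq_nil_iff.1 h1
    have hm : m = 0 := by
      have := congrArg List.length h2.1
      simpa using this
    subst hm
    refine ⟨0, 0, rfl, AddSubmonoid.zero_mem _, Nat.zero_le _, ?_⟩
    rw [h1]
    exact Ch_nil K
  | cons w L ih =>
    intro m v h hK
    have hw : w ∈ K := hK w (by simp)
    have hL : ∀ y ∈ L, y ∈ K := fun y hy => hK y (by simp [hy])
    rw [List.flatten_cons, List.append_eq_append_iff] at h
    rcases h with ⟨w', hw1, hw2⟩ | ⟨q, hq1, hq2⟩
    · -- w is a prefix of the run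
      obtain ⟨t, s, hts⟩ : ∃ t s, m = t + s ∧ w = replicate t a ∧ w' = replicate s a := by
        have h1 := List.append_eq_replicate_iff.1 hw1.symm
        exact ⟨w.length, w'.length, h1.1.symm, h1.2.1, h1.2.2⟩
      obtain ⟨hm, hwt, hws⟩ := hts
      rw [hws] at hw2
      have htT : t ∈ TT K a := by
        change replicate t a ∈ K
        rw [← hwt]
        exact hw
      by_cases ht : m0 ≤ t
      · left
        refine ⟨0, t, s, [], [], [], replicate s a ++ v, by omega, ht, Ch_nil K,
          ⟨L, hw2, hL⟩, ?_, by simp, by simp⟩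
        have htK : replicate t a ∈ K := htT
        simpa using htK
      · rcases ih s v hw2 hL with h1 | ⟨s1, y0, h1, h2, h3, h4⟩
        · left
          obtain ⟨i, k, j, x, p, q, y, g1, g2, g3, g4, g5, g6, g7⟩ := h1
          refine ⟨t + i, k, j, replicate t a ++ x, p, q, y, by omega, g2, ?_, g4, g5, ?_, g7⟩
          · exact Ch_append (Ch_one htT) g3
          · rw [List.replicate_add, List.append_assoc, ← g6]
            simp
        · right
          refine ⟨t + s1, y0, by omega, ?_, h3, h4⟩
          exact AddSubmonoid.add_mem _ (AddSubmonoid.subset_closure htT) h2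
    · -- w covers the rest of the run
      by_cases hm : m0 ≤ m
      · left
        refine ⟨0, m, 0, [], [], q, L.flatten, by omega, hm, Ch_nil K, ⟨L, rfl, hL⟩, ?_,
          by simp, ?_⟩
        · rw [List.nil_append, ← hq1]
          exact hw
        · simpa using hq2
      · right
        refine ⟨0, m, by omega, AddSubmonoid.zero_mem _, by omega, ?_⟩
        rw [hq2, ← List.append_assoc, ← hq1]
        exact Ch_append (Ch_one hw) ⟨L, rfl, hL⟩

/-- chains across the run -/
theorem run_cross {K : Set (List α)} {a : α} {m0 : ℕ} (hm0 : 0 < m0) (L : List (List α)) :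
    ∀ (n : ℕ) (u v : List α), m0 ≤ n → L.flatten = u ++ (replicate n a ++ v) →
      (∀ y ∈ L, y ∈ K) →
      CC K a m0 n u v ∨ ∃ x0 s y0, n = x0 + s + y0 ∧ s ∈ AddSubmonoid.closure (TT K a) ∧
        x0 ≤ m0 ∧ y0 ≤ m0 ∧ Ch K (u ++ replicate x0 a) ∧ Ch K (replicate y0 a ++ v) := by
  induction L with
  | nil =>
    intro n u v hn h _
    exfalso
    have h1 : u ++ (replicate n a ++ v) = [] := h.symm
    have h2 := congrArg List.length h1
    simp at h2
    omega
  | cons w L ih =>
    intro n u v hn h hK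
    have hw : w ∈ K := hK w (by simp)
    have hL : ∀ y ∈ L, y ∈ K := fun y hy => hK y (by simp [hy])
    rw [List.flatten_cons, List.append_eq_append_iff] at h
    rcases h with ⟨u', hu1, hu2⟩ | ⟨w', hw1, hw2⟩
    · -- w is a prefix of u
      rcases ih n u' v hn hu2 hL with h1 | ⟨x0, s, y0, h1, h2, h3, h4, h5, h6⟩
      · left
        obtain ⟨i, k, j, x, p, q, y, g1, g2, g3, g4, g5, g6, g7⟩ := h1
        refine ⟨i, k, j, w ++ x, p, q, y, g1, g2, Ch_append (Ch_one hw) g3, g4, g5, ?_, g7⟩
        rw [hu1, List.append_assoc, List.append_assoc, g6]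
      · right
        refine ⟨x0, s, y0, h1, h2, h3, h4, ?_, h6⟩
        rw [hu1, List.append_assoc]
        exact Ch_append (Ch_one hw) h5
    · -- w = u ++ w', w' ++ flatten L = run ++ v
      rw [eq_comm, List.append_eq_append_iff] at hw2
      rcases hw2 with ⟨w'', hw3, hw4⟩ | ⟨q, hq1, hq2⟩
      · -- w' is inside the run
        obtain ⟨t, s, hm, hwt, hws⟩ : ∃ t s, n = t + s ∧ w' = replicate t a ∧
            w'' = replicate s a := by
          have h1 := List.append_eq_replicate_iff.1 hw3.symm
          exact ⟨w'.length, w''.length, h1.1.symm, h1.2.1, h1.2.2⟩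
        rw [hws] at hw4
        rw [hwt] at hw1
        have hCw : Ch K (u ++ replicate t a) := by
          rw [← hw1]
          exact Ch_one hw
        by_cases ht : m0 ≤ t
        · left
          refine ⟨0, t, s, [], u, [], replicate s a ++ v, by omega, ht, Ch_nil K,
            ⟨L, hw4, hL⟩, ?_, by simp, by simp⟩
          rw [List.append_nil, ← hw1]
          exact hw
        · rcases run_tail (m0 := m0) L s v hw4 hL with h1 | ⟨s1, y0, h1, h2, h3, h4⟩
          · left
            obtain ⟨i, k, j, x, p, q, y, g1, g2, g3, g4, g5, g6, g7⟩ := h1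
            refine ⟨t + i, k, j, u ++ replicate t a ++ x, p, q, y, by omega, g2,
              Ch_append hCw g3, g4, g5, ?_, g7⟩
            rw [List.nil_append] at g6
            rw [List.replicate_add, List.append_assoc (u ++ replicate t a) x p, ← g6]
            simp only [List.append_assoc]
          · right
            exact ⟨t, s1, y0, by omega, h2, by omega, h3, hCw, h4⟩
      · -- w covers the run
        left
        refine ⟨0, n, 0, [], u, q, L.flatten, by omega, hn, Ch_nil K, ⟨L, rfl, hL⟩, ?_,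
          by simp, ?_⟩
        · rw [← hq1, ← hw1]
          exact hw
        · simpa using hq2

theorem CC_mono_le {K : Set (List α)} {a : α} {m0 : ℕ}
    (hst : ∀ m, m0 ≤ m → ∀ u v, u ++ (replicate m a ++ v) ∈ K →
      u ++ (replicate (m + 1) a ++ v) ∈ K) {m n : ℕ} (hmn : m ≤ n) {u v : List α}
    (h : CC K a m0 m u v) : CC K a m0 n u v := by
  induction n, hmn using Nat.le_induction with
  | base => exact h
  | succ n _ ih => exact CC_mono hst ih

/-- entry phases: `u a^x0 ∈ K*` with `x = -x0` modulo `d` -/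
def UU (K : Set (List α)) (a : α) (d : ℕ) (x : ZMod d) (u : List α) : Prop :=
  ∃ x0 : ℕ, x = -(x0 : ZMod d) ∧ Ch K (u ++ replicate x0 a)

/-- exit phases: `a^y0 v ∈ K*` with `y = y0` modulo `d` -/
def VV (K : Set (List α)) (a : α) (d : ℕ) (y : ZMod d) (v : List α) : Prop :=
  ∃ y0 : ℕ, y = (y0 : ZMod d) ∧ Ch K (replicate y0 a ++ v)

/-- **Runs.** `T ≠ ∅`, `d = gcd T`: for large `n` the word `u a^n v` is in `K*` iff some chain has a
word with a long overlap (independent of `n`) or the phases match modulo `d`. -/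
theorem run_main {K : Set (List α)} {a : α} {m0 : ℕ} (hm0 : 0 < m0)
    (hst : ∀ m, m0 ≤ m → ∀ u v, u ++ (replicate m a ++ v) ∈ K →
      u ++ (replicate (m + 1) a ++ v) ∈ K)
    (d : ℕ) (hd : d = Nat.setGcd (TT K a)) (hd0 : d ≠ 0) (u v : List α) :
    ∃ n1, ∀ n, n1 ≤ n → (Ch K (u ++ (replicate n a ++ v)) ↔
      (∃ m, CC K a m0 m u v) ∨ ∃ x : ZMod d, UU K a d x u ∧ VV K a d (x + n) v) := by
  classical
  have : NeZero d := ⟨hd0⟩
  obtain ⟨N, hN⟩ := Nat.exists_mem_closure_of_ge (TT K a)
  obtain ⟨M, hM⟩ : ∃ M, (∃ m, CC K a m0 m u v) → CC K a m0 M u v := by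
    by_cases h : ∃ m, CC K a m0 m u v
    · obtain ⟨m, hm⟩ := h
      exact ⟨m, fun _ => hm⟩
    · exact ⟨0, fun h' => absurd h' h⟩
  obtain ⟨fu, hfu⟩ : ∃ fu : ZMod d → ℕ, ∀ x, UU K a d x u →
      x = -(fu x : ZMod d) ∧ Ch K (u ++ replicate (fu x) a) := by
    choose f hf using fun x : ZMod d => show ∃ x0 : ℕ, UU K a d x u →
        x = -(x0 : ZMod d) ∧ Ch K (u ++ replicate x0 a) by
      by_cases h : UU K a d x u
      · obtain ⟨x0, hx0⟩ := h
        exact ⟨x0, fun _ => hx0⟩
      · exact ⟨0, fun h' => absurd h' h⟩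
    exact ⟨f, hf⟩
  obtain ⟨fv, hfv⟩ : ∃ fv : ZMod d → ℕ, ∀ y, VV K a d y v →
      y = (fv y : ZMod d) ∧ Ch K (replicate (fv y) a ++ v) := by
    choose f hf using fun y : ZMod d => show ∃ y0 : ℕ, VV K a d y v →
        y = (y0 : ZMod d) ∧ Ch K (replicate y0 a ++ v) by
      by_cases h : VV K a d y v
      · obtain ⟨y0, hy0⟩ := h
        exact ⟨y0, fun _ => hy0⟩
      · exact ⟨0, fun h' => absurd h' h⟩
    exact ⟨f, hf⟩
  refine ⟨m0 + M + N + (∑ x, fu x) + ∑ y, fv y, ?_⟩
  intro n hn
  constructor
  · rintro ⟨L, hL, hK⟩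
    rcases run_cross hm0 L n u v (by omega) hL hK with h | ⟨x0, s, y0, h1, h2, _, _, h5, h6⟩
    · exact Or.inl ⟨n, h⟩
    · right
      refine ⟨-(x0 : ZMod d), ⟨x0, rfl, h5⟩, ⟨y0, ?_, h6⟩⟩
      have hs : (s : ZMod d) = 0 := by
        rw [ZMod.natCast_eq_zero_iff, hd]
        exact Nat.setGcd_dvd_of_mem_closure h2
      rw [h1]
      push_cast
      rw [hs]
      ring
  · rintro (h | ⟨x, hx, hy⟩)
    · exact CC_ch (CC_mono_le hst (by omega) (hM h))
    · obtain ⟨hx1, hx2⟩ := hfu x hx
      obtain ⟨hy1, hy2⟩ := hfv _ hy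
      have hle1 : fu x ≤ ∑ x, fu x := Finset.single_le_sum (fun i _ => Nat.zero_le _) (Finset.mem_univ x)
      have hle2 : fv (x + n) ≤ ∑ y, fv y :=
        Finset.single_le_sum (fun i _ => Nat.zero_le _) (Finset.mem_univ (x + (n : ZMod d)))
      obtain ⟨s, hs⟩ : ∃ s, n = fu x + s + fv (x + n) := ⟨n - fu x - fv (x + n), by omega⟩
      have hdvd : d ∣ s := by
        rw [← ZMod.natCast_eq_zero_iff]
        have h1 : (n : ZMod d) = (fu x : ZMod d) + s + (fv (x + n) : ZMod d) := by
          conv_lhs => rw [hs]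
          push_cast
          rfl
        have h2 : x + (n : ZMod d) = (fv (x + n) : ZMod d) := hy1
        linear_combination -h1 + h2 - hx1
      have hsN : N ≤ s := by omega
      have hcl := Ch_closure (hN s hsN (hd ▸ hdvd))
      have h3 : u ++ (replicate n a ++ v)
          = (u ++ replicate (fu x) a) ++ (replicate s a ++ (replicate (fv (x + n)) a ++ v)) := by
        conv_lhs => rw [hs, List.replicate_add, List.replicate_add]
        simp only [List.append_assoc]
      rw [h3]
      exact Ch_append hx2 (Ch_append hcl hy2)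

/-- **Runs, no power of `a` in `K`**: for large `n` membership does not depend on `n`. -/
theorem run_none {K : Set (List α)} {a : α} {m0 : ℕ} (hm0 : 0 < m0)
    (hst : ∀ m, m0 ≤ m → ∀ u v, u ++ (replicate m a ++ v) ∈ K →
      u ++ (replicate (m + 1) a ++ v) ∈ K)
    (hT : ∀ t, 0 < t → replicate t a ∉ K) (u v : List α) :
    ∃ n1, ∀ n, n1 ≤ n → (Ch K (u ++ (replicate n a ++ v)) ↔ ∃ m, CC K a m0 m u v) := by
  classical
  obtain ⟨M, hM⟩ : ∃ M, (∃ m, CC K a m0 m u v) → CC K a m0 M u v := by
    by_cases h : ∃ m, CC K a m0 m u v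
    · obtain ⟨m, hm⟩ := h
      exact ⟨m, fun _ => hm⟩
    · exact ⟨0, fun h' => absurd h' h⟩
  refine ⟨2 * m0 + M + 1, ?_⟩
  intro n hn
  constructor
  · rintro ⟨L, hL, hK⟩
    rcases run_cross hm0 L n u v (by omega) hL hK with h | ⟨x0, s, y0, h1, h2, h3, h4, _, _⟩
    · exact ⟨n, h⟩
    · exfalso
      have hs : s = 0 := by
        have h0 : Nat.setGcd (TT K a) = 0 := by
          rw [Nat.setGcd_eq_zero_iff]
          intro t ht
          by_contra hne
          exact hT t (Nat.pos_of_ne_zero hne) ht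
        have h5 := Nat.setGcd_dvd_of_mem_closure h2
        rw [h0] at h5
        exact Nat.eq_zero_of_zero_dvd h5
      omega
  · intro h
    exact CC_ch (CC_mono_le hst (by omega) (hM h))

end Vale.Agent.P329L
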