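import Vale.Agent.P329L.WDefs

/-! # P329 lower bound: the doubling word (modules RB1, RB2)

RB1 (`exists_RB`): let `N` be the quotient of the words by the syntactic congruence of `K`
(`u ~ v : ∀ x y, x ++ u ++ y ∈ K ↔ x ++ v ++ y ∈ K`): finite by `FinIdx`, aperiodic by `Ap`.  Choose `s` such that the set
`{[x ++ s ++ y]}` of classes is minimal.  For any `m`: `s ++ m ++ s` generates the same set, so `s ~ x s m s y`, hence
`s ~ x^n s (m s y)^n`; `x^n ~ x^(n+1)` gives `x s ~ s`, so `s ~ s m s y`, `s ~ (s m)^n s y^n`, `y^n ~ y^(n+1)` gives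
`s y ~ s`, so `s ~ s m s`.  (It is convenient to prove the monoid lemma for an abstract finite monoid `N` with
`∀ x, ∃ n, x ^ (n+1) = x ^ n` : there is `e` with `∀ m, e * m * e = e`.)
RB2 (`exists_common`): `RB` is inherited by words containing `r`; concatenate the words of all `K i`, add
the letters `b`, `c`, and take the power `Nat.card G`. -/

set_option autoImplicit false

namespace Vale.Agent.P329L

open Computability

theorem monoid_band {N : Type} [Monoid N] [Finite N] (hN : ∀ x : N, ∃ n : ℕ, x ^ (n + 1) = x ^ n) :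
    ∃ e : N, ∀ m : N, e * m * e = e := by
  obtain ⟨s, hs⟩ := Finite.exists_min (fun s : N => {z : N | ∃ x y, z = x * s * y}.ncard)
  refine ⟨s, fun m => ?_⟩
  have hsub : {z : N | ∃ x y, z = x * (s * m * s) * y} ⊆ {z : N | ∃ x y, z = x * s * y} := by
    rintro z ⟨x, y, rfl⟩
    exact ⟨x, m * s * y, by simp only [mul_assoc]⟩
  have heq := Set.eq_of_subset_of_ncard_le hsub (hs (s * m * s)) (Set.toFinite _)
  have hmem : s ∈ {z : N | ∃ x y, z = x * s * y} := ⟨1, 1, by rw [one_mul, mul_one]⟩
  rw [← heq] at hmem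
  obtain ⟨x, y, hxy⟩ := hmem
  have h1 : ∀ n : ℕ, s = x ^ n * s * (m * s * y) ^ n := by
    intro n
    induction n with
    | zero => rw [pow_zero, pow_zero, one_mul, mul_one]
    | succ n ih =>
      calc s = x ^ n * s * (m * s * y) ^ n := ih
        _ = x ^ n * (x * (s * m * s) * y) * (m * s * y) ^ n := by rw [← hxy]
        _ = x ^ (n + 1) * s * (m * s * y) ^ (n + 1) := by
          rw [pow_succ x, pow_succ' (m * s * y)]
          simp only [mul_assoc]
  have h2 : x * s = s := by
    obtain ⟨n, hn⟩ := hN x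
    calc x * s = x * (x ^ n * s * (m * s * y) ^ n) := by rw [← h1 n]
      _ = x ^ (n + 1) * s * (m * s * y) ^ n := by rw [pow_succ']; simp only [mul_assoc]
      _ = s := by rw [hn, ← h1 n]
  have h3 : s = s * m * s * y := by
    calc s = x * (s * m * s) * y := hxy
      _ = (x * s) * m * s * y := by simp only [mul_assoc]
      _ = s * m * s * y := by rw [h2]
  have h4 : ∀ n : ℕ, s = (s * m) ^ n * s * y ^ n := by
    intro n
    induction n with
    | zero => rw [pow_zero, pow_zero, one_mul, mul_one]
    | succ n ih =>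
      calc s = (s * m) ^ n * s * y ^ n := ih
        _ = (s * m) ^ n * (s * m * s * y) * y ^ n := by rw [← h3]
        _ = (s * m) ^ (n + 1) * s * y ^ (n + 1) := by
          rw [pow_succ (s * m), pow_succ' y]
          simp only [mul_assoc]
  have h5 : s * y = s := by
    obtain ⟨n, hn⟩ := hN y
    calc s * y = ((s * m) ^ n * s * y ^ n) * y := by rw [← h4 n]
      _ = (s * m) ^ n * s * y ^ (n + 1) := by rw [pow_succ]; simp only [mul_assoc]
      _ = s := by rw [hn, ← h4 n]
  calc s * m * s = s * m * (s * y) := by rw [h5]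
    _ = s := by rw [← mul_assoc, ← h3]

/-- the syntactic congruence -/
def RB1con {α : Type} (K : Language α) : Con (FreeMonoid α) where
  r u v := ∀ x y : List α, x ++ FreeMonoid.toList u ++ y ∈ K ↔ x ++ FreeMonoid.toList v ++ y ∈ K
  iseqv :=
    { refl := fun _ _ _ => Iff.rfl
      symm := fun h x y => (h x y).symm
      trans := fun h h' x y => (h x y).trans (h' x y) }
  mul' := by
    intro w x y z h h' a b
    rw [FreeMonoid.toList_mul, FreeMonoid.toList_mul]
    have e1 := h a (FreeMonoid.toList y ++ b)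
    have e2 := h' (a ++ FreeMonoid.toList x) b
    simp only [List.append_assoc] at e1 e2 ⊢
    exact e1.trans e2

theorem RB1_pw {α : Type} (K : Language α) (w : List α) (n : ℕ) :
    ((FreeMonoid.ofList w : (RB1con K).Quotient) ^ n) =
      (FreeMonoid.ofList (pw w n) : (RB1con K).Quotient) := by
  induction n with
  | zero => rw [pow_zero]; rfl
  | succ n ih => rw [pow_succ', ih, pw_succ]; rfl

theorem exists_RB {α : Type} {K : Language α} (hAp : ∀ w, Ap K w) (hF : FinIdx K) :
    ∃ r, RB K r := by
  obtain ⟨ι, hι, φ, hφ⟩ := hF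
  have hfin : Finite (RB1con K).Quotient := by
    classical
    let f : Set.range φ → (RB1con K).Quotient := fun c =>
      (FreeMonoid.ofList (Classical.choose c.2) : (RB1con K).Quotient)
    refine Finite.of_surjective f ?_
    intro q
    obtain ⟨u, rfl⟩ := Quotient.exists_rep q
    refine ⟨⟨φ (FreeMonoid.toList u), ⟨_, rfl⟩⟩, ?_⟩
    apply Quotient.sound
    intro x y
    exact hφ _ _ (Classical.choose_spec (⟨FreeMonoid.toList u, rfl⟩ :
      ∃ z, φ z = φ (FreeMonoid.toList u))) x y
  have hN : ∀ x : (RB1con K).Quotient, ∃ n : ℕ, x ^ (n + 1) = x ^ n := by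
    intro q
    obtain ⟨u, rfl⟩ := Quotient.exists_rep q
    obtain ⟨n0, hn0⟩ := hAp (FreeMonoid.toList u)
    refine ⟨n0, ?_⟩
    have e1 := RB1_pw K (FreeMonoid.toList u) (n0 + 1)
    have e2 := RB1_pw K (FreeMonoid.toList u) n0
    refine e1.trans (Eq.trans ?_ e2.symm)
    apply Quotient.sound
    intro x y
    exact (hn0 n0 le_rfl x y).symm
  obtain ⟨e, he⟩ := monoid_band hN
  obtain ⟨r, rfl⟩ := Quotient.exists_rep e
  refine ⟨FreeMonoid.toList r, ?_⟩
  intro x y t
  have h1 := he (FreeMonoid.ofList t : (RB1con K).Quotient)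
  have h2 : (RB1con K) (r * FreeMonoid.ofList t * r) r := Quotient.exact h1
  have h3 := h2 x y
  rw [FreeMonoid.toList_mul, FreeMonoid.toList_mul, FreeMonoid.toList_ofList] at h3
  simp only [List.append_assoc] at h3 ⊢
  exact h3.symm

theorem RB_super {α : Type} {K : Language α} {r r' : List α} (h : RB K r) (hr : r <:+: r') :
    RB K r' := by
  obtain ⟨u, v, rfl⟩ := hr
  intro x y t
  have h1 := h (x ++ u) (v ++ y) (v ++ t ++ u)
  simp only [List.append_assoc] at h1 ⊢
  exact h1

theorem RB2_pw {α G : Type} [Group G] (g : List α → G) (hnil : g [] = 1)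
    (hg : ∀ u v, g (u ++ v) = g u * g v) (w : List α) (n : ℕ) : g (pw w n) = g w ^ n := by
  induction n with
  | zero => rw [pw_zero, hnil, pow_zero]
  | succ n ih => rw [pw_succ, hg, ih, pow_succ']

theorem exists_common {α G I : Type} [Finite I] [Group G] [Finite G] (K : I → Language α)
    (hK : ∀ i, ∃ r, RB (K i) r) (g : List α → G) (hnil : g [] = 1)
    (hg : ∀ u v, g (u ++ v) = g u * g v) (b c : α) :
    ∃ r, (∀ i, RB (K i) r) ∧ g r = 1 ∧ b ∈ r ∧ c ∈ r := by
  classical
  choose r hr using hK
  have : Fintype I := Fintype.ofFinite I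
  have hkey : ∀ l : List I, ∃ w : List α, ∀ i ∈ l, r i <:+: w := by
    intro l
    induction l with
    | nil => exact ⟨[], fun i hi => absurd hi (by simp)⟩
    | cons a l ih =>
      obtain ⟨w, hw⟩ := ih
      refine ⟨r a ++ w, fun i hi => ?_⟩
      rcases List.mem_cons.mp hi with h | h
      · rw [h]
        exact (List.prefix_append _ _).isInfix
      · exact (hw i h).trans (List.suffix_append _ _).isInfix
  obtain ⟨w, hw⟩ := hkey (Finset.univ : Finset I).toList
  set w' : List α := w ++ [b, c] with hw'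
  obtain ⟨n, hn⟩ : ∃ n, Nat.card G = n + 1 :=
    ⟨Nat.card G - 1, (Nat.sub_add_cancel Nat.card_pos).symm⟩
  have hpre : w' <:+: pw w' (Nat.card G) := by
    rw [hn, pw_succ]
    exact (List.prefix_append _ _).isInfix
  refine ⟨pw w' (Nat.card G), fun i => ?_, ?_, ?_, ?_⟩
  · refine RB_super (hr i) (List.IsInfix.trans ?_ hpre)
    refine (hw i (by simp)).trans ?_
    exact (List.prefix_append _ _).isInfix
  · rw [RB2_pw g hnil hg, pow_card_eq_one']
  · exact hpre.subset (by simp [hw'])
  · exact hpre.subset (by simp [hw'])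

end Vale.Agent.P329L
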