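import Vale.Agent.P329L.WDefs

/-! # P329 lower bound: finite index (modules FI1, FI2, FI3)

FI1 (`FinIdx_mul`): `φ u = (φ1 u, φ2 u, {(φ1 u1, φ2 u2) : u = u1 ++ u2})`, a cut of `x ++ u ++ y` is in `x`, in `u` or
in `y`.
FI2 (`FinIdx_star`): `φ u = (φK u, {(φK u1, φK u2, u1 = [], u2 = []) : u = u1 ++ u' ++ u2, u' ∈ K∗})`.  A factorization
of `x ++ u ++ y ∈ K∗` either has a word of `K` covering `u` (then replace `u` by `v`), or a first and a last cut in
`u`.
FI3: the rest (for the letter: `φ u` = `u = []`, `u = [a]`, other). -/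

set_option autoImplicit false

namespace Vale.Agent.P329L

open Computability

theorem FI1_one {α ι1 ι2 : Type} {X Y : Language α} {φ1 : List α → ι1} {φ2 : List α → ι2}
    (h1 : ∀ u v, φ1 u = φ1 v → ∀ x y : List α, x ++ u ++ y ∈ X ↔ x ++ v ++ y ∈ X)
    (h2 : ∀ u v, φ2 u = φ2 v → ∀ x y : List α, x ++ u ++ y ∈ Y ↔ x ++ v ++ y ∈ Y)
    {u v : List α} (e1 : φ1 u = φ1 v) (e2 : φ2 u = φ2 v)
    (e3 : ∀ u1 u2, u = u1 ++ u2 → ∃ v1 v2, v = v1 ++ v2 ∧ φ1 u1 = φ1 v1 ∧ φ2 u2 = φ2 v2)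
    {x y : List α} (h : x ++ u ++ y ∈ X * Y) : x ++ v ++ y ∈ X * Y := by
  rw [Language.mem_mul] at h ⊢
  obtain ⟨a, ha, b, hb, hab⟩ := h
  rw [List.append_assoc, List.append_eq_append_iff] at hab
  rcases hab with ⟨c, hc1, hc2⟩ | ⟨c, hc1, hc2⟩
  · -- x = a ++ c, b = c ++ (u ++ y)
    subst hc1
    subst hc2
    refine ⟨a, ha, c ++ v ++ y, ?_, by simp⟩
    rw [← h2 u v e2 c y]
    simpa using hb
  · -- a = x ++ c, u ++ y = c ++ b
    subst hc1
    rw [List.append_eq_append_iff] at hc2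
    rcases hc2 with ⟨e, he1, he2⟩ | ⟨e, he1, he2⟩
    · -- c = u ++ e, y = e ++ b
      subst he1
      subst he2
      refine ⟨x ++ v ++ e, ?_, b, hb, by simp⟩
      rw [← h1 u v e1 x e]
      simpa using ha
    · -- u = c ++ e, b = e ++ y
      subst he2
      obtain ⟨v1, v2, hv, f1, f2⟩ := e3 c e he1
      subst hv
      refine ⟨x ++ v1, ?_, v2 ++ y, ?_, by simp⟩
      · have := (h1 c v1 f1 x []).1 (by simpa using ha)
        simpa using this
      · have := (h2 e v2 f2 [] y).1 (by simpa using hb)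
        simpa using this

theorem FinIdx_mul {α : Type} {X Y : Language α} (hX : FinIdx X) (hY : FinIdx Y) :
    FinIdx (X * Y) := by
  obtain ⟨ι1, f1, φ1, h1⟩ := hX
  obtain ⟨ι2, f2, φ2, h2⟩ := hY
  refine ⟨ι1 × ι2 × Set (ι1 × ι2), inferInstance,
    fun u => (φ1 u, φ2 u, {p | ∃ u1 u2, u = u1 ++ u2 ∧ p = (φ1 u1, φ2 u2)}), fun u v huv x y => ?_⟩
  rw [Prod.mk.injEq, Prod.mk.injEq] at huv
  obtain ⟨e1, e2, e3⟩ := huv
  constructor
  · refine FI1_one h1 h2 e1 e2 fun u1 u2 hu => ?_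
    have hmem : (φ1 u1, φ2 u2) ∈ {p | ∃ u1 u2, u = u1 ++ u2 ∧ p = (φ1 u1, φ2 u2)} :=
      ⟨u1, u2, hu, rfl⟩
    rw [e3] at hmem
    obtain ⟨v1, v2, hv, hp⟩ := hmem
    rw [Prod.mk.injEq] at hp
    exact ⟨v1, v2, hv, hp.1, hp.2⟩
  · refine FI1_one h1 h2 e1.symm e2.symm fun u1 u2 hu => ?_
    have hmem : (φ1 u1, φ2 u2) ∈ {p | ∃ u1 u2, v = u1 ++ u2 ∧ p = (φ1 u1, φ2 u2)} :=
      ⟨u1, u2, hu, rfl⟩
    rw [← e3] at hmem
    obtain ⟨v1, v2, hv, hp⟩ := hmem
    rw [Prod.mk.injEq] at hp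
    exact ⟨v1, v2, hv, hp.1, hp.2⟩

theorem FI2_nil {α : Type} (K : Language α) : ([] : List α) ∈ K∗ :=
  Language.mem_kstar.mpr ⟨[], rfl, by simp⟩

theorem FI2_of {α : Type} {K : Language α} {a : List α} (h : a ∈ K) : a ∈ K∗ :=
  Language.mem_kstar.mpr ⟨[a], by simp, by simpa using h⟩

theorem FI2_app {α : Type} {K : Language α} {a b : List α} (ha : a ∈ K∗) (hb : b ∈ K∗) :
    a ++ b ∈ K∗ := by
  obtain ⟨L1, h1, h1'⟩ := Language.mem_kstar.mp ha
  obtain ⟨L2, h2, h2'⟩ := Language.mem_kstar.mp hb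
  refine Language.mem_kstar.mpr ⟨L1 ++ L2, by rw [h1, h2, List.flatten_append], fun y hy => ?_⟩
  rcases List.mem_append.mp hy with h | h
  · exact h1' y h
  · exact h2' y h

theorem FI2_or {α : Type} {K : Language α} {a b : List α} (h : a ++ b ∈ K ∨ (a = [] ∧ b = [])) :
    a ++ b ∈ K∗ := by
  rcases h with h | ⟨h1, h2⟩
  · exact FI2_of h
  · rw [h1, h2]; exact FI2_nil K

/-- splitting a word of the star at a given place -/
theorem FI2_split {α : Type} {K : Language α} (p q : List α) (h : p ++ q ∈ K∗) :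
    ∃ p1 p2 q1 q2 : List α, p = p1 ++ p2 ∧ q = q1 ++ q2 ∧ p1 ∈ K∗ ∧ q2 ∈ K∗ ∧
      (p2 ++ q1 ∈ K ∨ (p2 = [] ∧ q1 = [])) := by
  obtain ⟨L, hL, hK⟩ := Language.mem_kstar.mp h
  clear h
  induction L generalizing p with
  | nil =>
    have : p ++ q = [] := by simpa using hL
    obtain ⟨hp, hq⟩ := List.append_eq_nil_iff.mp this
    exact ⟨[], [], [], [], by simp [hp], by simp [hq], FI2_nil K, FI2_nil K, Or.inr ⟨rfl, rfl⟩⟩
  | cons w L ih =>
    rw [List.flatten_cons] at hL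
    have hLs : L.flatten ∈ K∗ :=
      Language.mem_kstar.mpr ⟨L, rfl, fun y hy => hK y (List.mem_cons_of_mem _ hy)⟩
    have hw : w ∈ K := hK w List.mem_cons_self
    rcases List.append_eq_append_iff.mp hL with ⟨a, h1, h2⟩ | ⟨c, h1, h2⟩
    · exact ⟨[], p, a, L.flatten, by simp, h2, FI2_nil K, hLs, Or.inl (by rw [← h1]; exact hw)⟩
    · obtain ⟨p1, p2, q1, q2, e1, e2, h3, h4, h5⟩ :=
        ih c h2.symm (fun y hy => hK y (List.mem_cons_of_mem _ hy))
      exact ⟨w ++ p1, p2, q1, q2, by rw [h1, e1, List.append_assoc], e2,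
        FI2_app (FI2_of hw) h3, h4, h5⟩

theorem FinIdx_star {α : Type} {K : Language α} (hK : FinIdx K) : FinIdx (K∗) := by
  obtain ⟨ι, hι, φ, hφ⟩ := hK
  let ψ : List α → ι × Prop := fun u => (φ u, u = [])
  let Q : List α → Set ((ι × Prop) × (ι × Prop)) := fun u =>
    {q | ∃ u1 u' u2 : List α, u = u1 ++ u' ++ u2 ∧ u' ∈ K∗ ∧ q = (ψ u1, ψ u2)}
  refine ⟨ι × Set ((ι × Prop) × (ι × Prop)), inferInstance, fun u => (φ u, Q u), ?_⟩
  have key : ∀ u v : List α, (φ u, Q u) = (φ v, Q v) →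
      ∀ x y : List α, x ++ u ++ y ∈ K∗ → x ++ v ++ y ∈ K∗ := by
    intro u v huv x y h
    have h1 : φ u = φ v := congrArg Prod.fst huv
    have h2 : Q u = Q v := congrArg Prod.snd huv
    -- the case of a cut in `u`
    have main : ∀ x1 x2 q1 b1 b2 y1 y2 : List α, x = x1 ++ x2 → u = q1 ++ b1 ++ b2 →
        y = y1 ++ y2 → x1 ∈ K∗ → b1 ∈ K∗ → y2 ∈ K∗ → (x2 ++ q1 ∈ K ∨ (x2 = [] ∧ q1 = [])) →
        (b2 ++ y1 ∈ K ∨ (b2 = [] ∧ y1 = [])) → x ++ v ++ y ∈ K∗ := by
      intro x1 x2 q1 b1 b2 y1 y2 ex eu ey hx1 hb1 hy2 hq hb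
      have hm : (ψ q1, ψ b2) ∈ Q v := by
        rw [← h2]; exact ⟨q1, b1, b2, eu, hb1, rfl⟩
      obtain ⟨v1, v', v2, ev, hv', he⟩ := hm
      have e1 : φ q1 = φ v1 := congrArg (fun q => q.1.1) he
      have e2 : (q1 = []) = (v1 = []) := congrArg (fun q => q.1.2) he
      have e3 : φ b2 = φ v2 := congrArg (fun q => q.2.1) he
      have e4 : (b2 = []) = (v2 = []) := congrArg (fun q => q.2.2) he
      have hq' : x2 ++ v1 ∈ K ∨ (x2 = [] ∧ v1 = []) := by
        rcases hq with hq | ⟨hq1, hq2⟩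
        · left
          have := (hφ q1 v1 e1 x2 []).mp (by simpa using hq)
          simpa using this
        · exact Or.inr ⟨hq1, by rw [← e2]; exact hq2⟩
      have hb' : v2 ++ y1 ∈ K ∨ (v2 = [] ∧ y1 = []) := by
        rcases hb with hb | ⟨hb1', hb2⟩
        · left
          have := (hφ b2 v2 e3 [] y1).mp (by simpa using hb)
          simpa using this
        · exact Or.inr ⟨by rw [← e4]; exact hb1', hb2⟩
      have : x ++ v ++ y = x1 ++ (x2 ++ v1) ++ v' ++ (v2 ++ y1) ++ y2 := by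
        rw [ex, ev, ey]; simp [List.append_assoc]
      rw [this]
      exact FI2_app (FI2_app (FI2_app (FI2_app hx1 (FI2_or hq')) hv') (FI2_or hb')) hy2
    rw [List.append_assoc] at h
    obtain ⟨x1, x2, q1, q2, ex, eq, hx1, hq2, hq⟩ := FI2_split x (u ++ y) h
    rcases List.append_eq_append_iff.mp eq with ⟨a, h3, h4⟩ | ⟨c, h3, h4⟩
    · -- q1 = u ++ a, y = a ++ q2
      rcases hq with hq | ⟨hq1, hq2'⟩
      · have h5 : x2 ++ u ++ a ∈ K := by rw [h3] at hq; simpa [List.append_assoc] using hq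
        have h6 := (hφ u v h1 x2 a).mp h5
        have : x ++ v ++ y = x1 ++ (x2 ++ v ++ a) ++ q2 := by
          rw [ex, h4]; simp [List.append_assoc]
        rw [this]
        exact FI2_app (FI2_app hx1 (FI2_of h6)) hq2
      · rw [hq2'] at h3
        obtain ⟨hu, ha⟩ := List.append_eq_nil_iff.mp h3.symm
        refine main x1 x2 [] [] [] [] q2 ex (by simp [hu]) (by rw [h4, ha]) hx1 (FI2_nil K) hq2
          (Or.inr ⟨hq1, rfl⟩) (Or.inr ⟨rfl, rfl⟩)
    · -- u = q1 ++ c, q2 = c ++ y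
      rw [h4] at hq2
      obtain ⟨b1, b2, y1, y2, eb, ey, hb1, hy2, hb⟩ := FI2_split c y hq2
      exact main x1 x2 q1 b1 b2 y1 y2 ex (by rw [h3, eb, List.append_assoc]) ey hx1 hb1 hy2 hq hb
  intro u v huv x y
  exact ⟨key u v huv x y, key v u huv.symm x y⟩

theorem FinIdx_compl {α : Type} {X : Language α} (hX : FinIdx X) : FinIdx Xᶜ := by
  obtain ⟨ι, hι, φ, hφ⟩ := hX
  refine ⟨ι, hι, φ, fun u v h x y => ?_⟩
  show ¬ (x ++ u ++ y ∈ X) ↔ ¬ (x ++ v ++ y ∈ X)
  exact not_congr (hφ u v h x y)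

theorem FinIdx_add {α : Type} {X Y : Language α} (hX : FinIdx X) (hY : FinIdx Y) :
    FinIdx (X + Y) := by
  obtain ⟨ι, hι, φ, hφ⟩ := hX
  obtain ⟨κ, hκ, ψ, hψ⟩ := hY
  refine ⟨ι × κ, inferInstance, fun u => (φ u, ψ u), fun u v h x y => ?_⟩
  rw [Language.mem_add, Language.mem_add]
  exact or_congr (hφ u v (congrArg Prod.fst h) x y) (hψ u v (congrArg Prod.snd h) x y)

theorem FinIdx_zero {α : Type} : FinIdx (0 : Language α) := by
  refine ⟨Unit, inferInstance, fun _ => (), fun u v _ x y => ?_⟩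
  exact iff_of_false (Language.notMem_zero _) (Language.notMem_zero _)

theorem FinIdx_one {α : Type} : FinIdx (1 : Language α) := by
  refine ⟨Prop, inferInstance, fun u => u = [], fun u v h x y => ?_⟩
  have h' : u = [] ↔ v = [] := iff_of_eq h
  rw [Language.mem_one, Language.mem_one, List.append_eq_nil_iff, List.append_eq_nil_iff,
    List.append_eq_nil_iff, List.append_eq_nil_iff, h']

private theorem FI3_infix {α : Type} {a : α} {x u y : List α} (h : x ++ u ++ y = [a]) :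
    u = [] ∨ u = [a] := by
  have hl := congrArg List.length h
  simp only [List.length_append, List.length_cons, List.length_nil] at hl
  match u, hl, h with
  | [], _, _ => exact Or.inl rfl
  | [b], hl, h =>
    have hx : x = [] := List.length_eq_zero_iff.1 (by simp at hl; omega)
    have hy : y = [] := List.length_eq_zero_iff.1 (by simp at hl; omega)
    subst hx
    subst hy
    right
    simpa using h
  | b :: c :: t, hl, _ =>
    simp only [List.length_cons] at hl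
    omega

theorem FinIdx_letter {α : Type} (a : α) : FinIdx ({[a]} : Language α) := by
  refine ⟨Prop × Prop, inferInstance, fun u => (u = [], u = [a]), fun u v h x y => ?_⟩
  have h1 : u = [] ↔ v = [] := iff_of_eq (congrArg Prod.fst h)
  have h2 : u = [a] ↔ v = [a] := iff_of_eq (congrArg Prod.snd h)
  show x ++ u ++ y = [a] ↔ x ++ v ++ y = [a]
  by_cases hu : u = []
  · rw [hu, h1.1 hu]
  · by_cases hu' : u = [a]
    · rw [hu', h2.1 hu']
    · refine iff_of_false (fun h => ?_) (fun h => ?_)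
      · rcases FI3_infix h with h3 | h3
        · exact hu h3
        · exact hu' h3
      · rcases FI3_infix h with h3 | h3
        · exact hu (h1.2 h3)
        · exact hu' (h2.2 h3)

/-- periodicity of powers -/
theorem FinIdx_period {α : Type} {X : Language α} (hX : FinIdx X) (z : List α) :
    ∃ n1 p, 0 < p ∧ ∀ n ≥ n1, ∀ u v : List α, u ++ pw z n ++ v ∈ X ↔ u ++ pw z (n + p) ++ v ∈ X := by
  obtain ⟨ι, hι, φ, hφ⟩ := hX
  obtain ⟨m1, m2, hne, heq⟩ := Finite.exists_ne_map_eq_of_infinite (fun n : ℕ => φ (pw z n))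
  have key : ∀ n1 n2 : ℕ, n1 < n2 → φ (pw z n1) = φ (pw z n2) →
      ∃ n1 p, 0 < p ∧ ∀ n ≥ n1, ∀ u v : List α,
        u ++ pw z n ++ v ∈ X ↔ u ++ pw z (n + p) ++ v ∈ X := by
    intro n1 n2 hlt he
    refine ⟨n1, n2 - n1, by omega, fun n hn u v => ?_⟩
    have e1 : pw z n = pw z n1 ++ pw z (n - n1) := by
      rw [← pw_add]
      congr 1
      omega
    have e2 : pw z (n + (n2 - n1)) = pw z n2 ++ pw z (n - n1) := by
      rw [← pw_add]
      congr 1
      omega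
    have h := hφ _ _ he u (pw z (n - n1) ++ v)
    rw [e1, e2]
    simpa only [List.append_assoc] using h
  rcases lt_or_gt_of_ne hne with h | h
  · exact key m1 m2 h heq
  · exact key m2 m1 h heq.symm

end Vale.Agent.P329L
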