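import Vale.Agent.P329L.WCut
import Vale.Agent.P329L.WFin

/-! # P329 lower bound: one more turn (modules TURN1, TURN2, TURN3)

Let `z = r ++ w` and `v m = pw z m ++ r` (a periodic word with period `z.length ≥ r.length`).
`Cov K r x v y`: some factorization of `x ++ v ++ y` has a word of `K` containing an occurrence of `r` inside `v`.
TURN1 (`per_insert`): `v m = P ++ r ++ Q` implies `v (m+1) = P ++ r ++ M ++ r ++ Q` for some `M`, because `v m` is both a prefix and a
suffix of `v (m+1)` (`v (m+1) = z ++ v m = v m ++ (w ++ r)`) and the lengths fit.  Hence (`Cov_up`) with `RB K r`: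
`Cov` for `v m` implies `Cov` for `v (m+1)`, and `Cov` implies `x ++ v ++ y ∈ K∗`.
TURN2 (`turn_dich`): if `x ++ v m ++ y ∈ K∗`, `1 ≤ m`, then `Cov` or there are slots `s s'` with `x ++ r.take s ∈ K∗`,
`r.drop s' ++ y ∈ K∗` and `r.drop s ++ (w ++ pw z (m-1)) ++ r.take s' ∈ (Kr K r)∗` (`star_split3` at the first `r`, at the
last `r`; then the middle word is in `K∗`: all its factors avoid `r` or one of them contains `r`: `Cov`).
TURN3 (`turn`): `Hm K r w` idempotent and `Hm_mul` give that `Hm K r (w ++ pw z k)` does not depend on `k`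
(`w ++ pw z (k+1) = w ++ r ++ (w ++ pw z k)`).  Up: `x ++ v m ++ y ∈ K∗ → x ++ v (m+1) ++ y ∈ K∗`.  Down: use the period of
`FinIdx_period` for `z`: in the case `Cov` go up to `m + p` and come back. Finally `pw z (m+1) ++ y = v m ++ (w ++ y)`. -/

set_option autoImplicit false

namespace Vale.Agent.P329L

open Computability

/-- some factorization of `x ++ v ++ y` has a word of `K` containing an occurrence of `r` inside `v` -/
def Cov {α : Type} (K : Language α) (r x v y : List α) : Prop :=
  ∃ P Q x1 x2 y1 y2, v = P ++ r ++ Q ∧ x ++ P = x1 ++ x2 ∧ Q ++ y = y1 ++ y2 ∧ x1 ∈ K∗ ∧ y2 ∈ K∗ ∧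
    x2 ++ r ++ y1 ∈ K

theorem TURN_single {α : Type} {K : Language α} {x : List α} (h : x ∈ K) : x ∈ K∗ := by
  rw [Language.mem_kstar]
  exact ⟨[x], by simp, by simpa using h⟩

theorem Cov_mem {α : Type} {K : Language α} {r x v y : List α} (h : Cov K r x v y) :
    x ++ v ++ y ∈ K∗ := by
  obtain ⟨P, Q, x1, x2, y1, y2, h1, h2, h3, h4, h5, h6⟩ := h
  have e : x ++ v ++ y = x1 ++ (x2 ++ r ++ y1) ++ y2 := by
    calc x ++ v ++ y = (x ++ P) ++ r ++ (Q ++ y) := by rw [h1]; simp only [List.append_assoc]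
      _ = _ := by rw [h2, h3]; simp only [List.append_assoc]
  rw [e]
  exact star_append (star_append h4 (TURN_single h6)) h5

theorem per_insert {α : Type} {r w P Q : List α} {m : ℕ} (h : pw (r ++ w) m ++ r = P ++ r ++ Q) :
    ∃ M, pw (r ++ w) (m + 1) ++ r = P ++ r ++ M ++ r ++ Q := by
  have e1 : pw (r ++ w) (m + 1) ++ r = (P ++ r) ++ (Q ++ w ++ r) := by
    rw [pw_succ']
    calc pw (r ++ w) m ++ (r ++ w) ++ r = (pw (r ++ w) m ++ r) ++ w ++ r := by
          simp only [List.append_assoc]
      _ = _ := by rw [h]; simp only [List.append_assoc]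
  have e2 : pw (r ++ w) (m + 1) ++ r = (r ++ w ++ P) ++ (r ++ Q) := by
    rw [pw_succ]
    calc r ++ w ++ pw (r ++ w) m ++ r = r ++ w ++ (pw (r ++ w) m ++ r) := by
          simp only [List.append_assoc]
      _ = _ := by rw [h]; simp only [List.append_assoc]
  have e3 := e1.symm.trans e2
  rcases List.append_eq_append_iff.1 e3 with ⟨a, h1, h2⟩ | ⟨c, h1, h2⟩
  · refine ⟨a, ?_⟩
    rw [e2, h1]
    simp only [List.append_assoc]
  · have hl := congrArg List.length h1
    simp only [List.length_append] at hl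
    have hc : c = [] := List.length_eq_zero_iff.1 (by omega)
    refine ⟨[], ?_⟩
    rw [e2]
    rw [hc, List.append_nil] at h1
    rw [← h1]
    simp only [List.append_assoc, List.nil_append]

theorem Cov_up {α : Type} {K : Language α} {r w x y : List α} {m : ℕ} (hr : RB K r)
    (h : Cov K r x (pw (r ++ w) m ++ r) y) : Cov K r x (pw (r ++ w) (m + 1) ++ r) y := by
  obtain ⟨P, Q, x1, x2, y1, y2, h1, h2, h3, h4, h5, h6⟩ := h
  obtain ⟨M, hM⟩ := per_insert h1
  refine ⟨P, M ++ r ++ Q, x1, x2, M ++ r ++ y1, y2, ?_, h2, ?_, h4, h5, ?_⟩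
  · rw [hM]
    simp only [List.append_assoc]
  · calc M ++ r ++ Q ++ y = M ++ r ++ (Q ++ y) := by simp only [List.append_assoc]
      _ = _ := by rw [h3]; simp only [List.append_assoc]
  · have := (hr x2 y1 M).1 h6
    simpa only [List.append_assoc] using this

theorem TURN_Kr {α : Type} {K : Language α} (r : List α) {B : List α} (h : B ∈ K∗) :
    B ∈ (Kr K r)∗ ∨ ∃ B1 k B2, B = B1 ++ k ++ B2 ∧ B1 ∈ K∗ ∧ B2 ∈ K∗ ∧ k ∈ K ∧ r <:+: k := by
  rw [Language.mem_kstar] at h
  obtain ⟨L, rfl, hL⟩ := h
  induction L with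
  | nil =>
    left
    rw [Language.mem_kstar]
    exact ⟨[], rfl, by simp⟩
  | cons k L ih =>
    have hk : k ∈ K := hL k (by simp)
    have hL' : ∀ y ∈ L, y ∈ K := fun y hy => hL y (by simp [hy])
    by_cases hr : r <:+: k
    · right
      refine ⟨[], k, L.flatten, by simp, ?_, ?_, hk, hr⟩
      · rw [Language.mem_kstar]; exact ⟨[], rfl, by simp⟩
      · rw [Language.mem_kstar]; exact ⟨L, rfl, hL'⟩
    · rcases ih hL' with h | ⟨B1, k', B2, h1, h2, h3, h4, h5⟩
      · left
        rw [List.flatten_cons]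
        exact star_append (TURN_single ⟨hk, hr⟩) h
      · right
        refine ⟨k ++ B1, k', B2, ?_, star_append (TURN_single hk) h2, h3, h4, h5⟩
        rw [List.flatten_cons, h1]
        simp only [List.append_assoc]

theorem turn_dich {α : Type} {K : Language α} {r w x y : List α} {m : ℕ}
    (h : x ++ (pw (r ++ w) (m + 1) ++ r) ++ y ∈ K∗) :
    Cov K r x (pw (r ++ w) (m + 1) ++ r) y ∨ ∃ s s' : Fin (r.length + 1), x ++ r.take s ∈ K∗ ∧
      Hm K r (w ++ pw (r ++ w) m) s s' ∧ r.drop s' ++ y ∈ K∗ := by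
  have ev : pw (r ++ w) (m + 1) ++ r = r ++ (w ++ pw (r ++ w) m) ++ r := by
    rw [pw_succ]
    simp only [List.append_assoc]
  rw [ev] at h ⊢
  generalize w ++ pw (r ++ w) m = u at h ⊢
  have h0 : x ++ r ++ (u ++ r ++ y) ∈ K∗ := by
    simpa only [List.append_assoc] using h
  rcases star_split3 h0 with ⟨m1, m2, hr1, h1, h2⟩ | ⟨x1, x2, y1, y2, h1, h2, h3, h4, h5⟩
  · have h2' : (m2 ++ u) ++ r ++ y ∈ K∗ := by
      simpa only [List.append_assoc] using h2
    rcases star_split3 h2' with ⟨n1, n2, hr2, h3, h4⟩ | ⟨a1, a2, y1, y2, h3, h4, h5, h6, h7⟩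
    · rcases TURN_Kr r h3 with h5 | ⟨B1, k, B2, h5, h6, h7, h8, k1, k2, h9⟩
      · right
        have l1 : m1.length < r.length + 1 := by
          rw [hr1, List.length_append]; omega
        have l2 : n1.length < r.length + 1 := by
          rw [hr2, List.length_append]; omega
        have t1 : r.take m1.length = m1 := by rw [hr1]; exact List.take_left
        have d1 : r.drop m1.length = m2 := by rw [hr1]; exact List.drop_left
        have t2 : r.take n1.length = n1 := by rw [hr2]; exact List.take_left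
        have d2 : r.drop n1.length = n2 := by rw [hr2]; exact List.drop_left
        refine ⟨⟨m1.length, l1⟩, ⟨n1.length, l2⟩, ?_, ?_, ?_⟩
        · show x ++ r.take m1.length ∈ K∗
          rw [t1]; exact h1
        · show r.drop m1.length ++ u ++ r.take n1.length ∈ (Kr K r)∗
          rw [d1, t2]; exact h5
        · show r.drop n1.length ++ y ∈ K∗
          rw [d2]; exact h4
      · left
        refine ⟨m1 ++ B1 ++ k1, k2 ++ B2 ++ n2, x ++ m1 ++ B1, k1, k2, B2 ++ (n2 ++ y), ?_, ?_, ?_,
          star_append h1 h6, star_append h7 h4, ?_⟩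
        · have e1 : r ++ u ++ r = m1 ++ (m2 ++ u ++ n1) ++ n2 := by
            calc r ++ u ++ r = (m1 ++ m2) ++ u ++ (n1 ++ n2) := by rw [← hr1, ← hr2]
              _ = _ := by simp only [List.append_assoc]
          rw [e1, h5, ← h9]
          simp only [List.append_assoc]
        · simp only [List.append_assoc]
        · simp only [List.append_assoc]
        · rw [h9]; exact h8
    · left
      refine ⟨r ++ u, [], x ++ m1 ++ a1, a2, y1, y2, by simp, ?_, by simpa using h4,
        star_append h1 h5, h6, h7⟩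
      calc x ++ (r ++ u) = x ++ m1 ++ (m2 ++ u) := by
            conv_lhs => rw [hr1]
            simp only [List.append_assoc]
        _ = _ := by rw [h3]; simp only [List.append_assoc]
  · left
    exact ⟨[], u ++ r, x1, x2, y1, y2, by simp, by simpa using h1, h2, h3, h4, h5⟩

theorem turn {α : Type} {K : Language α} {r w : List α} (hr : RB K r) (hF : FinIdx K)
    (hw : rcomp (Hm K r w) (Hm K r w) = Hm K r w) : Ap (K∗) (r ++ w) := by
  have hH : ∀ k, Hm K r (w ++ pw (r ++ w) k) = Hm K r w := by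
    intro k
    induction k with
    | zero => rw [pw_zero, List.append_nil]
    | succ k ih =>
      have e : w ++ pw (r ++ w) (k + 1) = w ++ r ++ (w ++ pw (r ++ w) k) := by
        rw [pw_succ]
        simp only [List.append_assoc]
      rw [e, Hm_mul, ih, hw]
  have up0 : ∀ (m : ℕ) (x y : List α), x ++ (pw (r ++ w) (m + 1) ++ r) ++ y ∈ K∗ →
      x ++ (pw (r ++ w) (m + 2) ++ r) ++ y ∈ K∗ := by
    intro m x y h
    rcases turn_dich h with h | ⟨s, s', h1, h2, h3⟩
    · exact Cov_mem (Cov_up hr h)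
    · have h4 : Hm K r (w ++ pw (r ++ w) (m + 1)) s s' := by
        rw [hH] at h2 ⊢
        exact h2
      have h5 : r.drop s ++ (w ++ pw (r ++ w) (m + 1)) ++ r.take s' ∈ K∗ :=
        star_mono' (fun k hk => hk.1) h4
      have e : x ++ (pw (r ++ w) (m + 2) ++ r) ++ y = (x ++ r.take s) ++
          (r.drop s ++ (w ++ pw (r ++ w) (m + 1)) ++ r.take s') ++ (r.drop s' ++ y) := by
        have e1 : (x ++ r.take s) ++ (r.drop s ++ (w ++ pw (r ++ w) (m + 1)) ++ r.take s') ++
            (r.drop s' ++ y) = x ++ (r.take s ++ r.drop s) ++ (w ++ pw (r ++ w) (m + 1)) ++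
              (r.take s' ++ r.drop s') ++ y := by simp only [List.append_assoc]
        rw [e1, List.take_append_drop, List.take_append_drop, pw_succ (r ++ w) (m + 1)]
        simp only [List.append_assoc]
      rw [e]
      exact star_append (star_append h1 h5) h3
  have up : ∀ (n : ℕ) (u v : List α), u ++ pw (r ++ w) (n + 2) ++ v ∈ K∗ →
      u ++ pw (r ++ w) (n + 3) ++ v ∈ K∗ := by
    intro n u v h
    have e : ∀ k, u ++ pw (r ++ w) (k + 1) ++ v = u ++ (pw (r ++ w) k ++ r) ++ (w ++ v) := by
      intro k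
      rw [pw_succ']
      simp only [List.append_assoc]
    rw [e (n + 1)] at h
    rw [e (n + 2)]
    exact up0 n u (w ++ v) h
  obtain ⟨n1, p, hp, hper⟩ := FinIdx_period (FinIdx_star hF) (r ++ w)
  refine ⟨n1 + 2, fun n hn u v => ?_⟩
  obtain ⟨k, rfl⟩ : ∃ k, n = k + 2 := ⟨n - 2, by omega⟩
  refine ⟨up k u v, fun h => ?_⟩
  have ups : ∀ j, u ++ pw (r ++ w) (k + 3 + j) ++ v ∈ K∗ := by
    intro j
    induction j with
    | zero => exact h
    | succ j ih =>
      have := up (k + 1 + j) u v (by
        have e : k + 1 + j + 2 = k + 3 + j := by omega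
        rw [e]; exact ih)
      have e : k + 1 + j + 3 = k + 3 + (j + 1) := by omega
      rw [e] at this
      exact this
  rw [hper (k + 2) (by omega)]
  have e : k + 2 + p = k + 3 + (p - 1) := by omega
  rw [e]
  exact ups (p - 1)

end Vale.Agent.P329L
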