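import Vale.Agent.P329L.WExpr
import Vale.Agent.P329L.WRB
import Vale.Agent.P329L.WTurn
import Vale.Agent.P329L.Run
import Vale.Agent.P329L.Abs

/-! # P329 lower bound: assembly of the word part (module WM, helper32) -/

set_option autoImplicit false

namespace Vale.Agent.P329L

open Vale.Agent.P329 Computability

private theorem wm_Ch {α : Type} (K : Language α) (w : List α) : w ∈ K∗ ↔ Ch K w := by
  rw [Language.mem_kstar]
  constructor
  · rintro ⟨L, h1, h2⟩
    exact ⟨L, h1.symm, h2⟩
  · rintro ⟨L, h1, h2⟩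
    exact ⟨L, h1.symm, h2⟩

/-- run data for one language and one letter -/
theorem wm_run {α : Type} (K : Language α) (r : List α) (a : α) (hAp : Ap (Kr K r) [a])
    (d : ℕ) (hd : d = Nat.setGcd (TT (Kr K r) a)) :
    ∃ (n0 : ℕ) (C : Fin (r.length + 1) → Fin (r.length + 1) → Prop)
      (U V : ZMod d → Fin (r.length + 1) → Prop), ∀ n ≥ n0, ∀ x y,
        (Hm K r (List.replicate n a) x y ↔ C x y ∨ (0 < d ∧ ∃ p, U p x ∧ V (p + n) y)) := by
  obtain ⟨m0, hm0⟩ := hAp
  have hst : ∀ m, m0 + 1 ≤ m → ∀ u v : List α, u ++ (List.replicate m a ++ v) ∈ Kr K r →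
      u ++ (List.replicate (m + 1) a ++ v) ∈ Kr K r := by
    intro m hm u v h
    have h1 := hm0 m (by omega) u v
    rw [pw_singleton, pw_singleton, List.append_assoc, List.append_assoc] at h1
    exact h1.1 h
  have key : ∀ x y : Fin (r.length + 1), ∃ n1, ∀ n, n1 ≤ n →
      (Ch (Kr K r) (r.drop x ++ (List.replicate n a ++ r.take y)) ↔
        (∃ m, CC (Kr K r) a (m0 + 1) m (r.drop x) (r.take y)) ∨
        (0 < d ∧ ∃ p : ZMod d, UU (Kr K r) a d p (r.drop x) ∧ VV (Kr K r) a d (p + n) (r.take y))) := by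
    intro x y
    by_cases h0 : d = 0
    · have hT : ∀ t, 0 < t → List.replicate t a ∉ Kr K r := by
        intro t ht hmem
        have h1 : Nat.setGcd (TT (Kr K r) a) = 0 := by rw [← hd, h0]
        rw [Nat.setGcd_eq_zero_iff] at h1
        have h2 := h1 (show t ∈ TT (Kr K r) a from hmem)
        simp at h2
        omega
      obtain ⟨n1, hn1⟩ := run_none (K := Kr K r) (a := a) (m0 := m0 + 1) (by omega) hst hT
        (r.drop x) (r.take y)
      refine ⟨n1, fun n hn => ?_⟩
      rw [hn1 n hn]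
      constructor
      · exact Or.inl
      · rintro (h | ⟨h, -⟩)
        · exact h
        · omega
    · obtain ⟨n1, hn1⟩ := run_main (K := Kr K r) (a := a) (m0 := m0 + 1) (by omega) hst d hd h0
        (r.drop x) (r.take y)
      refine ⟨n1, fun n hn => ?_⟩
      rw [hn1 n hn]
      constructor
      · rintro (h | h)
        · exact Or.inl h
        · exact Or.inr ⟨by omega, h⟩
      · rintro (h | ⟨-, h⟩)
        · exact Or.inl h
        · exact Or.inr h
  choose f hf using key
  refine ⟨∑ x, ∑ y, f x y, fun x y => ∃ m, CC (Kr K r) a (m0 + 1) m (r.drop x) (r.take y),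
    fun p x => UU (Kr K r) a d p (r.drop x), fun p y => VV (Kr K r) a d p (r.take y), ?_⟩
  intro n hn x y
  have h1 : f x y ≤ n := by
    refine le_trans ?_ hn
    refine le_trans (Finset.single_le_sum (f := fun y => f x y) (fun i _ => Nat.zero_le _)
      (Finset.mem_univ y)) ?_
    exact Finset.single_le_sum (f := fun x => ∑ y, f x y) (fun i _ => Nat.zero_le _)
      (Finset.mem_univ x)
  have h2 := hf x y n h1
  unfold Hm
  rw [wm_Ch, List.append_assoc]
  exact h2

theorem wm_TT {α : Type} (K : Language α) (r : List α) (a b c : α) (hbc : b ≠ c) (hb : b ∈ r)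
    (hc : c ∈ r) (t : ℕ) : List.replicate t a ∈ Kr K r ↔ List.replicate t a ∈ K := by
  constructor
  · exact fun h => h.1
  · intro h
    refine ⟨h, fun hr => hbc ?_⟩
    have h1 := List.eq_of_mem_replicate (hr.subset hb)
    have h2 := List.eq_of_mem_replicate (hr.subset hc)
    rw [h1, h2]

/-- the word part -/
theorem word_abs {α G : Type} [Group G] [Finite G] [IsSimpleGroup G]
    (hna : ∃ x y : G, x * y ≠ y * x) (g : α → G)
    (hgen : Subgroup.closure (Set.range g) = ⊤) (E : GRE α) (hsh : E.sh ≤ 1)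
    (hE : ∀ w, Ap E.lang w → (w.map g).prod = 1) (al : GRE α → α)
    (hal1 : ∀ P ∈ starred E, g (al P) ≠ 1) (hal2 : ∀ P ∈ starred E, g (al P) * g (al P) = 1) :
    ∃ P ∈ starred E, (∃ t, 0 < t ∧ List.replicate t (al P) ∈ P.lang) ∧
      ∃ d : ℕ, 0 < d ∧ (∀ t, List.replicate t (al P) ∈ P.lang → d ∣ t) ∧ Even d ∧
        IsSec G (Fin d) := by
  classical
  -- two letters
  obtain ⟨b, c, hbc⟩ : ∃ b c : α, b ≠ c := by
    by_contra hcon
    push Not at hcon
    obtain ⟨x, y, hxy⟩ := hna
    apply hxy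
    have hle : Subgroup.closure (Set.range g) ≤ Subgroup.centralizer (Set.range g) := by
      rw [Subgroup.closure_le]
      rintro _ ⟨a, rfl⟩
      rw [SetLike.mem_coe, Subgroup.mem_centralizer_iff]
      rintro _ ⟨b, rfl⟩
      rw [hcon a b]
    have hx : x ∈ Subgroup.centralizer (Set.range g) := hle (by rw [hgen]; trivial)
    have h2 : Subgroup.closure (Set.range g) ≤ Subgroup.centralizer {x} := by
      rw [Subgroup.closure_le]
      rintro _ ⟨b, rfl⟩
      rw [SetLike.mem_coe, Subgroup.mem_centralizer_singleton_iff]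
      exact (Subgroup.mem_centralizer_iff.mp hx _ ⟨b, rfl⟩).symm ▸ rfl
    have hy : y ∈ Subgroup.centralizer {x} := h2 (by rw [hgen]; trivial)
    exact (Subgroup.mem_centralizer_singleton_iff.mp hy).symm
  set g' : List α → G := fun w => (w.map g).prod with hg'
  have hg'nil : g' [] = 1 := rfl
  have hg'app : ∀ u v, g' (u ++ v) = g' u * g' v := fun u v => by
    simp only [hg', List.map_append, List.prod_append]
  have hg'surj : Function.Surjective g' := by
    intro x
    have hx : x ∈ Subgroup.closure (Set.range g) := by rw [hgen]; trivial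
    induction hx using Subgroup.closure_induction with
    | mem x hx =>
      obtain ⟨a, rfl⟩ := hx
      exact ⟨[a], by simp [hg']⟩
    | one => exact ⟨[], rfl⟩
    | mul x y _ _ hx hy =>
      obtain ⟨u, rfl⟩ := hx
      obtain ⟨v, rfl⟩ := hy
      exact ⟨u ++ v, hg'app u v⟩
    | inv x _ hx =>
      obtain ⟨u, rfl⟩ := hx
      -- a power of `u`
      obtain ⟨n, hn, hpow⟩ := isOfFinOrder_iff_pow_eq_one.1 (isOfFinOrder_of_finite (g' u))
      have hp : ∀ n, g' (pw u n) = g' u ^ n := by
        intro n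
        induction n with
        | zero => rw [pw_zero, hg'nil, pow_zero]
        | succ n ih => rw [pw_succ', hg'app, ih, pow_succ]
      refine ⟨pw u (n - 1), ?_⟩
      rw [hp]
      obtain ⟨m, rfl⟩ : ∃ m, n = m + 1 := ⟨n - 1, by omega⟩
      rw [pow_succ] at hpow
      rw [Nat.add_sub_cancel]
      exact eq_inv_of_mul_eq_one_left hpow
  -- the languages
  have hfin : (starred E).Finite := starred_finite_w E
  let I : Type := {P : GRE α // P ∈ starred E}
  have : Finite I := hfin
  have hsh0 : ∀ i : I, starred i.1 = ∅ := fun i =>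
    starred_empty i.1 (Nat.le_zero.1 (starred_sh E 0 hsh i.1 i.2))
  have hAp : ∀ i : I, ∀ w, Ap i.1.lang w := by
    intro i w
    refine Ap_expr w i.1 fun P hP => ?_
    rw [hsh0 i] at hP
    exact absurd hP (Set.notMem_empty P)
  have hF : ∀ i : I, FinIdx i.1.lang := fun i => FinIdx_expr i.1
  obtain ⟨r, hRB, hgr, hbr, hcr⟩ := exists_common (fun i : I => i.1.lang)
    (fun i => exists_RB (hAp i) (hF i)) g' hg'nil hg'app b c
  -- the abstract theorem
  obtain ⟨i, hi0, hit, hcard⟩ := abs_main (X := I × Fin (r.length + 1)) (Om := List α) (I := I)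
    hna (fun x => x.1) (fun w w' => w ++ r ++ w')
    (fun w x y => x.1 = y.1 ∧ Hm x.1.1.lang r w x.2 y.2) g'
    (by
      intro w w'
      funext x z
      refine propext ?_
      constructor
      · rintro ⟨h1, h2⟩
        rw [Hm_mul] at h2
        obtain ⟨y, hy1, hy2⟩ := h2
        exact ⟨(x.1, y), ⟨rfl, hy1⟩, ⟨h1, hy2⟩⟩
      · rintro ⟨y, ⟨h1, h2⟩, ⟨h3, h4⟩⟩
        refine ⟨h1.trans h3, ?_⟩
        rw [Hm_mul]
        refine ⟨y.2, h2, ?_⟩
        rw [h1]
        exact h4)
    (by
      intro w w'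
      show g' (w ++ r ++ w') = g' w * g' w'
      rw [hg'app, hg'app, hgr, mul_one])
    hg'surj
    (fun w x y h => h.1)
    (by
      intro w hw
      have h1 : ∀ i : I, rcomp (Hm i.1.lang r w) (Hm i.1.lang r w) = Hm i.1.lang r w := by
        intro i
        funext s s'
        refine propext ?_
        have h2 := congrFun (congrFun hw (i, s)) (i, s')
        constructor
        · rintro ⟨y, hy1, hy2⟩
          have h3 : rcomp (fun x y : I × Fin (r.length + 1) => x.1 = y.1 ∧ Hm x.1.1.lang r w x.2 y.2)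
              (fun x y => x.1 = y.1 ∧ Hm x.1.1.lang r w x.2 y.2) (i, s) (i, s') :=
            ⟨(i, y), ⟨rfl, hy1⟩, ⟨rfl, hy2⟩⟩
          rw [h2] at h3
          exact h3.2
        · intro h3
          have h4 : rcomp (fun x y : I × Fin (r.length + 1) => x.1 = y.1 ∧ Hm x.1.1.lang r w x.2 y.2)
              (fun x y => x.1 = y.1 ∧ Hm x.1.1.lang r w x.2 y.2) (i, s) (i, s') := by
            rw [h2]
            exact ⟨rfl, h3⟩
          obtain ⟨y, ⟨h5, h6⟩, ⟨h7, h8⟩⟩ := h4
          refine ⟨y.2, h6, ?_⟩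
          have h9 : i = y.1 := h5
          rw [← h9] at h8
          exact h8
      have h3 : Ap E.lang (r ++ w) := by
        refine Ap_expr _ E fun P hP => ?_
        exact turn (hRB ⟨P, hP⟩) (hF ⟨P, hP⟩) (h1 ⟨P, hP⟩)
      have h4 : g' (r ++ w) = 1 := hE _ h3
      rw [hg'app, hgr, one_mul] at h4
      exact h4)
    (fun i n => List.replicate n (al i.1)) (fun i => g (al i.1)) (fun i => hal1 _ i.2)
    (fun i => hal2 _ i.2)
    (by
      intro i n
      show ((List.replicate n (al i.1)).map g).prod = _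
      rw [List.map_replicate, List.prod_replicate])
    (fun i => Nat.setGcd (TT (Kr i.1.lang r) (al i.1)))
    (by
      intro i
      obtain ⟨n0, C, U, V, hrun⟩ := wm_run i.1.lang r (al i.1) (Ap_Kr (hAp i _) r) _ rfl
      refine ⟨n0, fun x y => x.1 = y.1 ∧ C x.2 y.2, fun p x => U p x.2,
        fun p y => i = y.1 ∧ V p y.2, ?_⟩
      intro n hn x y hx
      have hx' : x.1 = i := hx
      constructor
      · rintro ⟨h1, h2⟩
        rw [hx'] at h2
        rcases (hrun n hn x.2 y.2).1 h2 with h3 | ⟨h3, p, h4, h5⟩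
        · exact Or.inl ⟨h1, h3⟩
        · exact Or.inr ⟨h3, p, h4, hx' ▸ h1, h5⟩
      · rintro (⟨h1, h2⟩ | ⟨h3, p, h4, h5, h6⟩)
        · refine ⟨h1, ?_⟩
          rw [hx']
          exact (hrun n hn x.2 y.2).2 (Or.inl h2)
        · refine ⟨hx'.trans h5, ?_⟩
          rw [hx']
          exact (hrun n hn x.2 y.2).2 (Or.inr ⟨h3, p, h4, h6⟩))
  have hTT := wm_TT i.1.lang r (al i.1) b c hbc hbr hcr
  refine ⟨i.1, i.2, ?_, _, hi0, ?_, ?_, hcard⟩
  · by_contra hcon
    push Not at hcon
    refine absurd hi0 (Nat.not_lt.2 (Nat.le_zero.2 ?_))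
    rw [Nat.setGcd_eq_zero_iff]
    intro t ht
    by_contra hne
    exact hcon t (Nat.pos_of_ne_zero hne) ((hTT t).1 ht)
  · intro t ht
    exact Nat.setGcd_dvd_of_mem ((hTT t).2 ht)
  · have h4 : orderOf (g (al i.1)) = 2 := orderOf_eq_prime (by rw [pow_two]; exact hal2 _ i.2)
      (hal1 _ i.2)
    have h5 := orderOf_dvd_of_pow_eq_one hit
    rw [h4] at h5
    exact even_iff_two_dvd.mpr h5

end Vale.Agent.P329L
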