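import Vale.Agent.P329L.G4
import Vale.Agent.P329L.WMain

/-! P329L: the theorem (helper16). -/

namespace Vale.Agent.P329L

open Vale.Agent.P329

/-- the language recognized by the subset `T` of `G` through the letter map `g` -/
def recLang {α G : Type} [Group G] (g : α → G) (T : Set G) : Language α :=
  ({w : List α | (w.map g).prod ∈ T} : Set (List α))

theorem mem_recLang {α G : Type} [Group G] (g : α → G) (T : Set G) (w : List α) :
    w ∈ recLang g T ↔ (w.map g).prod ∈ T := Iff.rfl

theorem prod_pw {α G : Type} [Group G] (g : α → G) (w : List α) (n : ℕ) :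
    ((pw w n).map g).prod = (w.map g).prod ^ n := by
  induction n with
  | zero => rw [pw_zero, List.map_nil, List.prod_nil, pow_zero]
  | succ n ih => rw [pw_succ, List.map_append, List.prod_append, ih, pow_succ']

/-- the main theorem: `L` is any language whose syntactic congruence refines the kernel of the
morphism onto the simple group `G` -/
theorem main {α G : Type} [Group G] [Finite G] [IsSimpleGroup G] (g : α → G)
    (hna : ∃ x y : G, x * y ≠ y * x)
    (hgen : Subgroup.closure (Set.range g) = ⊤) (E : GRE α) (hsh : E.sh ≤ 1)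
    (hE : ∀ u v : List α, (∀ x y : List α, x ++ u ++ y ∈ E.lang ↔ x ++ v ++ y ∈ E.lang) →
      (u.map g).prod = (v.map g).prod) :
    ∃ P ∈ starred E, ∀ a : α, g a ≠ 1 → g a * g a = 1 →
      (∃ t, 0 < t ∧ List.replicate t a ∈ P.lang) ∧
      ∃ d : ℕ, 0 < d ∧ Even d ∧ (∀ t, List.replicate t a ∈ P.lang → d ∣ t) ∧
        ∃ (R : Subgroup (Equiv.Perm (Fin d))) (φ : R →* G), Function.Surjective φ := by
  classical
  have hE' : ∀ w, Ap E.lang w → (w.map g).prod = 1 := by
    rintro w ⟨n, hn⟩
    have h1 := hE (pw w n) (pw w (n + 1)) (fun x y => hn n le_rfl x y)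
    rw [prod_pw, prod_pw, pow_succ] at h1
    exact (mul_eq_left.mp h1.symm)
  by_contra hcon
  push Not at hcon
  have hα : Nonempty α := by
    by_contra hne
    rw [not_nonempty_iff] at hne
    obtain ⟨x, y, hxy⟩ := hna
    apply hxy
    have h1 : Set.range g = ∅ := Set.range_eq_empty g
    rw [h1, Subgroup.closure_empty] at hgen
    have hx : x ∈ (⊥ : Subgroup G) := by rw [hgen]; trivial
    rw [Subgroup.mem_bot] at hx
    rw [hx, one_mul, mul_one]
  obtain ⟨a0⟩ := hα
  have hch : ∀ P : GRE α, ∃ a : α, P ∈ starred E →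
      (g a ≠ 1 ∧ g a * g a = 1 ∧
      ((∃ t, 0 < t ∧ List.replicate t a ∈ P.lang) → ∀ d : ℕ, 0 < d → Even d →
        (∀ t, List.replicate t a ∈ P.lang → d ∣ t) →
        ¬ ∃ (R : Subgroup (Equiv.Perm (Fin d))) (φ : R →* G), Function.Surjective φ)) := by
    intro P
    by_cases hP : P ∈ starred E
    · obtain ⟨a, ha1, ha2, ha⟩ := hcon P hP
      refine ⟨a, fun _ => ⟨ha1, ha2, fun hex d hd0 he hd => ?_⟩⟩
      rintro ⟨R, φ, hφ⟩
      exact ha hex d hd0 he hd R φ hφ
    · exact ⟨a0, fun h => absurd h hP⟩
  choose al hal using hch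
  obtain ⟨P, hP, hex, d, hd0, hd, heven, hsec⟩ := word_abs hna g hgen E hsh hE' al
    (fun P hP => (hal P hP).1) (fun P hP => (hal P hP).2.1)
  exact (hal P hP).2.2 hex d hd0 heven hd hsec

/-- nontrivial languages recognized by a simple group through an onto morphism -/
theorem synt_recLang {α G : Type} [Group G] [Finite G] [IsSimpleGroup G] (g : α → G)
    (hgen : Subgroup.closure (Set.range g) = ⊤) (T : Set G) (hT0 : T.Nonempty)
    (hT1 : T ≠ Set.univ) (u v : List α)
    (h : ∀ x y : List α, x ++ u ++ y ∈ recLang g T ↔ x ++ v ++ y ∈ recLang g T) :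
    (u.map g).prod = (v.map g).prod := by
  classical
  -- the morphism is onto
  have hsurj : ∀ x : G, ∃ w : List α, (w.map g).prod = x := by
    intro x
    have hx : x ∈ Subgroup.closure (Set.range g) := by rw [hgen]; trivial
    induction hx using Subgroup.closure_induction with
    | mem x hx =>
      obtain ⟨a, rfl⟩ := hx
      exact ⟨[a], by simp⟩
    | one => exact ⟨[], rfl⟩
    | mul x y _ _ hx hy =>
      obtain ⟨u, rfl⟩ := hx
      obtain ⟨v, rfl⟩ := hy
      exact ⟨u ++ v, by rw [List.map_append, List.prod_append]⟩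
    | inv x _ hx =>
      obtain ⟨u, rfl⟩ := hx
      obtain ⟨n, hn, hpow⟩ := isOfFinOrder_iff_pow_eq_one.1
        (isOfFinOrder_of_finite ((u.map g).prod))
      refine ⟨pw u (n - 1), ?_⟩
      rw [prod_pw]
      obtain ⟨m, rfl⟩ : ∃ m, n = m + 1 := ⟨n - 1, by omega⟩
      rw [pow_succ] at hpow
      rw [Nat.add_sub_cancel]
      exact eq_inv_of_mul_eq_one_left hpow
  -- the stabilizer of `T`
  let N : Subgroup G :=
    { carrier := {x | ∀ p q : G, p * x * q ∈ T ↔ p * q ∈ T}
      mul_mem' := by
        intro x y hx hy p q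
        have h1 := hx p (y * q)
        have h2 := hy p q
        have e1 : p * (x * y) * q = p * x * (y * q) := by group
        have e2 : p * (y * q) = p * y * q := by group
        rw [e1, h1, e2, h2]
      one_mem' := by
        intro p q
        rw [mul_one]
      inv_mem' := by
        intro x hx p q
        have h1 := hx (p * x⁻¹) q
        have e1 : p * x⁻¹ * x * q = p * q := by group
        rw [e1] at h1
        exact h1.symm }
  have hmemN : ∀ x : G, x ∈ N ↔ ∀ p q : G, p * x * q ∈ T ↔ p * q ∈ T := fun x => Iff.rfl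
  have hNn : N.Normal := by
    refine ⟨fun x hx y => ?_⟩
    rw [hmemN] at hx ⊢
    intro p q
    have h1 := hx (p * y) (y⁻¹ * q)
    have e1 : p * (y * x * y⁻¹) * q = p * y * x * (y⁻¹ * q) := by group
    have e2 : p * y * (y⁻¹ * q) = p * q := by group
    rw [e1, h1, e2]
  have hN : N = ⊥ := by
    rcases hNn.eq_bot_or_eq_top with h1 | h1
    · exact h1
    · exfalso
      apply hT1
      obtain ⟨x, hx⟩ := hT0
      refine Set.eq_univ_of_forall fun y => ?_
      have h2 : x⁻¹ * y ∈ N := by rw [h1]; trivial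
      rw [hmemN] at h2
      have h3 := h2 x 1
      have e1 : x * (x⁻¹ * y) * 1 = y := by group
      rw [e1, mul_one] at h3
      exact h3.mpr hx
  have hx : (u.map g).prod * ((v.map g).prod)⁻¹ ∈ N := by
    rw [hmemN]
    intro p q
    obtain ⟨x, hx⟩ := hsurj p
    obtain ⟨y, hy⟩ := hsurj (((v.map g).prod)⁻¹ * q)
    have h1 := h x y
    rw [mem_recLang, mem_recLang, List.map_append, List.map_append, List.map_append,
      List.map_append, List.prod_append, List.prod_append, List.prod_append, List.prod_append, hx,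
      hy] at h1
    have e1 : p * ((u.map g).prod * ((v.map g).prod)⁻¹) * q
        = p * (u.map g).prod * (((v.map g).prod)⁻¹ * q) := by group
    have e2 : p * (v.map g).prod * (((v.map g).prod)⁻¹ * q) = p * q := by group
    rw [e1, h1, e2]
  rw [hN, Subgroup.mem_bot] at hx
  exact mul_inv_eq_one.mp hx

end Vale.Agent.P329L
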