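import Vale.Agent.P329L.Grp

/-! P329L, module G1: the commutator trick. -/

namespace Vale.Agent.P329L

/-- G1B: finitely many normal subgroups. -/
theorem comm_trick {H G : Type} [Group H] [Group G] [IsSimpleGroup G]
    (hna : ∃ x y : G, x * y ≠ y * x) (θ : H →* G) (hθ : Function.Surjective θ)
    {J : Type} [Finite J] (N : J → Subgroup H) (hN : ∀ j, (N j).Normal)
    (hinf : ∀ h, (∀ j, h ∈ N j) → θ h = 1) : ∃ j, ∀ h ∈ N j, θ h = 1 :=
  Grp_family hna θ hθ N hN hinf

/-- G1A: two normal subgroups. -/
theorem two_normal {H G : Type} [Group H] [Group G] [IsSimpleGroup G]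
    (hna : ∃ x y : G, x * y ≠ y * x) (θ : H →* G) (hθ : Function.Surjective θ)
    (A B : Subgroup H) (hA : A.Normal) (hB : B.Normal) (h : ∀ x ∈ A, x ∈ B → θ x = 1) :
    (∀ x ∈ A, θ x = 1) ∨ (∀ x ∈ B, θ x = 1) := by
  obtain ⟨j, hj⟩ := comm_trick hna θ hθ (fun b : Bool => if b then A else B)
    (by
      intro b
      cases b
      · simpa using hB
      · simpa using hA)
    (by
      intro x hx
      have h1 := hx true
      have h2 := hx false
      simp only [if_true] at h1
      simp only [Bool.false_eq_true, if_false] at h2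
      exact h x h1 h2)
  cases j
  · right
    simpa using hj
  · left
    simpa using hj

end Vale.Agent.P329L
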