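import Vale.Agent.P329L.Grp

/-! P329L, module G2: a subgroup `B` of a simple group `G` such that an involution `γ` moves no coset
of `B` except possibly `B` and `γ B` is the whole group. -/

namespace Vale.Agent.P329L

/-- G2A.  `γ` acts on `G ⧸ B` trivially or as a transposition. -/
theorem sub_eq_top {G : Type} [Group G] [Finite G] [IsSimpleGroup G]
    (hna : ∃ x y : G, x * y ≠ y * x) (B : Subgroup G) (γ : G) (h1 : γ ≠ 1) (h2 : γ * γ = 1)
    (hmove : ∀ q : G ⧸ B, γ • q ≠ q → q = ((1 : G) : G ⧸ B) ∨ q = ((γ : G) : G ⧸ B)) :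
    B = ⊤ := by
  refine Grp_coset hna B γ h1 h2 ?_
  have e1 : γ • ((1 : G) : G ⧸ B) = ((γ : G) : G ⧸ B) := by
    rw [MulAction.Quotient.smul_coe, smul_eq_mul, mul_one]
  have e2 : γ • ((γ : G) : G ⧸ B) = ((1 : G) : G ⧸ B) := by
    rw [MulAction.Quotient.smul_coe, smul_eq_mul, h2]
  intro x y hx hy
  rcases hmove x hx with rfl | rfl <;> rcases hmove y hy with rfl | rfl
  · exact Or.inl rfl
  · exact Or.inr e1.symm
  · exact Or.inr e2.symm
  · exact Or.inl rfl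

/-- G2B.  The stabilizer of a point of `Q` in `R ≥ D` maps onto `G`. -/
theorem stab_onto {H G O : Type} [Group H] [Group G] [Finite G] [IsSimpleGroup G]
    [MulAction H O] (hna : ∃ x y : G, x * y ≠ y * x) (θ : H →* G) (D R : Subgroup H) (Q : Set O)
    (γ : G) (h1 : γ ≠ 1) (h2 : γ * γ = 1) (hDR : D ≤ R) (hR : ∀ x : G, ∃ h ∈ R, θ h = x)
    (hfix : ∀ h ∈ D, ∀ y, y ∉ Q → h • y = y) (htr : ∀ y ∈ Q, ∀ y' ∈ Q, ∃ h ∈ D, h • y = y')
    (hθ : ∀ h ∈ D, θ h = 1 ∨ θ h = γ) (hγ : ∃ h ∈ D, θ h = γ) (ω : O) (_hω : ω ∈ Q) (x : G) :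
    ∃ h ∈ R, h • ω = ω ∧ θ h = x := by
  have _ := h2
  have hRt : R.map θ = ⊤ := by
    rw [eq_top_iff]
    intro y _
    obtain ⟨h, hh, hy⟩ := hR y
    exact ⟨h, hh, hy⟩
  have h3 := Grp_step hna θ D Q hfix htr γ h1 hθ hγ R hDR hRt ω
  have h4 : x ∈ (R ⊓ MulAction.stabilizer H ω).map θ := by
    rw [h3]
    exact Subgroup.mem_top x
  obtain ⟨h, hh, hx⟩ := Subgroup.mem_map.1 h4
  exact ⟨h, (Subgroup.mem_inf.1 hh).1, (Subgroup.mem_inf.1 hh).2, hx⟩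

end Vale.Agent.P329L
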