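import Vale.Agent.P329L.Grp
import Vale.Agent.P329L.G2

/-! P329L, module G3: the order of `G` is at most `|Q|!`. -/

namespace Vale.Agent.P329L

/-- G3A.  Take `R` minimal among the subgroups containing `D` and mapping onto `G`. -/
theorem exists_min {H G O : Type} [Group H] [Finite H] [Group G] [Finite G] [IsSimpleGroup G]
    [MulAction H O] (hna : ∃ x y : G, x * y ≠ y * x) (θ : H →* G) (hθs : Function.Surjective θ)
    (D : Subgroup H) (Q : Set O) (γ : G) (h1 : γ ≠ 1) (h2 : γ * γ = 1)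
    (hfix : ∀ h ∈ D, ∀ y, y ∉ Q → h • y = y) (htr : ∀ y ∈ Q, ∀ y' ∈ Q, ∃ h ∈ D, h • y = y')
    (hθ : ∀ h ∈ D, θ h = 1 ∨ θ h = γ) (hγ : ∃ h ∈ D, θ h = γ) :
    ∃ R : Subgroup H, D ≤ R ∧ (∀ x : G, ∃ h ∈ R, θ h = x) ∧
      (∀ h ∈ R, ∀ y ∈ Q, h • y ∈ Q) ∧ (∀ h ∈ R, ∀ y, y ∉ Q → h • y = y) := by
  have _ := h2
  obtain ⟨R, hR⟩ := (Set.toFinite {R : Subgroup H | D ≤ R ∧ R.map θ = ⊤}).exists_minimal
    ⟨⊤, le_top, by
      rw [← MonoidHom.range_eq_map]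
      exact MonoidHom.range_eq_top.2 hθs⟩
  have hRm := hR.prop
  have hout : ∀ h ∈ R, ∀ y, y ∉ Q → h • y = y := by
    intro h hh y hy
    have h3 : R ⊓ MulAction.stabilizer H y ∈ {R : Subgroup H | D ≤ R ∧ R.map θ = ⊤} := by
      refine ⟨?_, Grp_step hna θ D Q hfix htr γ h1 hθ hγ R hRm.1 hRm.2 y⟩
      intro d hd
      exact Subgroup.mem_inf.2 ⟨hRm.1 hd, hfix d hd y hy⟩
    have h4 := hR.le_of_le h3 inf_le_left
    exact (Subgroup.mem_inf.1 (h4 hh)).2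
  refine ⟨R, hRm.1, ?_, ?_, hout⟩
  · intro x
    have h4 : x ∈ R.map θ := by
      rw [hRm.2]
      exact Subgroup.mem_top x
    exact Subgroup.mem_map.1 h4
  · intro h hh y hy
    by_contra hc
    have h4 := hout h hh _ hc
    have h5 : h • y = y := smul_left_cancel h h4
    rw [h5] at hc
    exact hc hy

/-- G3B. -/
theorem card_le_factorial {H G O : Type} [Group H] [Finite H] [Group G] [Finite G]
    [IsSimpleGroup G] [MulAction H O] [Finite O] (hna : ∃ x y : G, x * y ≠ y * x) (θ : H →* G)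
    (hθs : Function.Surjective θ) (hker : ∀ h : H, (∀ y : O, h • y = y) → θ h = 1)
    (D : Subgroup H) (Q : Set O) (γ : G) (h1 : γ ≠ 1) (h2 : γ * γ = 1)
    (hfix : ∀ h ∈ D, ∀ y, y ∉ Q → h • y = y) (htr : ∀ y ∈ Q, ∀ y' ∈ Q, ∃ h ∈ D, h • y = y')
    (hθ : ∀ h ∈ D, θ h = 1 ∨ θ h = γ) (hγ : ∃ h ∈ D, θ h = γ) :
    Nat.card G ≤ (Nat.card Q).factorial := by
  have _ := h2
  exact Grp_card_ker hna θ hθs hker D Q hfix htr γ h1 hθ hγ

end Vale.Agent.P329L
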