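import Vale.Agent.P329L.Defs

/-! P329L, module G4: alternating groups and regularity. -/

namespace Vale.Agent.P329L

open Vale.Agent.P329

/-- the involutions of the alternating group -/
abbrev Inv (n : ℕ) : Type := {x : alternatingGroup (Fin n) // x ≠ 1 ∧ x * x = 1}

/-- G4A (`alternatingGroup.isSimpleGroup`; the subgroup generated by the involutions is normal). -/
theorem inv_closure (n : ℕ) (hn : 5 ≤ n) :
    Subgroup.closure (Set.range (Subtype.val : Inv n → alternatingGroup (Fin n))) = ⊤ := by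
  have hS : Group.conjugatesOfSet (Set.range (Subtype.val : Inv n → alternatingGroup (Fin n))) =
      Set.range (Subtype.val : Inv n → alternatingGroup (Fin n)) := by
    refine le_antisymm ?_ Group.subset_conjugatesOfSet
    intro y hy
    rw [Group.mem_conjugatesOfSet_iff] at hy
    obtain ⟨a, ⟨⟨x, hx1, hx2⟩, rfl⟩, hc⟩ := hy
    rw [isConj_iff] at hc
    obtain ⟨c, rfl⟩ := hc
    refine ⟨⟨c * x * c⁻¹, fun h => hx1 ?_, ?_⟩, rfl⟩
    · have h2 : c⁻¹ * (c * x * c⁻¹) * c = c⁻¹ * 1 * c := by rw [h]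
      simpa [mul_assoc] using h2
    · have h2 : c * x * c⁻¹ * (c * x * c⁻¹) = c * (x * x) * c⁻¹ := by group
      rw [h2, hx2]
      group
  have hnorm : (Subgroup.closure
      (Set.range (Subtype.val : Inv n → alternatingGroup (Fin n)))).Normal := by
    rw [← hS]
    exact Subgroup.normalClosure_normal
  have hsim : IsSimpleGroup (alternatingGroup (Fin n)) :=
    alternatingGroup.isSimpleGroup (by rw [Nat.card_eq_fintype_card, Fintype.card_fin]; exact hn)
  rcases hnorm.eq_bot_or_eq_top with h | h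
  · exfalso
    have h0 : 0 < n := by omega
    have h1 : 1 < n := by omega
    have h2 : 2 < n := by omega
    have h3 : 3 < n := by omega
    have hx : (Equiv.swap (⟨0, h0⟩ : Fin n) ⟨1, h1⟩ * Equiv.swap ⟨2, h2⟩ ⟨3, h3⟩) ∈
        alternatingGroup (Fin n) := by
      rw [Equiv.Perm.mem_alternatingGroup, map_mul, Equiv.Perm.sign_swap (by simp),
        Equiv.Perm.sign_swap (by simp)]
      norm_num
    have hne : (⟨_, hx⟩ : alternatingGroup (Fin n)) ≠ 1 := by
      intro h4
      have h5 := congrArg (fun z : alternatingGroup (Fin n) => (z : Equiv.Perm (Fin n)) ⟨0, h0⟩) h4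
      simp [Equiv.swap_apply_def] at h5
    have hsq : (⟨_, hx⟩ : alternatingGroup (Fin n)) * ⟨_, hx⟩ = 1 := by
      apply Subtype.ext
      show Equiv.swap (⟨0, h0⟩ : Fin n) ⟨1, h1⟩ * Equiv.swap ⟨2, h2⟩ ⟨3, h3⟩ *
        (Equiv.swap (⟨0, h0⟩ : Fin n) ⟨1, h1⟩ * Equiv.swap ⟨2, h2⟩ ⟨3, h3⟩) = 1
      have hcomm : Equiv.swap (⟨0, h0⟩ : Fin n) ⟨1, h1⟩ * Equiv.swap ⟨2, h2⟩ ⟨3, h3⟩ =
          Equiv.swap ⟨2, h2⟩ ⟨3, h3⟩ * Equiv.swap (⟨0, h0⟩ : Fin n) ⟨1, h1⟩ := by
        have hd : Equiv.Perm.Disjoint (Equiv.swap (⟨0, h0⟩ : Fin n) ⟨1, h1⟩)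
            (Equiv.swap ⟨2, h2⟩ ⟨3, h3⟩) := by
          intro x
          by_cases h6 : x = ⟨0, h0⟩
          · right
            subst h6
            exact Equiv.swap_apply_of_ne_of_ne (by simp) (by simp)
          · by_cases h7 : x = ⟨1, h1⟩
            · right
              subst h7
              exact Equiv.swap_apply_of_ne_of_ne (by simp) (by simp)
            · left
              exact Equiv.swap_apply_of_ne_of_ne h6 h7
        exact hd.commute.eq
      have key : ∀ a b : Equiv.Perm (Fin n), a * b = b * a → a * a = 1 → b * b = 1 →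
          a * b * (a * b) = 1 := by
        intro a b hab ha hb
        calc a * b * (a * b) = a * b * (b * a) := by rw [hab]
          _ = a * (b * b) * a := by simp only [mul_assoc]
          _ = 1 := by rw [hb, mul_one, ha]
      exact key _ _ hcomm (Equiv.swap_mul_self _ _) (Equiv.swap_mul_self _ _)
    have hmem : (⟨_, hx⟩ : alternatingGroup (Fin n)) ∈ Subgroup.closure
        (Set.range (Subtype.val : Inv n → alternatingGroup (Fin n))) :=
      Subgroup.subset_closure ⟨⟨_, hne, hsq⟩, rfl⟩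
    rw [h, Subgroup.mem_bot] at hmem
    exact hne hmem
  · exact h

/-- G4B -/
theorem alt_nonabelian (n : ℕ) (hn : 5 ≤ n) :
    ∃ x y : alternatingGroup (Fin n), x * y ≠ y * x := by
  have h0 : 0 < n := by omega
  have h1 : 1 < n := by omega
  have h2 : 2 < n := by omega
  have h3 : 3 < n := by omega
  have hx : (Equiv.swap (⟨0, h0⟩ : Fin n) ⟨1, h1⟩ * Equiv.swap ⟨1, h1⟩ ⟨2, h2⟩) ∈
      alternatingGroup (Fin n) := by
    rw [Equiv.Perm.mem_alternatingGroup, map_mul, Equiv.Perm.sign_swap (by simp),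
      Equiv.Perm.sign_swap (by simp)]
    norm_num
  have hy : (Equiv.swap (⟨1, h1⟩ : Fin n) ⟨2, h2⟩ * Equiv.swap ⟨2, h2⟩ ⟨3, h3⟩) ∈
      alternatingGroup (Fin n) := by
    rw [Equiv.Perm.mem_alternatingGroup, map_mul, Equiv.Perm.sign_swap (by simp),
      Equiv.Perm.sign_swap (by simp)]
    norm_num
  refine ⟨⟨_, hx⟩, ⟨_, hy⟩, fun h => ?_⟩
  have h4 := congrArg (fun z : alternatingGroup (Fin n) => (z : Equiv.Perm (Fin n)) ⟨3, h3⟩) h
  simp [Equiv.swap_apply_def] at h4

/-- G4C: `|A_n| ≤ d!` implies `n ≤ d`. -/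
theorem alt_card (n d : ℕ) (hn : 5 ≤ n) (h : Nat.card (alternatingGroup (Fin n)) ≤ d.factorial) :
    n ≤ d := by
  by_contra hnd
  push Not at hnd
  have : Nontrivial (Fin n) := Fin.nontrivial_iff_two_le.2 (by omega)
  have h1 : 2 * Nat.card (alternatingGroup (Fin n)) = Nat.card (Equiv.Perm (Fin n)) :=
    two_mul_nat_card_alternatingGroup
  have h2 : Nat.card (Equiv.Perm (Fin n)) = n.factorial := by
    rw [Nat.card_perm, Nat.card_eq_fintype_card, Fintype.card_fin]
  obtain ⟨m, rfl⟩ : ∃ m, n = m + 1 := ⟨n - 1, by omega⟩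
  have h3 : d.factorial ≤ m.factorial := Nat.factorial_le (by omega)
  have h4 := Nat.factorial_succ m
  have h5 := Nat.factorial_pos m
  have h6 : 5 * m.factorial ≤ (m + 1) * m.factorial := Nat.mul_le_mul_right _ hn
  omega

/-- G4D: word problems of finite groups are regular (DFA with states `G`). -/
theorem wordProblem_regular {α G : Type} [Group G] [Finite G] (g : α → G) :
    (wordProblem g).IsRegular := by
  have : Fintype G := Fintype.ofFinite G
  let M : DFA α G := ⟨fun s a => s * g a, 1, {1}⟩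
  have hM : ∀ (w : List α) (s : G), M.evalFrom s w = s * (w.map g).prod := by
    intro w
    induction w with
    | nil =>
      intro s
      rw [DFA.evalFrom_nil, List.map_nil, List.prod_nil, mul_one]
    | cons a w ih =>
      intro s
      rw [DFA.evalFrom_cons, ih, List.map_cons, List.prod_cons]
      show s * g a * _ = _
      rw [mul_assoc]
  refine ⟨G, this, M, ?_⟩
  ext w
  rw [DFA.mem_accepts]
  show M.evalFrom 1 w ∈ ({1} : Set G) ↔ (w.map g).prod = 1
  rw [hM, one_mul, Set.mem_singleton_iff]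

end Vale.Agent.P329L
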