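import Vale.Agent.P329L.WDefs

/-! # P329 lower bound: stability (modules AP1, AP2)

AP1: `Ap_mul`: let `n1`, `n2` be the bounds for `X`, `Y`; take `n0 = n1 + n2 + 1`.  A factorization of
`u ++ w^n ++ v` cuts inside `u` (pump in the second factor), inside `v` (pump in the first factor) or
inside a copy of `w`: `w = w1 ++ w2`, first factor `u ++ w^i ++ w1`, second `w2 ++ w^j ++ v`, `i + 1 + j = n`
and `i ≥ n1` or `j ≥ n2`.  (Hint: first prove a splitting lemma for `pw w n = p ++ q` : there are `i j w1 w2` with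
`p = pw w i ++ w1`, `q = w2 ++ pw w j`, `w = w1 ++ w2`, `i + 1 + j = n`, or `n = 0`.)
AP2: the other closure properties; for a letter use lengths (if `w = []` everything is trivial). -/

set_option autoImplicit false

namespace Vale.Agent.P329L

open Computability

theorem pw_split {α : Type} (w p q : List α) (n : ℕ) (h : pw w (n + 1) = p ++ q) :
    ∃ i j w1 w2, p = pw w i ++ w1 ∧ q = w2 ++ pw w j ∧ w = w1 ++ w2 ∧ i + j = n := by
  induction n generalizing p with
  | zero =>
    rw [pw_succ, pw_zero, List.append_nil] at h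
    exact ⟨0, 0, p, q, by rw [pw_zero, List.nil_append], by rw [pw_zero, List.append_nil], h, rfl⟩
  | succ n ih =>
    rw [pw_succ, List.append_eq_append_iff] at h
    rcases h with ⟨a', rfl, h2⟩ | ⟨c', h1, rfl⟩
    · obtain ⟨i, j, w1, w2, rfl, rfl, hw, hij⟩ := ih a' h2
      refine ⟨i + 1, j, w1, w2, ?_, rfl, hw, by omega⟩
      rw [pw_succ, List.append_assoc]
    · refine ⟨0, n + 1, p, c', by rw [pw_zero, List.nil_append], rfl, h1, by omega⟩

theorem AP1_all {α : Type} {X : Language α} {w : List α} {n0 : ℕ}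
    (h : ∀ n ≥ n0, ∀ u v : List α, u ++ pw w n ++ v ∈ X ↔ u ++ pw w (n + 1) ++ v ∈ X)
    (m n : ℕ) (hm : n0 ≤ m) (hn : n0 ≤ n) (u v : List α) (hx : u ++ pw w m ++ v ∈ X) :
    u ++ pw w n ++ v ∈ X := by
  have key : ∀ k, (u ++ pw w n0 ++ v ∈ X ↔ u ++ pw w (n0 + k) ++ v ∈ X) := by
    intro k
    induction k with
    | zero => exact Iff.rfl
    | succ k ih => exact ih.trans (h (n0 + k) (by omega) u v)
  obtain ⟨a, rfl⟩ := Nat.exists_eq_add_of_le hm
  obtain ⟨b, rfl⟩ := Nat.exists_eq_add_of_le hn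
  exact (key b).1 ((key a).2 hx)

theorem AP1_step {α : Type} {X Y : Language α} {w : List α} {n1 n2 : ℕ}
    (h1 : ∀ n ≥ n1, ∀ u v : List α, u ++ pw w n ++ v ∈ X ↔ u ++ pw w (n + 1) ++ v ∈ X)
    (h2 : ∀ n ≥ n2, ∀ u v : List α, u ++ pw w n ++ v ∈ Y ↔ u ++ pw w (n + 1) ++ v ∈ Y)
    (s t : ℕ) (hs : n1 + n2 + 2 ≤ s) (ht : s ≤ t + 1) (u v : List α)
    (hx : u ++ pw w s ++ v ∈ X * Y) : u ++ pw w t ++ v ∈ X * Y := by
  rw [Language.mem_mul] at hx ⊢
  obtain ⟨a, ha, b, hb, hab⟩ := hx
  obtain ⟨s, rfl⟩ : ∃ s', s = s' + 1 := ⟨s - 1, by omega⟩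
  rw [List.append_assoc, List.append_eq_append_iff] at hab
  rcases hab with ⟨c, rfl, hc⟩ | ⟨c, rfl, hc⟩
  · -- `u = a ++ c`, `b = c ++ (pw ++ v)`
    refine ⟨a, ha, c ++ pw w t ++ v, ?_, by simp only [List.append_assoc]⟩
    refine AP1_all h2 (s + 1) t (by omega) (by omega) c v ?_
    rw [List.append_assoc, ← hc]
    exact hb
  · -- `a = u ++ c`, `pw ++ v = c ++ b`
    rw [List.append_eq_append_iff] at hc
    rcases hc with ⟨d, hd1, hd2⟩ | ⟨d, hd1, hd2⟩
    · -- `c = pw ++ d`, `v = d ++ b`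
      subst hd1
      subst hd2
      refine ⟨u ++ pw w t ++ d, ?_, b, hb, by simp only [List.append_assoc]⟩
      refine AP1_all h1 (s + 1) t (by omega) (by omega) u d ?_
      rw [List.append_assoc]
      exact ha
    · -- `pw = c ++ d`, `b = d ++ v`
      subst hd2
      obtain ⟨i, j, w1, w2, rfl, rfl, hw, hij⟩ := pw_split w c d s hd1
      have key : ∀ i' j', i' + j' + 1 = t → u ++ (pw w i' ++ w1) ++ (w2 ++ pw w j' ++ v) =
          u ++ pw w t ++ v := by
        intro i' j' hij'
        have h3 : pw w t = pw w i' ++ (w1 ++ w2 ++ pw w j') := by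
          rw [← hw, ← pw_succ, ← pw_add]
          congr 1
          omega
        rw [h3]
        simp only [List.append_assoc]
      rcases (by omega : n1 + 1 ≤ i ∨ n2 + 1 ≤ j) with hi | hj
      · refine ⟨u ++ (pw w (t - 1 - j) ++ w1), ?_, w2 ++ pw w j ++ v, hb, key _ _ (by omega)⟩
        rw [← List.append_assoc]
        refine AP1_all h1 i (t - 1 - j) (by omega) (by omega) u w1 ?_
        rw [List.append_assoc]
        exact ha
      · refine ⟨u ++ (pw w i ++ w1), ha, w2 ++ pw w (t - 1 - i) ++ v, ?_, key _ _ (by omega)⟩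
        exact AP1_all h2 j (t - 1 - i) (by omega) (by omega) w2 v hb

theorem Ap_mul {α : Type} {X Y : Language α} {w : List α} (hX : Ap X w) (hY : Ap Y w) :
    Ap (X * Y) w := by
  obtain ⟨n1, h1⟩ := hX
  obtain ⟨n2, h2⟩ := hY
  refine ⟨n1 + n2 + 2, fun n hn u v => ⟨fun h => ?_, fun h => ?_⟩⟩
  · exact AP1_step h1 h2 n (n + 1) hn (by omega) u v h
  · exact AP1_step h1 h2 (n + 1) n (by omega) (by omega) u v h

theorem Ap_compl {α : Type} {X : Language α} {w : List α} (hX : Ap X w) : Ap Xᶜ w := by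
  obtain ⟨n0, h⟩ := hX
  exact ⟨n0, fun n hn u v => not_congr (h n hn u v)⟩

theorem Ap_add {α : Type} {X Y : Language α} {w : List α} (hX : Ap X w) (hY : Ap Y w) :
    Ap (X + Y) w := by
  obtain ⟨n1, h1⟩ := hX
  obtain ⟨n2, h2⟩ := hY
  refine ⟨max n1 n2, fun n hn u v => ?_⟩
  rw [Language.mem_add, Language.mem_add]
  exact or_congr (h1 n (le_trans (le_max_left _ _) hn) u v)
    (h2 n (le_trans (le_max_right _ _) hn) u v)

theorem Ap_zero {α : Type} (w : List α) : Ap (0 : Language α) w :=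
  ⟨0, fun _ _ _ _ => Iff.rfl⟩

theorem AP2_nil {α : Type} (n : ℕ) : pw ([] : List α) n = [] := by
  induction n with
  | zero => rfl
  | succ n ih => rw [pw_succ, ih, List.nil_append]

theorem AP2_len {α : Type} (w : List α) (n : ℕ) : (pw w n).length = n * w.length := by
  induction n with
  | zero => rw [pw_zero, Nat.zero_mul, List.length_nil]
  | succ n ih => rw [pw_succ, List.length_append, ih, Nat.succ_mul, Nat.add_comm]

theorem AP2_word {α : Type} (r w : List α) : Ap ({r} : Language α) w := by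
  rcases w.eq_nil_or_concat with h | ⟨w', a, h⟩
  · subst h
    refine ⟨0, fun n _ u v => ?_⟩
    rw [AP2_nil, AP2_nil]
  · have hpos : 0 < w.length := by
      rw [h]
      simp
    have key : ∀ n, r.length + 1 ≤ n → ∀ u v : List α, u ++ pw w n ++ v ≠ r := by
      intro n hn u v he
      have h1 := congrArg List.length he
      rw [List.length_append, List.length_append, AP2_len] at h1
      have h2 : n * 1 ≤ n * w.length := Nat.mul_le_mul_left n hpos
      omega
    refine ⟨r.length + 1, fun n hn u v => ?_⟩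
    constructor
    · intro h1
      exact absurd h1 (key n hn u v)
    · intro h1
      exact absurd h1 (key (n + 1) (by omega) u v)

theorem AP2_top {α : Type} (w : List α) : Ap (⊤ : Language α) w :=
  ⟨0, fun _ _ _ _ => Iff.rfl⟩

theorem Ap_one {α : Type} (w : List α) : Ap (1 : Language α) w := AP2_word [] w

theorem Ap_letter {α : Type} (a : α) (w : List α) : Ap ({[a]} : Language α) w := AP2_word [a] w

/-- `Kr K r = K ⊓ (⊤ * {r} * ⊤)ᶜ` -/
theorem Ap_Kr {α : Type} {K : Language α} {w : List α} (hK : Ap K w) (r : List α) :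
    Ap (Kr K r) w := by
  have h1 : Ap ((⊤ : Language α) * ({r} : Language α) * ⊤) w :=
    Ap_mul (Ap_mul (AP2_top w) (AP2_word r w)) (AP2_top w)
  have hiff : ∀ k : List α, r <:+: k ↔ k ∈ (⊤ : Language α) * ({r} : Language α) * ⊤ := by
    intro k
    constructor
    · rintro ⟨s, t, rfl⟩
      rw [Language.mem_mul]
      refine ⟨s ++ r, ?_, t, trivial, rfl⟩
      rw [Language.mem_mul]
      exact ⟨s, trivial, r, rfl, rfl⟩
    · intro h
      rw [Language.mem_mul] at h
      obtain ⟨a, ha, t, -, rfl⟩ := h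
      rw [Language.mem_mul] at ha
      obtain ⟨s, -, r', hr, rfl⟩ := ha
      have hr2 : r' = r := hr
      subst hr2
      exact ⟨s, t, rfl⟩
  obtain ⟨n1, k1⟩ := hK
  obtain ⟨n2, k2⟩ := h1
  refine ⟨max n1 n2, fun n hn u v => ?_⟩
  have e1 := k1 n (le_trans (le_max_left _ _) hn) u v
  have e2 := k2 n (le_trans (le_max_right _ _) hn) u v
  rw [← hiff, ← hiff] at e2
  exact and_congr e1 (not_congr e2)

theorem AP2_pow {α G : Type} [Group G] (g : List α → G) (hnil : g [] = 1)
    (hg : ∀ u v, g (u ++ v) = g u * g v) (w : List α) (n : ℕ) : g (pw w n) = g w ^ n := by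
  induction n with
  | zero => rw [pw_zero, hnil, pow_zero]
  | succ n ih => rw [pw_succ, hg, ih, pow_succ']

/-- powers: if `g` is multiplicative into a finite group and the fibre of `1` is stable for `w` then
`g w = 1` -/
theorem Ap_group {α G : Type} [Group G] [Finite G] (g : List α → G) (hnil : g [] = 1)
    (hg : ∀ u v, g (u ++ v) = g u * g v) {w : List α}
    (h : Ap ({x | g x = 1} : Set (List α)) w) : g w = 1 := by
  obtain ⟨n0, h0⟩ := h
  have hc : 0 < Nat.card G := Nat.card_pos
  have hn : n0 ≤ Nat.card G * n0 := Nat.le_mul_of_pos_left n0 hc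
  have h1 := h0 (Nat.card G * n0) hn [] []
  have h2 : g (pw w (Nat.card G * n0)) = 1 := by
    rw [AP2_pow g hnil hg, pow_mul, pow_card_eq_one', one_pow]
  have h3 : ([] : List α) ++ pw w (Nat.card G * n0) ++ [] ∈ ({x | g x = 1} : Set (List α)) := by
    rw [List.nil_append, List.append_nil]
    exact h2
  have h4 := h1.1 h3
  rw [List.nil_append, List.append_nil] at h4
  have h5 : g (pw w (Nat.card G * n0 + 1)) = 1 := h4
  rw [AP2_pow g hnil hg, pow_succ, pow_mul, pow_card_eq_one', one_pow, one_mul] at h5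
  exact h5

end Vale.Agent.P329L
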