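import Vale.Agent.P329L.WDefs

/-! # P329 lower bound: cutting (modules CUT, HMUL)

CUT: `star_split`: a factorization of `x ++ y ∈ K∗` has a cut at the border or a word of `K` across it
(induction on the list of factors, `Language.mem_kstar`).  `star_split3`: for `x ++ m ++ y ∈ K∗` either a word of `K` covers `m`
or there is a cut inside `m` (from `star_split` applied to `x` and `m ++ y`).
HMUL: `Hm` is multiplicative: the middle `r` has a cut, since words of `Kr K r` do not contain `r`. -/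

set_option autoImplicit false

namespace Vale.Agent.P329L

open Computability

theorem star_append {α : Type} {K : Language α} {x y : List α} (hx : x ∈ K∗) (hy : y ∈ K∗) :
    x ++ y ∈ K∗ := by
  rw [Language.mem_kstar] at hx hy ⊢
  obtain ⟨L, rfl, hL⟩ := hx
  obtain ⟨L', rfl, hL'⟩ := hy
  refine ⟨L ++ L', List.flatten_append.symm, fun z hz => ?_⟩
  rcases List.mem_append.1 hz with h | h
  · exact hL z h
  · exact hL' z h

theorem star_mono' {α : Type} {K K' : Language α} (h : ∀ k ∈ K, k ∈ K') {x : List α} (hx : x ∈ K∗) :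
    x ∈ K'∗ := by
  rw [Language.mem_kstar] at hx ⊢
  obtain ⟨L, rfl, hL⟩ := hx
  exact ⟨L, rfl, fun z hz => h z (hL z hz)⟩

private theorem CUT_single {α : Type} {K : Language α} {x : List α} (hx : x ∈ K) : x ∈ K∗ := by
  rw [Language.mem_kstar]
  exact ⟨[x], by simp, fun z hz => by rw [List.mem_singleton.1 hz]; exact hx⟩

private theorem CUT_split {α : Type} {K : Language α} (L : List (List α)) (hL : ∀ z ∈ L, z ∈ K) :
    ∀ x y : List α, x ++ y = L.flatten →
    (x ∈ K∗ ∧ y ∈ K∗) ∨ ∃ x1 x2 y1 y2, x = x1 ++ x2 ∧ y = y1 ++ y2 ∧ x1 ∈ K∗ ∧ y2 ∈ K∗ ∧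
      x2 ++ y1 ∈ K ∧ x2 ≠ [] ∧ y1 ≠ [] := by
  induction L with
  | nil =>
    intro x y h
    rw [List.flatten_nil, List.append_eq_nil_iff] at h
    rw [h.1, h.2]
    exact Or.inl ⟨Language.nil_mem_kstar K, Language.nil_mem_kstar K⟩
  | cons k L ih =>
    intro x y h
    have hk : k ∈ K := hL k List.mem_cons_self
    have hL' : ∀ z ∈ L, z ∈ K := fun z hz => hL z (List.mem_cons_of_mem _ hz)
    have hf : L.flatten ∈ K∗ := by
      rw [Language.mem_kstar]
      exact ⟨L, rfl, hL'⟩
    rw [List.flatten_cons] at h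
    rcases List.append_eq_append_iff.1 h with ⟨a, ha, hb⟩ | ⟨c, hc, hd⟩
    · by_cases hx0 : x = []
      · left
        subst hx0
        refine ⟨Language.nil_mem_kstar K, ?_⟩
        have : y = k ++ L.flatten := by simpa using h
        rw [this]
        exact star_append (CUT_single hk) hf
      · by_cases ha0 : a = []
        · left
          subst ha0
          rw [List.append_nil] at ha
          rw [List.nil_append] at hb
          rw [← ha, hb]
          exact ⟨CUT_single hk, hf⟩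
        · right
          exact ⟨[], x, a, L.flatten, rfl, hb, Language.nil_mem_kstar K, hf, ha ▸ hk, hx0, ha0⟩
    · rcases ih hL' c y hd.symm with ⟨h1, h2⟩ | ⟨x1, x2, y1, y2, e1, e2, h1, h2, h3, h4, h5⟩
      · left
        rw [hc]
        exact ⟨star_append (CUT_single hk) h1, h2⟩
      · right
        refine ⟨k ++ x1, x2, y1, y2, ?_, e2, star_append (CUT_single hk) h1, h2, h3, h4, h5⟩
        rw [hc, e1, List.append_assoc]

theorem star_split {α : Type} {K : Language α} {x y : List α} (h : x ++ y ∈ K∗) :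
    (x ∈ K∗ ∧ y ∈ K∗) ∨ ∃ x1 x2 y1 y2, x = x1 ++ x2 ∧ y = y1 ++ y2 ∧ x1 ∈ K∗ ∧ y2 ∈ K∗ ∧
      x2 ++ y1 ∈ K ∧ x2 ≠ [] ∧ y1 ≠ [] := by
  obtain ⟨L, e, hL⟩ := Language.mem_kstar.1 h
  exact CUT_split L hL x y e

theorem star_split3 {α : Type} {K : Language α} {x m y : List α} (h : x ++ m ++ y ∈ K∗) :
    (∃ m1 m2, m = m1 ++ m2 ∧ x ++ m1 ∈ K∗ ∧ m2 ++ y ∈ K∗) ∨
      ∃ x1 x2 y1 y2, x = x1 ++ x2 ∧ y = y1 ++ y2 ∧ x1 ∈ K∗ ∧ y2 ∈ K∗ ∧ x2 ++ m ++ y1 ∈ K := by
  rw [List.append_assoc] at h
  rcases star_split h with ⟨h1, h2⟩ | ⟨x1, x2, y1, y2, e1, e2, h1, h2, h3, -, -⟩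
  · exact Or.inl ⟨[], m, rfl, by rwa [List.append_nil], h2⟩
  · rcases List.append_eq_append_iff.1 e2 with ⟨a, ha, hb⟩ | ⟨c, hc, hd⟩
    · right
      refine ⟨x1, x2, a, y2, e1, hb, h1, h2, ?_⟩
      rw [List.append_assoc, ← ha]
      exact h3
    · left
      refine ⟨y1, c, hc, ?_, ?_⟩
      · rw [e1, List.append_assoc]
        exact star_append h1 (CUT_single h3)
      · rw [← hd]
        exact h2

theorem Kr_cut {α : Type} {K : Language α} {r x y : List α} (h : x ++ r ++ y ∈ (Kr K r)∗) :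
    ∃ q : Fin (r.length + 1), x ++ r.take q ∈ (Kr K r)∗ ∧ r.drop q ++ y ∈ (Kr K r)∗ := by
  rcases star_split3 h with ⟨m1, m2, hm, h1, h2⟩ | ⟨x1, x2, y1, y2, _, _, _, _, h5⟩
  · refine ⟨⟨m1.length, by rw [hm, List.length_append]; omega⟩, ?_, ?_⟩
    · have e1 : r.take m1.length = m1 := by
        rw [hm]
        simp
      show x ++ r.take m1.length ∈ (Kr K r)∗
      rw [e1]
      exact h1
    · have e2 : r.drop m1.length = m2 := by
        rw [hm]
        simp
      show r.drop m1.length ++ y ∈ (Kr K r)∗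
      rw [e2]
      exact h2
  · exact absurd ⟨x2, y1, rfl⟩ h5.2

theorem Hm_mul {α : Type} (K : Language α) (r w w' : List α) :
    Hm K r (w ++ r ++ w') = rcomp (Hm K r w) (Hm K r w') := by
  funext s s'
  apply propext
  constructor
  · intro h
    have h' : (r.drop s ++ w) ++ r ++ (w' ++ r.take s') ∈ (Kr K r)∗ := by
      have e : (r.drop s ++ w) ++ r ++ (w' ++ r.take s') =
          r.drop s ++ (w ++ r ++ w') ++ r.take s' := by
        simp only [List.append_assoc]
      rw [e]
      exact h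
    obtain ⟨q, h1, h2⟩ := Kr_cut h'
    refine ⟨q, h1, ?_⟩
    show r.drop q ++ w' ++ r.take s' ∈ (Kr K r)∗
    rw [List.append_assoc]
    exact h2
  · rintro ⟨q, h1, h2⟩
    have h3 := star_append h1 h2
    have e : r.drop s ++ w ++ r.take q ++ (r.drop q ++ w' ++ r.take s') =
        r.drop s ++ (w ++ r ++ w') ++ r.take s' := by
      have e1 : r.take q ++ (r.drop q ++ (w' ++ r.take s')) = r ++ (w' ++ r.take s') := by
        rw [← List.append_assoc, List.take_append_drop]
      simp only [List.append_assoc]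
      rw [e1]
    rw [e] at h3
    exact h3

end Vale.Agent.P329L
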