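import Mathlib

/-! # P329 lower bound (word part): definitions

Plan of the proof (helper32, helper16).  `K i` (`i : I` finite) star-free languages, `g` a morphism onto a
finite simple nonabelian group, all letters involutions.

* `Ap X w`: `w` is stable for `X`.  Star-free languages satisfy `Ap X w` for all `w` and `FinIdx X`.
* if the language of `g` is built from the `(K i)∗` then (`Ap ((K i)∗) w` for all `i`) implies `g w = 1`.
* `r` : a word with `g r = 1`, two different letters, `x r y ∈ K i ↔ x r t r y ∈ K i` for all `i`.
* `Kr K r` : words of `K` that do not contain `r`; `Hm K r w s s' : r.drop s ++ w ++ r.take s' ∈ (Kr K r)∗`,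
  slots `s, s' ≤ r.length`.  `Hm` is multiplicative for `w * w' = w ++ r ++ w'` and if `Hm (K i) r w` is idempotent for
  all `i` then `Ap ((K i)∗) (r ++ w)` for all `i`, hence `g w = 1`.
* run lemma: `Hm K r (a^n)` for large `n` = constant part or phases mod `d = gcd {t | a^t ∈ K}`.
* then the abstract theorem (file Abs) gives `|G| ≤ D!`. -/

set_option autoImplicit false

namespace Vale.Agent.P329L

open Computability

/-- powers of words -/
def pw {α : Type} (w : List α) (n : ℕ) : List α := (List.replicate n w).flatten

/-- `w` is (uniformly) stable for the language `X` -/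
def Ap {α : Type} (X : Language α) (w : List α) : Prop :=
  ∃ n0, ∀ n ≥ n0, ∀ u v : List α, u ++ pw w n ++ v ∈ X ↔ u ++ pw w (n + 1) ++ v ∈ X

/-- the syntactic congruence of `X` has finite index -/
def FinIdx {α : Type} (X : Language α) : Prop :=
  ∃ (ι : Type) (_ : Finite ι) (φ : List α → ι), ∀ u v, φ u = φ v →
    ∀ x y : List α, x ++ u ++ y ∈ X ↔ x ++ v ++ y ∈ X

/-- `r` can be doubled inside words of `K` -/
def RB {α : Type} (K : Language α) (r : List α) : Prop :=
  ∀ x y t : List α, x ++ r ++ y ∈ K ↔ x ++ r ++ t ++ r ++ y ∈ K

/-- the words of `K` without factor `r` -/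
def Kr {α : Type} (K : Language α) (r : List α) : Language α := {k | k ∈ K ∧ ¬ r <:+: k}

/-- the slot relation of the word `w` -/
def Hm {α : Type} (K : Language α) (r w : List α) (s s' : Fin (r.length + 1)) : Prop :=
  r.drop s ++ w ++ r.take s' ∈ (Kr K r)∗

/-- composition of relations -/
def rcomp {X : Type} (M N : X → X → Prop) : X → X → Prop := fun x z => ∃ y, M x y ∧ N y z

theorem pw_zero {α : Type} (w : List α) : pw w 0 = [] := rfl

theorem pw_succ {α : Type} (w : List α) (n : ℕ) : pw w (n + 1) = w ++ pw w n := rfl

theorem pw_add {α : Type} (w : List α) (m n : ℕ) : pw w (m + n) = pw w m ++ pw w n := by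
  unfold pw
  rw [List.replicate_add, List.flatten_append]

theorem pw_succ' {α : Type} (w : List α) (n : ℕ) : pw w (n + 1) = pw w n ++ w := by
  rw [pw_add, pw_succ, pw_zero, List.append_nil]

theorem pw_singleton {α : Type} (a : α) (n : ℕ) : pw [a] n = List.replicate n a := by
  induction n with
  | zero => rfl
  | succ n ih => rw [pw_succ, ih]; rfl

end Vale.Agent.P329L
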