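import Vale.Agent.P329L.Defs
import Vale.Agent.P329L.WAp
import Vale.Agent.P329L.WFin

/-! # P329 lower bound: expressions (module EXPR): easy inductions on the expression -/

set_option autoImplicit false

namespace Vale.Agent.P329L

open Vale.Agent.P329 Computability

theorem Ap_expr {α : Type} (w : List α) (E : GRE α) (h : ∀ P ∈ starred E, Ap (P.lang∗) w) :
    Ap E.lang w := by
  induction E with
  | zero => exact Ap_zero w
  | one => exact Ap_one w
  | letter a => exact Ap_letter a w
  | plus P Q ihP ihQ =>
    exact Ap_add (ihP fun R hR => h R (Or.inl hR)) (ihQ fun R hR => h R (Or.inr hR))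
  | cat P Q ihP ihQ =>
    exact Ap_mul (ihP fun R hR => h R (Or.inl hR)) (ihQ fun R hR => h R (Or.inr hR))
  | neg P ihP => exact Ap_compl (ihP h)
  | star P _ => exact h P (Set.mem_insert _ _)

theorem FinIdx_expr {α : Type} (E : GRE α) : FinIdx E.lang := by
  induction E with
  | zero => exact FinIdx_zero
  | one => exact FinIdx_one
  | letter a => exact FinIdx_letter a
  | plus P Q ihP ihQ => exact FinIdx_add ihP ihQ
  | cat P Q ihP ihQ => exact FinIdx_mul ihP ihQ
  | neg P ihP => exact FinIdx_compl ihP
  | star P ihP => exact FinIdx_star ihP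

theorem starred_finite_w {α : Type} (E : GRE α) : (starred E).Finite := by
  induction E with
  | zero => exact Set.finite_empty
  | one => exact Set.finite_empty
  | letter a => exact Set.finite_empty
  | plus P Q ihP ihQ => exact ihP.union ihQ
  | cat P Q ihP ihQ => exact ihP.union ihQ
  | neg P ihP => exact ihP
  | star P ihP => exact ihP.insert P

theorem starred_sh {α : Type} (E : GRE α) (n : ℕ) (hE : E.sh ≤ n + 1) : ∀ P ∈ starred E, P.sh ≤ n := by
  induction E with
  | zero => intro P hP; exact absurd hP (Set.notMem_empty _)
  | one => intro P hP; exact absurd hP (Set.notMem_empty _)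
  | letter a => intro P hP; exact absurd hP (Set.notMem_empty _)
  | plus P Q ihP ihQ =>
    intro R hR
    have h1 : max P.sh Q.sh ≤ n + 1 := hE
    rcases hR with hR | hR
    · exact ihP ((le_max_left _ _).trans h1) R hR
    · exact ihQ ((le_max_right _ _).trans h1) R hR
  | cat P Q ihP ihQ =>
    intro R hR
    have h1 : max P.sh Q.sh ≤ n + 1 := hE
    rcases hR with hR | hR
    · exact ihP ((le_max_left _ _).trans h1) R hR
    · exact ihQ ((le_max_right _ _).trans h1) R hR
  | neg P ihP => exact ihP hE
  | star P ihP =>
    intro R hR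
    have h1 : P.sh + 1 ≤ n + 1 := hE
    rcases hR with hR | hR
    · rw [hR]
      omega
    · exact ihP (by omega) R hR

theorem starred_empty {α : Type} (E : GRE α) (hE : E.sh = 0) : starred E = ∅ := by
  induction E with
  | zero => rfl
  | one => rfl
  | letter a => rfl
  | plus P Q ihP ihQ =>
    have h1 : max P.sh Q.sh = 0 := hE
    have h2 := le_max_left P.sh Q.sh
    have h3 := le_max_right P.sh Q.sh
    show starred P ∪ starred Q = ∅
    rw [ihP (by omega), ihQ (by omega), Set.union_empty]
  | cat P Q ihP ihQ =>
    have h1 : max P.sh Q.sh = 0 := hE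
    have h2 := le_max_left P.sh Q.sh
    have h3 := le_max_right P.sh Q.sh
    show starred P ∪ starred Q = ∅
    rw [ihP (by omega), ihQ (by omega), Set.union_empty]
  | neg P ihP => exact ihP hE
  | star P ihP =>
    have h1 : P.sh + 1 = 0 := hE
    omega

end Vale.Agent.P329L
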