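import Vale.Agent.P329L.WDefs
import Vale.Agent.P329L.Run

/-! # P329 lower bound: runs of one letter (module RUN, helper24)

`K` satisfies `Ap K [a]`; `d = gcd {t | a^t ∈ K}`.  For large `n` the condition `u a^n v ∈ K∗` is either true
for all large `n` or decided by phases modulo `d`, uniformly in `u`, `v`. -/

set_option autoImplicit false

namespace Vale.Agent.P329L

open Computability

theorem wr_iff {α : Type} (K : Language α) (x : List α) : x ∈ K∗ ↔ Ch (K : Set (List α)) x := by
  rw [Language.mem_kstar]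
  constructor
  · rintro ⟨L, hL, hK⟩
    exact ⟨L, hL.symm, hK⟩
  · rintro ⟨L, hL, hK⟩
    exact ⟨L, hL.symm, hK⟩

theorem wr_stab {α : Type} {K : Set (List α)} {a : α} {m0 : ℕ}
    (hst : ∀ m, m0 ≤ m → ∀ u v, u ++ (List.replicate m a ++ v) ∈ K ↔
      u ++ (List.replicate (m + 1) a ++ v) ∈ K) {m m' : ℕ} (hm : m0 ≤ m) (hm' : m0 ≤ m')
    (u v : List α) (h : u ++ (List.replicate m a ++ v) ∈ K) :
    u ++ (List.replicate m' a ++ v) ∈ K := by
  have key : ∀ n, m0 ≤ n → (u ++ (List.replicate n a ++ v) ∈ K ↔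
      u ++ (List.replicate m0 a ++ v) ∈ K) := by
    intro n hn
    induction n, hn using Nat.le_induction with
    | base => exact Iff.rfl
    | succ n hn ih => exact (hst n hn u v).symm.trans ih
  exact (key m' hm').2 ((key m hm).1 h)

theorem wr_shrinkR {α : Type} {K : Set (List α)} {a : α} {m0 : ℕ}
    (hst : ∀ m, m0 ≤ m → ∀ u v, u ++ (List.replicate m a ++ v) ∈ K ↔
      u ++ (List.replicate (m + 1) a ++ v) ∈ K) (L : List (List α)) :
    ∀ (j : ℕ) (v : List α), L.flatten = List.replicate j a ++ v → (∀ y ∈ L, y ∈ K) →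
      ∃ j', j' ≤ m0 ∧ Ch K (List.replicate j' a ++ v) := by
  induction L with
  | nil =>
    intro j v h _
    have h1 : List.replicate j a ++ v = [] := h.symm
    have h2 := (List.append_eq_nil_iff.1 h1).2
    refine ⟨0, Nat.zero_le _, ?_⟩
    rw [h2]
    exact Ch_nil K
  | cons w L ih =>
    intro j v h hK
    have hw : w ∈ K := hK w (by simp)
    have hL : ∀ y ∈ L, y ∈ K := fun y hy => hK y (by simp [hy])
    rw [List.flatten_cons, List.append_eq_append_iff] at h
    rcases h with ⟨w', hw1, hw2⟩ | ⟨q, hq1, hq2⟩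
    · have h1 := List.append_eq_replicate_iff.1 hw1.symm
      rw [h1.2.2] at hw2
      exact ih _ v hw2 hL
    · by_cases hj : j ≤ m0
      · refine ⟨j, hj, ?_⟩
        rw [hq2, ← List.append_assoc, ← hq1]
        exact Ch_append (Ch_one hw) ⟨L, rfl, hL⟩
      · refine ⟨m0, le_rfl, ?_⟩
        rw [hq1] at hw
        have h1 := wr_stab hst (m := j) (m' := m0) (by omega) le_rfl [] q (by simpa using hw)
        rw [List.nil_append] at h1
        rw [hq2, ← List.append_assoc]
        exact Ch_append (Ch_one h1) ⟨L, rfl, hL⟩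

theorem wr_shrinkL {α : Type} {K : Set (List α)} {a : α} {m0 : ℕ}
    (hst : ∀ m, m0 ≤ m → ∀ u v, u ++ (List.replicate m a ++ v) ∈ K ↔
      u ++ (List.replicate (m + 1) a ++ v) ∈ K) (L : List (List α)) :
    ∀ (i : ℕ) (u : List α), L.flatten = u ++ List.replicate i a → (∀ y ∈ L, y ∈ K) →
      ∃ i', i' ≤ m0 ∧ Ch K (u ++ List.replicate i' a) := by
  induction L with
  | nil =>
    intro i u h _
    have h1 : u ++ List.replicate i a = [] := h.symm
    have h2 := (List.append_eq_nil_iff.1 h1).1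
    refine ⟨0, Nat.zero_le _, ?_⟩
    rw [h2]
    exact Ch_nil K
  | cons w L ih =>
    intro i u h hK
    have hw : w ∈ K := hK w (by simp)
    have hL : ∀ y ∈ L, y ∈ K := fun y hy => hK y (by simp [hy])
    rw [List.flatten_cons, List.append_eq_append_iff] at h
    rcases h with ⟨u', hu1, hu2⟩ | ⟨w', hw1, hw2⟩
    · obtain ⟨i', hi', hC⟩ := ih i u' hu2 hL
      refine ⟨i', hi', ?_⟩
      rw [hu1, List.append_assoc]
      exact Ch_append (Ch_one hw) hC
    · have h1 := List.append_eq_replicate_iff.1 hw2.symm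
      rw [hw1, h1.2.1] at hw
      by_cases hj : w'.length ≤ m0
      · exact ⟨w'.length, hj, Ch_one hw⟩
      · refine ⟨m0, le_rfl, ?_⟩
        have h2 := wr_stab hst (m := w'.length) (m' := m0) (by omega) le_rfl u [] (by simpa using hw)
        rw [List.append_nil] at h2
        exact Ch_one h2

theorem wr_CC_all {α : Type} {K : Set (List α)} {a : α} {m0 : ℕ}
    (hst : ∀ m, m0 ≤ m → ∀ u v, u ++ (List.replicate m a ++ v) ∈ K ↔
      u ++ (List.replicate (m + 1) a ++ v) ∈ K) {n : ℕ} {u v : List α} (h : CC K a m0 n u v)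
    (m : ℕ) (hm : 3 * m0 ≤ m) : Ch K (u ++ (List.replicate m a ++ v)) := by
  obtain ⟨i, k, j, x, p, q, y, _, h2, h3, h4, h5, h6, h7⟩ := h
  -- left side
  obtain ⟨i1, x1, p1, hi1, hx1, hu1, hp1⟩ : ∃ (i1 : ℕ) (x1 p1 : List α), i1 ≤ m0 ∧ Ch K x1 ∧
      u ++ List.replicate i1 a = x1 ++ p1 ∧
      ∀ k', m0 ≤ k' → p1 ++ (List.replicate k' a ++ q) ∈ K := by
    rw [List.append_eq_append_iff] at h6
    rcases h6 with ⟨x', hx1, hx2⟩ | ⟨u', hu1, hu2⟩
    · have h1 := List.append_eq_replicate_iff.1 hx2.symm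
      obtain ⟨L, hL, hK⟩ := h3
      rw [hx1, h1.2.1] at hL
      obtain ⟨i1, hi1, hC⟩ := wr_shrinkL hst L _ u hL hK
      refine ⟨i1, u ++ List.replicate i1 a, [], hi1, hC, by simp, ?_⟩
      intro k' hk'
      rw [h1.2.2, ← List.append_assoc, ← List.replicate_add] at h5
      have h8 := wr_stab hst (m := p.length + k) (m' := k') (by omega) hk' [] q (by simpa using h5)
      exact h8
    · refine ⟨0, x, u', Nat.zero_le _, h3, by simpa using hu1, ?_⟩
      intro k' hk'
      have h8 : u' ++ (List.replicate (i + k) a ++ q) ∈ K := by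
        rw [hu2, List.append_assoc, ← List.append_assoc (List.replicate i a),
          ← List.replicate_add] at h5
        exact h5
      exact wr_stab hst (by omega) hk' u' q h8
  -- right side
  obtain ⟨j1, y1, q1, hj1, hy1, hv1, hq1⟩ : ∃ (j1 : ℕ) (y1 q1 : List α), j1 ≤ m0 ∧ Ch K y1 ∧
      List.replicate j1 a ++ v = q1 ++ y1 ∧
      ∀ k', m0 ≤ k' → p1 ++ (List.replicate k' a ++ q1) ∈ K := by
    rw [List.append_eq_append_iff] at h7
    rcases h7 with ⟨q', hq1, hq2⟩ | ⟨y', hy1, hy2⟩
    · refine ⟨0, y, q', Nat.zero_le _, h4, by simpa using hq2, ?_⟩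
      intro k' hk'
      have h8 := hp1 m0 le_rfl
      rw [hq1, ← List.append_assoc (List.replicate m0 a), ← List.replicate_add] at h8
      exact wr_stab hst (by omega) hk' p1 q' h8
    · have h1 := List.append_eq_replicate_iff.1 hy1.symm
      obtain ⟨L, hL, hK⟩ := h4
      rw [hy2, h1.2.2] at hL
      obtain ⟨j1, hj1, hC⟩ := wr_shrinkR hst L _ v hL hK
      refine ⟨j1, List.replicate j1 a ++ v, [], hj1, hC, by simp, ?_⟩
      intro k' hk'
      have h8 := hp1 m0 le_rfl
      rw [h1.2.1, ← List.replicate_add] at h8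
      have h9 := wr_stab hst (m := m0 + q.length) (m' := k') (by omega) hk' p1 []
        (by simpa using h8)
      exact h9
  obtain ⟨s, hs⟩ : ∃ s, m = i1 + s + j1 ∧ m0 ≤ s := ⟨m - i1 - j1, by omega, by omega⟩
  have he : u ++ (List.replicate m a ++ v) = x1 ++ ((p1 ++ (List.replicate s a ++ q1)) ++ y1) := by
    rw [hs.1, List.replicate_add, List.replicate_add]
    have e1 : u ++ (List.replicate i1 a ++ List.replicate s a ++ List.replicate j1 a ++ v)
        = (u ++ List.replicate i1 a) ++ (List.replicate s a ++ (List.replicate j1 a ++ v)) := by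
      simp only [List.append_assoc]
    rw [e1, hu1, hv1]
    simp only [List.append_assoc]
  rw [he]
  exact Ch_append hx1 (Ch_append (Ch_one (hq1 s hs.2)) hy1)

theorem run {α : Type} {K : Language α} {a : α} (hAp : Ap K [a]) (d : ℕ)
    (hd : ∀ n : ℕ, (∀ t, List.replicate t a ∈ K → n ∣ t) ↔ n ∣ d) :
    ∃ n0 B, ∀ n ≥ n0, ∀ u v : List α, u ++ List.replicate n a ++ v ∈ K∗ ↔
      (∀ m ≥ n0, u ++ List.replicate m a ++ v ∈ K∗) ∨
      (0 < d ∧ ∃ p < B, ∃ q < B, p + q ≡ n [MOD d] ∧ u ++ List.replicate p a ∈ K∗ ∧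
        List.replicate q a ++ v ∈ K∗) := by
  obtain ⟨m1, hm1⟩ := hAp
  set K' : Set (List α) := K with hK'
  have hst : ∀ m, m1 + 1 ≤ m → ∀ u v : List α, u ++ (List.replicate m a ++ v) ∈ K' ↔
      u ++ (List.replicate (m + 1) a ++ v) ∈ K' := by
    intro m hm u v
    have h := hm1 m (by omega) u v
    rw [pw_singleton, pw_singleton, List.append_assoc, List.append_assoc] at h
    exact h
  set m0 := m1 + 1 with hm0
  have hdg : d = Nat.setGcd (TT K' a) := by
    apply Nat.dvd_antisymm
    · rw [Nat.dvd_setGcd_iff]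
      exact fun t ht => (hd d).2 dvd_rfl t ht
    · rw [← hd]
      exact fun t ht => Nat.setGcd_dvd_of_mem ht
  obtain ⟨N, hN⟩ := Nat.exists_mem_closure_of_ge (TT K' a)
  refine ⟨5 * m0 + N + 2, m0 + 1, ?_⟩
  intro n hn u v
  rw [wr_iff, List.append_assoc]
  constructor
  · rintro ⟨L, hL, hK⟩
    rcases run_cross (m0 := m0) (by omega) L n u v (by omega) hL hK with
      h | ⟨x0, s, y0, h1, h2, h3, h4, h5, h6⟩
    · left
      intro m hm
      rw [wr_iff, List.append_assoc]
      exact wr_CC_all hst h m (by omega)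
    · right
      have hds : d ∣ s := by
        rw [hdg]
        exact Nat.setGcd_dvd_of_mem_closure h2
      have hdpos : 0 < d := by
        rcases Nat.eq_zero_or_pos d with h0 | h0
        · exfalso
          rw [h0] at hds
          have := Nat.eq_zero_of_zero_dvd hds
          omega
        · exact h0
      refine ⟨hdpos, x0, by omega, y0, by omega, ?_, (wr_iff K _).2 h5, (wr_iff K _).2 h6⟩
      have h7 : n = (x0 + y0) + s := by omega
      rw [h7]
      obtain ⟨c, hc⟩ := hds
      rw [hc]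
      exact (Nat.ModEq.symm (by
        have : x0 + y0 + d * c ≡ x0 + y0 + 0 [MOD d] :=
          Nat.ModEq.add_left _ ((Nat.modEq_zero_iff_dvd).2 (dvd_mul_right d c))
        simpa using this))
  · rintro (h | ⟨_, p, hp, q, hq, hpq, hup, hqv⟩)
    · have h1 := h n (by omega)
      rw [wr_iff, List.append_assoc] at h1
      exact h1
    · obtain ⟨s, hs⟩ : ∃ s, n = p + s + q := ⟨n - p - q, by omega⟩
      have hds : d ∣ s := by
        have h1 : p + q ≤ n := by omega
        have h2 := (Nat.modEq_iff_dvd' h1).1 hpq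
        have h3 : n - (p + q) = s := by omega
        rwa [h3] at h2
      have hcl := Ch_closure (hN s (by omega) (hdg ▸ hds))
      have e1 : u ++ (List.replicate n a ++ v)
          = (u ++ List.replicate p a) ++ (List.replicate s a ++ (List.replicate q a ++ v)) := by
        rw [hs, List.replicate_add, List.replicate_add]
        simp only [List.append_assoc]
      rw [e1]
      exact Ch_append ((wr_iff K _).1 hup) (Ch_append hcl ((wr_iff K _).1 hqv))

end Vale.Agent.P329L
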